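import Vale.Agent.Lib.P254.Sym.Defs

open MeasureTheory Set

namespace Vale.Agent.Lib.P254

variable {n : ℕ}

lemma mem_sec {K : Set (Fin (n+1) → ℝ)} {t : ℝ} {y : Fin n → ℝ} :
    y ∈ sec K t ↔ (Fin.cons t y : Fin (n+1) → ℝ) ∈ K := Iff.rfl

private lemma continuous_cons (t : ℝ) :
    Continuous (fun y : Fin n → ℝ => (Fin.cons t y : Fin (n+1) → ℝ)) :=
  Continuous.finCons continuous_const continuous_id

private lemma sec_subset_closedBall {K : Set (Fin (n+1) → ℝ)} {r : ℝ}
    (hr : K ⊆ Metric.closedBall 0 r) (t : ℝ) :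
    sec K t ⊆ Metric.closedBall (0 : Fin n → ℝ) r := by
  intro y hy
  have h := hr (mem_sec.1 hy)
  rw [mem_closedBall_zero_iff] at h ⊢
  have hr0 : 0 ≤ r := le_trans (norm_nonneg _) h
  refine (pi_norm_le_iff_of_nonneg hr0).2 fun i => ?_
  have h1 := norm_le_pi_norm (Fin.cons t y : Fin (n+1) → ℝ) i.succ
  rw [Fin.cons_succ] at h1
  exact le_trans h1 h

private lemma abs_le_of_cons_mem {K : Set (Fin (n+1) → ℝ)} {r : ℝ}
    (hr : K ⊆ Metric.closedBall 0 r) {t : ℝ} {y : Fin n → ℝ}
    (h : (Fin.cons t y : Fin (n+1) → ℝ) ∈ K) : |t| ≤ r := by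
  have h0 := hr h
  rw [mem_closedBall_zero_iff] at h0
  have h1 := norm_le_pi_norm (Fin.cons t y : Fin (n+1) → ℝ) 0
  rw [Fin.cons_zero, Real.norm_eq_abs] at h1
  exact le_trans h1 h0

/-- Sections of a closed set are closed. -/
lemma isClosed_sec {K : Set (Fin (n+1) → ℝ)} (hK : IsClosed K) (t : ℝ) : IsClosed (sec K t) :=
  hK.preimage (continuous_cons t)

/-- Sections of a compact set are compact. -/
lemma isCompact_sec {K : Set (Fin (n+1) → ℝ)} (hK : IsCompact K) (t : ℝ) :
    IsCompact (sec K t) := by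
  obtain ⟨r, hr⟩ := hK.isBounded.subset_closedBall (0 : Fin (n+1) → ℝ)
  exact Metric.isCompact_of_isClosed_isBounded (isClosed_sec hK.isClosed t)
    (Metric.isBounded_closedBall.subset (sec_subset_closedBall hr t))

/-- Sections of a compact set are empty outside a bounded range of heights. -/
lemma sec_eq_empty_of_compact {K : Set (Fin (n+1) → ℝ)} (hK : IsCompact K) :
    ∃ R : ℝ, ∀ t, R < |t| → sec K t = ∅ := by
  obtain ⟨r, hr⟩ := hK.isBounded.subset_closedBall (0 : Fin (n+1) → ℝ)
  refine ⟨r, fun t ht => ?_⟩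
  rw [eq_empty_iff_forall_notMem]
  intro y hy
  exact absurd (abs_le_of_cons_mem hr (mem_sec.1 hy)) (not_le.mpr ht)

private lemma symm_eq_cons (t : ℝ) (y : Fin n → ℝ) :
    (MeasurableEquiv.piFinSuccAbove (fun _ : Fin (n+1) => ℝ) 0).symm (t, y) = Fin.cons t y := by
  ext i
  simp [MeasurableEquiv.piFinSuccAbove]

private lemma inner_eq {K : Set (Fin (n+1) → ℝ)} (hK : IsCompact K)
    (f : (Fin (n+1) → ℝ) → ℝ) (t : ℝ) :
    ∫ y : Fin n → ℝ, K.indicator f
        ((MeasurableEquiv.piFinSuccAbove (fun _ : Fin (n+1) => ℝ) 0).symm (t, y))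
      = ∫ y in sec K t, f (Fin.cons t y) := by
  rw [← integral_indicator (isClosed_sec hK.isClosed t).measurableSet]
  congr 1
  ext y
  rw [symm_eq_cons]
  by_cases hy : y ∈ sec K t
  · rw [indicator_of_mem hy, indicator_of_mem (mem_sec.1 hy)]
  · rw [indicator_of_notMem hy, indicator_of_notMem (fun h => hy (mem_sec.2 h))]

/-- Fubini: slicing an integral over a compact set by the first coordinate. -/
lemma integral_slice {K : Set (Fin (n+1) → ℝ)} (hK : IsCompact K)
    (f : (Fin (n+1) → ℝ) → ℝ) (hf : Continuous f) :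
    ∫ x in K, f x = ∫ t, ∫ y in sec K t, f (Fin.cons t y) := by
  have hS := hK.measurableSet
  have he := volume_preserving_piFinSuccAbove (fun _ : Fin (n+1) => ℝ) 0
  rw [← integral_indicator hS]
  have h1 : ∫ x, K.indicator f x = ∫ p : ℝ × (Fin n → ℝ), K.indicator f
      ((MeasurableEquiv.piFinSuccAbove (fun _ : Fin (n+1) => ℝ) 0).symm p) :=
    (he.symm.integral_comp
      (MeasurableEquiv.piFinSuccAbove (fun _ : Fin (n+1) => ℝ) 0).symm.measurableEmbedding
      _).symm
  rw [h1, Measure.volume_eq_prod, integral_prod]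
  · congr 1
    ext t
    exact inner_eq hK f t
  · rw [← Measure.volume_eq_prod]
    exact (he.symm.integrable_comp_emb
      (MeasurableEquiv.piFinSuccAbove (fun _ : Fin (n+1) => ℝ) 0).symm.measurableEmbedding).2
      ((hf.continuousOn.integrableOn_compact hK).integrable_indicator hS)

/-- The inner integrals of a continuous function form a measurable function of the height. -/
lemma measurable_slice {K : Set (Fin (n+1) → ℝ)} (hK : IsCompact K)
    (f : (Fin (n+1) → ℝ) → ℝ) (hf : Continuous f) :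
    Measurable (fun t => ∫ y in sec K t, f (Fin.cons t y)) := by
  have hF : Measurable (fun p : ℝ × (Fin n → ℝ) => K.indicator f
      ((MeasurableEquiv.piFinSuccAbove (fun _ : Fin (n+1) => ℝ) 0).symm p)) :=
    (hf.measurable.indicator hK.measurableSet).comp
      (MeasurableEquiv.piFinSuccAbove (fun _ : Fin (n+1) => ℝ) 0).symm.measurable
  have h1 := (hF.stronglyMeasurable.integral_prod_right'
    (ν := (volume : Measure (Fin n → ℝ)))).measurable
  have h2 : (fun t => ∫ y in sec K t, f (Fin.cons t y)) = fun t : ℝ =>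
      ∫ y : Fin n → ℝ, K.indicator f
        ((MeasurableEquiv.piFinSuccAbove (fun _ : Fin (n+1) => ℝ) 0).symm (t, y)) := by
    funext t
    exact (inner_eq hK f t).symm
  rw [h2]
  exact h1

private lemma vol_eq_integral_one {m : ℕ} (S : Set (Fin m → ℝ)) :
    vol S = ∫ _ in S, (1 : ℝ) := by
  rw [setIntegral_const, smul_eq_mul, mul_one]
  rfl

/-- The section-volume function is measurable. -/
lemma measurable_vol_sec {K : Set (Fin (n+1) → ℝ)} (hK : IsCompact K) :
    Measurable (fun t => vol (sec K t)) := by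
  have h := measurable_slice hK (fun _ => (1 : ℝ)) continuous_const
  have h2 : (fun t => vol (sec K t)) = fun t => ∫ _ in sec K t, (1 : ℝ) := by
    funext t
    exact vol_eq_integral_one _
  rw [h2]
  exact h

/-- The section-volume function is bounded. -/
lemma vol_sec_bounded {K : Set (Fin (n+1) → ℝ)} (hK : IsCompact K) :
    ∃ M : ℝ, ∀ t, vol (sec K t) ≤ M := by
  obtain ⟨r, hr⟩ := hK.isBounded.subset_closedBall (0 : Fin (n+1) → ℝ)
  refine ⟨(volume (Metric.closedBall (0 : Fin n → ℝ) r)).toReal, fun t => ?_⟩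
  exact ENNReal.toReal_mono (isCompact_closedBall (0 : Fin n → ℝ) r).measure_lt_top.ne
    (measure_mono (sec_subset_closedBall hr t))

/-- Volume by slices. -/
lemma vol_slice {K : Set (Fin (n+1) → ℝ)} (hK : IsCompact K) :
    vol K = ∫ t, vol (sec K t) := by
  rw [vol_eq_integral_one, integral_slice hK (fun _ => (1 : ℝ)) continuous_const]
  congr 1
  funext t
  exact (vol_eq_integral_one _).symm

end Vale.Agent.Lib.P254
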