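import Vale.Agent.Lib.P254.Sym.AdmBasic

open MeasureTheory Set

namespace Vale.Agent.Lib.P254

/-- Tail integral of a profile. -/
private noncomputable def tl (v : ℝ → ℝ) (s : ℝ) : ℝ := ∫ u in Ioi s, v u

private lemma tl_nonneg {v : ℝ → ℝ} (hv : Adm v) (s : ℝ) : 0 ≤ tl v s :=
  setIntegral_nonneg measurableSet_Ioi (fun u _ => hv.nonneg u)

private lemma tl_anti {v : ℝ → ℝ} (hv : Adm v) : Antitone (tl v) := by
  intro a b hab
  unfold tl
  exact setIntegral_mono_set hv.integrable.integrableOn
    (Filter.Eventually.of_forall fun u => hv.nonneg u) (Ioi_subset_Ioi hab).eventuallyLE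

private lemma tl_shift (v : ℝ → ℝ) (s t : ℝ) : tl v t = ∫ w in Ioi s, v (w + (t - s)) := by
  unfold tl
  rw [← integral_indicator measurableSet_Ioi, ← integral_indicator measurableSet_Ioi,
    ← integral_add_right_eq_self _ (t - s)]
  congr 1
  ext w
  simp only [indicator, mem_Ioi]
  by_cases h : s < w
  · rw [if_pos h, if_pos (by linarith)]
  · rw [if_neg h, if_neg (by linarith)]

private lemma tl_cross {v : ℝ → ℝ} (hv : Adm v) {s t : ℝ} (hs : 0 ≤ s) (hst : s ≤ t) :
    tl v t * v s ≤ tl v s * v t := by
  rw [tl_shift v s t]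
  unfold tl
  rw [← integral_mul_const, ← integral_mul_const]
  refine setIntegral_mono_on ?_ ?_ measurableSet_Ioi (fun w hw => ?_)
  · exact ((hv.integrable.comp_add_right (t - s)).mul_const _).integrableOn
  · exact (hv.integrable.mul_const _).integrableOn
  · have h1 := hv.logc s t (w - s) hs hst (by linarith [mem_Ioi.mp hw])
    have e1 : t + (w - s) = w + (t - s) := by ring
    have e2 : s + (w - s) = w := by ring
    rw [e1, e2] at h1
    linarith

private lemma G_nonneg {v : ℝ → ℝ} (hv : Adm v) {s t : ℝ} (hs : 0 ≤ s) (ht : 0 ≤ t) :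
    0 ≤ (tl v s * v t - tl v t * v s) * (v s - v t) := by
  rcases le_total s t with h | h
  · have h1 := tl_cross hv hs h
    have h2 := hv.anti s t hs h
    exact mul_nonneg (by linarith) (by linarith)
  · have h1 := tl_cross hv ht h
    have h2 := hv.anti t s ht h
    exact mul_nonneg_of_nonpos_of_nonpos (by linarith) (by linarith)

private lemma tl_integrableOn {v : ℝ → ℝ} (hv : Adm v) : IntegrableOn (tl v) (Ioi 0) := by
  obtain ⟨R, hR⟩ := hv.supp
  rw [← integrable_indicator_iff measurableSet_Ioi]
  refine integrable_of_bdd_supp ((tl_anti hv).measurable.indicator measurableSet_Ioi) (tl v 0) R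
    (fun s => ?_) (fun s hs => ?_)
  · by_cases h : s ∈ Ioi (0:ℝ)
    · rw [indicator_of_mem h, abs_of_nonneg (tl_nonneg hv s)]
      exact tl_anti hv (le_of_lt h)
    · rw [indicator_of_notMem h, abs_zero]; exact tl_nonneg hv 0
  · by_cases h : s ∈ Ioi (0:ℝ)
    · rw [indicator_of_mem h]
      apply setIntegral_eq_zero_of_forall_eq_zero
      intro u hu
      apply hR
      have h0 : (0:ℝ) < s := h
      rw [abs_of_pos h0] at hs
      have hu' : s < u := hu
      rw [abs_of_pos (by linarith)]
      linarith
    · rw [indicator_of_notMem h]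

private lemma tlv_integrableOn {v : ℝ → ℝ} (hv : Adm v) :
    IntegrableOn (fun s => tl v s * v s) (Ioi 0) := by
  have h1 : IntegrableOn (fun s => tl v 0 * v s) (Ioi 0) :=
    (hv.integrable.const_mul _).integrableOn
  refine Integrable.mono' h1 ((tl_anti hv).measurable.mul hv.meas).aestronglyMeasurable ?_
  refine ae_restrict_of_forall_mem measurableSet_Ioi (fun s hs => ?_)
  have h0 : (0:ℝ) < s := hs
  rw [Real.norm_eq_abs, abs_of_nonneg (mul_nonneg (tl_nonneg hv s) (hv.nonneg s))]
  exact mul_le_mul_of_nonneg_right (tl_anti hv h0.le) (hv.nonneg s)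

private lemma lin4 {μ : Measure ℝ} {f1 f2 f3 f4 : ℝ → ℝ} (h1 : Integrable f1 μ)
    (h2 : Integrable f2 μ) (h3 : Integrable f3 μ) (h4 : Integrable f4 μ) (a b c d : ℝ) :
    ∫ t, (a * f1 t - b * f2 t - c * f3 t + d * f4 t) ∂μ
      = a * ∫ t, f1 t ∂μ - b * ∫ t, f2 t ∂μ - c * ∫ t, f3 t ∂μ + d * ∫ t, f4 t ∂μ := by
  have g1 : Integrable (fun t => a * f1 t) μ := h1.const_mul a
  have g2 : Integrable (fun t => b * f2 t) μ := h2.const_mul b
  have g3 : Integrable (fun t => c * f3 t) μ := h3.const_mul c
  have g4 : Integrable (fun t => d * f4 t) μ := h4.const_mul d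
  have g12 : Integrable (fun t => a * f1 t - b * f2 t) μ := g1.sub g2
  have g123 : Integrable (fun t => a * f1 t - b * f2 t - c * f3 t) μ := g12.sub g3
  rw [integral_add g123 g4, integral_sub g12 g3, integral_sub g1 g2, integral_const_mul,
    integral_const_mul, integral_const_mul, integral_const_mul]

/-- Fubini on the triangle: the integral of the tail equals the first moment. -/
private lemma int_tl {v : ℝ → ℝ} (hv : Adm v) :
    ∫ s in Ioi 0, tl v s = ∫ u in Ioi 0, u * v u := by
  obtain ⟨R, hR⟩ := hv.supp
  set F : ℝ → ℝ → ℝ := fun s u => if 0 < s ∧ s < u then v u else 0 with hF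
  have hmeas : Measurable (Function.uncurry F) := by
    have hset : MeasurableSet {p : ℝ × ℝ | 0 < p.1 ∧ p.1 < p.2} :=
      (measurableSet_lt measurable_const measurable_fst).inter
        (measurableSet_lt measurable_fst measurable_snd)
    exact Measurable.ite hset (hv.meas.comp measurable_snd) measurable_const
  have hint : Integrable (Function.uncurry F) (volume.prod volume) := by
    have hI : Integrable (fun s : ℝ => (Icc 0 |R|).indicator (fun _ => (1:ℝ)) s) := by
      rw [integrable_indicator_iff measurableSet_Icc]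
      exact continuous_const.integrableOn_Icc
    have hdom := hI.mul_prod (ν := (volume : Measure ℝ)) hv.integrable
    refine hdom.mono' hmeas.aestronglyMeasurable (Filter.Eventually.of_forall fun p => ?_)
    obtain ⟨s, u⟩ := p
    simp only [Function.uncurry, hF]
    by_cases h : 0 < s ∧ s < u
    · rw [if_pos h, Real.norm_eq_abs, abs_of_nonneg (hv.nonneg u)]
      by_cases hs : s ≤ |R|
      · rw [indicator_of_mem (mem_Icc.mpr ⟨h.1.le, hs⟩), one_mul]
      · push Not at hs
        have : v u = 0 := by
          apply hR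
          rw [abs_of_pos (by linarith [h.1, h.2])]
          linarith [le_abs_self R, h.2]
        rw [this]
        exact mul_nonneg (indicator_nonneg (fun _ _ => zero_le_one) _) le_rfl
    · rw [if_neg h, norm_zero]
      exact mul_nonneg (indicator_nonneg (fun _ _ => zero_le_one) _) (hv.nonneg u)
  have h1 : ∀ s, ∫ u, F s u = (Ioi 0).indicator (tl v) s := by
    intro s
    by_cases hs : 0 < s
    · rw [indicator_of_mem (mem_Ioi.mpr hs)]
      unfold tl
      rw [← integral_indicator measurableSet_Ioi]
      congr 1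
      ext u
      simp only [hF, indicator, mem_Ioi, hs, true_and]
    · rw [indicator_of_notMem (by simpa using hs)]
      simp [hF, hs]
  have h2 : ∀ u, ∫ s, F s u = (Ioi 0).indicator (fun u => u * v u) u := by
    intro u
    have e : (fun s => F s u) = (Ioo 0 u).indicator (fun _ => v u) := by
      ext s
      simp only [hF, indicator, mem_Ioo]
    rw [e, integral_indicator_const _ measurableSet_Ioo, Real.volume_real_Ioo]
    by_cases hu : 0 < u
    · rw [indicator_of_mem (mem_Ioi.mpr hu), sub_zero, max_eq_left hu.le, smul_eq_mul]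
    · rw [indicator_of_notMem (by simpa using hu), sub_zero, max_eq_right (not_lt.mp hu),
        zero_smul]
  calc ∫ s in Ioi 0, tl v s = ∫ s, (Ioi 0).indicator (tl v) s :=
        (integral_indicator measurableSet_Ioi).symm
    _ = ∫ s, ∫ u, F s u := by simp_rw [h1]
    _ = ∫ u, ∫ s, F s u := integral_integral_swap hint
    _ = ∫ u, (Ioi 0).indicator (fun u => u * v u) u := by simp_rw [h2]
    _ = ∫ u in Ioi 0, u * v u := integral_indicator measurableSet_Ioi

/-- Fubini symmetry: the integral of tail times profile is half the square of the mass. -/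
private lemma int_tlv {v : ℝ → ℝ} (hv : Adm v) :
    ∫ s in Ioi 0, tl v s * v s = (∫ t in Ioi 0, v t) ^ 2 / 2 := by
  set A : ℝ := ∫ t in Ioi 0, v t with hA
  set F : ℝ → ℝ → ℝ := fun s u => if 0 < u ∧ u ≤ s then v s * v u else 0 with hF
  have hmeas : Measurable (Function.uncurry F) := by
    have hset : MeasurableSet {p : ℝ × ℝ | 0 < p.2 ∧ p.2 ≤ p.1} :=
      (measurableSet_lt measurable_const measurable_snd).inter
        (measurableSet_le measurable_snd measurable_fst)
    exact Measurable.ite hset ((hv.meas.comp measurable_fst).mul (hv.meas.comp measurable_snd))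
      measurable_const
  have hint : Integrable (Function.uncurry F) (volume.prod volume) := by
    have hdom := hv.integrable.mul_prod (ν := (volume : Measure ℝ)) hv.integrable
    refine hdom.mono' hmeas.aestronglyMeasurable (Filter.Eventually.of_forall fun p => ?_)
    obtain ⟨s, u⟩ := p
    simp only [Function.uncurry, hF]
    by_cases h : 0 < u ∧ u ≤ s
    · rw [if_pos h, Real.norm_eq_abs, abs_of_nonneg (mul_nonneg (hv.nonneg s) (hv.nonneg u))]
    · rw [if_neg h, norm_zero]
      exact mul_nonneg (hv.nonneg s) (hv.nonneg u)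
  have h1 : ∀ s, ∫ u, F s u = (Ioi 0).indicator (fun s => v s * (A - tl v s)) s := by
    intro s
    have e : (fun u => F s u) = (Ioc 0 s).indicator (fun u => v s * v u) := by
      ext u
      simp only [hF, indicator, mem_Ioc]
    rw [e, integral_indicator measurableSet_Ioc, integral_const_mul]
    by_cases hs : 0 < s
    · rw [indicator_of_mem (mem_Ioi.mpr hs)]
      have hsplit : A = (∫ u in Ioc 0 s, v u) + tl v s := by
        rw [hA]
        unfold tl
        rw [← setIntegral_union Ioc_disjoint_Ioi_same measurableSet_Ioi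
          hv.integrable.integrableOn hv.integrable.integrableOn, Ioc_union_Ioi_eq_Ioi hs.le]
      rw [hsplit]
      ring_nf
    · rw [indicator_of_notMem (by simpa using hs), Ioc_eq_empty hs]
      simp
  have h2 : ∀ u, ∫ s, F s u = (Ioi 0).indicator (fun u => tl v u * v u) u := by
    intro u
    by_cases hu : 0 < u
    · rw [indicator_of_mem (mem_Ioi.mpr hu)]
      have e : (fun s => F s u) = (Ici u).indicator (fun s => v s * v u) := by
        ext s
        simp only [hF, indicator, mem_Ici, hu, true_and]
      rw [e, integral_indicator measurableSet_Ici, integral_mul_const,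
        integral_Ici_eq_integral_Ioi]
      rfl
    · rw [indicator_of_notMem (by simpa using hu)]
      simp [hF, hu]
  have hswap : ∫ s in Ioi 0, v s * (A - tl v s) = ∫ u in Ioi 0, tl v u * v u := by
    calc ∫ s in Ioi 0, v s * (A - tl v s)
        = ∫ s, (Ioi 0).indicator (fun s => v s * (A - tl v s)) s :=
          (integral_indicator measurableSet_Ioi).symm
      _ = ∫ s, ∫ u, F s u := by simp_rw [h1]
      _ = ∫ u, ∫ s, F s u := integral_integral_swap hint
      _ = ∫ u, (Ioi 0).indicator (fun u => tl v u * v u) u := by simp_rw [h2]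
      _ = ∫ u in Ioi 0, tl v u * v u := integral_indicator measurableSet_Ioi
  have hlin : ∫ s in Ioi 0, v s * (A - tl v s)
      = A * A - ∫ s in Ioi 0, tl v s * v s := by
    have e : ∀ s, v s * (A - tl v s) = A * v s - tl v s * v s := fun s => by ring
    simp_rw [e]
    rw [integral_sub (hv.integrable.const_mul A).integrableOn (tlv_integrableOn hv),
      integral_const_mul]
  rw [hlin] at hswap
  linarith [sq A]

private lemma even_split {f : ℝ → ℝ} (hf : Integrable f) (hev : ∀ t, f (-t) = f t) :
    ∫ t, f t = 2 * ∫ t in Ioi 0, f t := by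
  have h1 := integral_add_compl (measurableSet_Iic (a := (0:ℝ))) hf
  rw [compl_Iic] at h1
  have h2 : ∫ t in Iic (0:ℝ), f t = ∫ t in Ioi 0, f t := by
    have h3 := integral_comp_neg_Ioi (0:ℝ) f
    rw [neg_zero] at h3
    rw [← h3]
    simp_rw [hev]
  rw [← h1, h2]
  ring

/-- Chebyshev-type inequality for an admissible profile: `∫|t|v · ∫v² ≤ (∫v)³/4`
(equality for indicators of symmetric intervals and for two-sided exponentials). -/
theorem adm_first_moment {v : ℝ → ℝ} (hv : Adm v) :
    (∫ t, |t| * v t) * (∫ t, v t ^ 2) ≤ (∫ t, v t) ^ 3 / 4 := by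
  set A : ℝ := ∫ t in Ioi 0, v t with hA
  set Q : ℝ := ∫ t in Ioi 0, v t ^ 2 with hQ
  set B : ℝ := ∫ t in Ioi 0, t * v t with hB
  have eA : ∫ t, v t = 2 * A := even_split hv.integrable hv.even
  have eQ : ∫ t, v t ^ 2 = 2 * Q :=
    even_split hv.integrable_sq (fun t => by rw [hv.even])
  have eB : ∫ t, |t| * v t = 2 * B := by
    rw [even_split hv.integrable_abs_mul (fun t => by rw [hv.even, abs_neg])]
    congr 1
    exact setIntegral_congr_fun measurableSet_Ioi
      (fun t ht => by simp only [abs_of_pos (mem_Ioi.mp ht)])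
  have iv : IntegrableOn v (Ioi 0) := hv.integrable.integrableOn
  have iq : IntegrableOn (fun t => v t ^ 2) (Ioi 0) := hv.integrable_sq.integrableOn
  have iT := tl_integrableOn hv
  have iTv := tlv_integrableOn hv
  have hIT := int_tl hv
  have hITv := int_tlv hv
  rw [← hB] at hIT
  rw [← hA] at hITv
  have hinner : ∀ s ∈ Ioi (0:ℝ),
      0 ≤ (tl v s * v s) * A - tl v s * Q - v s ^ 2 * B + v s * (A ^ 2 / 2) := by
    intro s hs
    have h0 : (0:ℝ) ≤ s := le_of_lt hs
    have hnn : 0 ≤ ∫ t in Ioi 0, (tl v s * v t - tl v t * v s) * (v s - v t) :=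
      setIntegral_nonneg measurableSet_Ioi (fun t ht => G_nonneg hv h0 (le_of_lt ht))
    have e : ∀ t, (tl v s * v t - tl v t * v s) * (v s - v t)
        = (tl v s * v s) * v t - tl v s * v t ^ 2 - v s ^ 2 * tl v t
          + v s * (tl v t * v t) := fun t => by ring
    simp_rw [e] at hnn
    rw [lin4 iv iq iT iTv, hIT, hITv] at hnn
    exact hnn
  have houter : 0 ≤ ∫ s in Ioi 0,
      ((tl v s * v s) * A - tl v s * Q - v s ^ 2 * B + v s * (A ^ 2 / 2)) :=
    setIntegral_nonneg measurableSet_Ioi hinner
  have e2 : ∀ s, (tl v s * v s) * A - tl v s * Q - v s ^ 2 * B + v s * (A ^ 2 / 2)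
      = A * (tl v s * v s) - Q * tl v s - B * v s ^ 2 + (A ^ 2 / 2) * v s := fun s => by ring
  simp_rw [e2] at houter
  rw [lin4 iTv iT iq iv, hIT, hITv] at houter
  rw [eA, eQ, eB]
  nlinarith [houter]

end Vale.Agent.Lib.P254
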