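import Mathlib

open MeasureTheory Set

namespace Vale.Agent.Lib.P254

/-- Three-point chord inequality for a concave function. -/
private lemma bw_chord_le {f : ℝ → ℝ} {s : Set ℝ} (hf : ConcaveOn ℝ s f) {x y z : ℝ}
    (hx : x ∈ s) (hz : z ∈ s) (hxy : x ≤ y) (hyz : y ≤ z) :
    (z - y) * f x + (y - x) * f z ≤ (z - x) * f y := by
  rcases eq_or_lt_of_le (hxy.trans hyz) with h | h
  · have hy : y = x := le_antisymm (h ▸ hyz) hxy
    subst hy
    subst h
    simp
  · have hzx : 0 < z - x := sub_pos.mpr h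
    have hne : z - x ≠ 0 := hzx.ne'
    have hsum : (z - y) / (z - x) + (y - x) / (z - x) = 1 := by
      rw [← add_div, div_eq_one_iff_eq hne]; ring
    have key := hf.2 hx hz (div_nonneg (sub_nonneg.mpr hyz) hzx.le)
      (div_nonneg (sub_nonneg.mpr hxy) hzx.le) hsum
    have e : ((z - y) / (z - x)) • x + ((y - x) / (z - x)) • z = y := by
      simp only [smul_eq_mul]
      field_simp
      ring
    rw [e] at key
    simp only [smul_eq_mul] at key
    have h2 := mul_le_mul_of_nonneg_left key hzx.le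
    have e2 : (z - x) * ((z - y) / (z - x) * f x + (y - x) / (z - x) * f z)
        = (z - y) * f x + (y - x) * f z := by
      field_simp
    linarith

/-- Integral of a quartic polynomial. -/
private lemma bw_int_quartic (c0 c1 c2 c3 c4 x y : ℝ) :
    ∫ t in x..y, (c0 + c1 * t + c2 * t ^ 2 + c3 * t ^ 3 + c4 * t ^ 4) =
      c0 * (y - x) + c1 * (y ^ 2 - x ^ 2) / 2 + c2 * (y ^ 3 - x ^ 3) / 3
        + c3 * (y ^ 4 - x ^ 4) / 4 + c4 * (y ^ 5 - x ^ 5) / 5 := by
  have hd : ∀ t ∈ Set.uIcc x y,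
      HasDerivAt (fun t : ℝ => c0 * t + c1 * t ^ 2 / 2 + c2 * t ^ 3 / 3 + c3 * t ^ 4 / 4
          + c4 * t ^ 5 / 5)
        (c0 + c1 * t + c2 * t ^ 2 + c3 * t ^ 3 + c4 * t ^ 4) t := by
    intro t _
    have h1 : HasDerivAt (fun t : ℝ => c0 * t) c0 t := by
      simpa using (hasDerivAt_id t).const_mul c0
    have h2 : HasDerivAt (fun t : ℝ => c1 * t ^ 2 / 2) (c1 * t) t := by
      have := ((hasDerivAt_pow 2 t).const_mul c1).div_const 2
      exact this.congr_deriv (by norm_num; ring)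
    have h3 : HasDerivAt (fun t : ℝ => c2 * t ^ 3 / 3) (c2 * t ^ 2) t := by
      have := ((hasDerivAt_pow 3 t).const_mul c2).div_const 3
      exact this.congr_deriv (by norm_num; ring)
    have h4 : HasDerivAt (fun t : ℝ => c3 * t ^ 4 / 4) (c3 * t ^ 3) t := by
      have := ((hasDerivAt_pow 4 t).const_mul c3).div_const 4
      exact this.congr_deriv (by norm_num; ring)
    have h5 : HasDerivAt (fun t : ℝ => c4 * t ^ 5 / 5) (c4 * t ^ 4) t := by
      have := ((hasDerivAt_pow 5 t).const_mul c4).div_const 5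
      exact this.congr_deriv (by norm_num; ring)
    exact (((h1.add h2).add h3).add h4).add h5
  rw [intervalIntegral.integral_eq_sub_of_hasDerivAt hd
    (Continuous.intervalIntegrable (by fun_prop) _ _)]
  ring

/-- Integral of a quadratic weight against `v` in terms of the three moments. -/
private lemma bw_int_quad_mul {v : ℝ → ℝ} {a : ℝ} (hv : IntervalIntegrable v volume 0 a)
    (p0 p1 p2 : ℝ) :
    ∫ t in (0:ℝ)..a, (p0 + p1 * t + p2 * t ^ 2) * v t =
      p0 * (∫ t in (0:ℝ)..a, v t) + p1 * (∫ t in (0:ℝ)..a, t * v t)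
        + p2 * (∫ t in (0:ℝ)..a, t ^ 2 * v t) := by
  have h1 : IntervalIntegrable (fun t : ℝ => t * v t) volume 0 a :=
    hv.continuousOn_mul (g := fun t : ℝ => t) continuous_id.continuousOn
  have h2 : IntervalIntegrable (fun t : ℝ => t ^ 2 * v t) volume 0 a :=
    hv.continuousOn_mul (g := fun t : ℝ => t ^ 2) (continuous_pow 2).continuousOn
  have e : (fun t : ℝ => (p0 + p1 * t + p2 * t ^ 2) * v t)
      = fun t : ℝ => (p0 * v t + p1 * (t * v t)) + p2 * (t ^ 2 * v t) := by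
    funext t; ring
  rw [e, intervalIntegral.integral_add ((hv.const_mul p0).add (h1.const_mul p1)) (h2.const_mul p2),
    intervalIntegral.integral_add (hv.const_mul p0) (h1.const_mul p1),
    intervalIntegral.integral_const_mul, intervalIntegral.integral_const_mul,
    intervalIntegral.integral_const_mul]

/-- A concave function on `[0, a]` changes sign at most twice, from negative to positive
to negative. -/
private lemma bw_single_crossing {D : ℝ → ℝ} {a : ℝ} (ha : 0 ≤ a)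
    (hD : ConcaveOn ℝ (Icc 0 a) D) :
    ∃ t1 t2 : ℝ, 0 ≤ t1 ∧ t1 ≤ t2 ∧ t2 ≤ a ∧
      ∀ t ∈ Icc 0 a, (t - t1) * (t - t2) * D t ≤ 0 := by
  have hIc : Convex ℝ {t ∈ Icc 0 a | 0 < D t} := hD.convex_gt 0
  rcases ({t ∈ Icc 0 a | 0 < D t}).eq_empty_or_nonempty with hemp | hne
  · refine ⟨0, 0, le_rfl, le_rfl, ha, fun t ht => ?_⟩
    have hDt : D t ≤ 0 := by
      by_contra h
      push Not at h
      have hmem : t ∈ {t ∈ Icc 0 a | 0 < D t} := ⟨ht, h⟩
      rw [hemp] at hmem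
      exact hmem
    have h0 : 0 ≤ (t - 0) * (t - 0) := mul_self_nonneg _
    nlinarith [mul_nonneg h0 (neg_nonneg.mpr hDt)]
  · have hbb : BddBelow {t ∈ Icc 0 a | 0 < D t} := ⟨0, fun t ht => ht.1.1⟩
    have hba : BddAbove {t ∈ Icc 0 a | 0 < D t} := ⟨a, fun t ht => ht.1.2⟩
    refine ⟨sInf {t ∈ Icc 0 a | 0 < D t}, sSup {t ∈ Icc 0 a | 0 < D t},
      le_csInf hne (fun t ht => ht.1.1), csInf_le_csSup hne hbb hba,
      csSup_le hne (fun t ht => ht.1.2), fun t ht => ?_⟩
    have h12 := csInf_le_csSup hne hbb hba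
    rcases lt_trichotomy t (sInf {t ∈ Icc 0 a | 0 < D t}) with h1 | h1 | h1
    · have hDt : D t ≤ 0 := by
        by_contra h
        push Not at h
        have hmem : t ∈ {t ∈ Icc 0 a | 0 < D t} := ⟨ht, h⟩
        exact absurd (csInf_le hbb hmem) (not_le.mpr h1)
      have hp : 0 ≤ (t - sInf {t ∈ Icc 0 a | 0 < D t}) * (t - sSup {t ∈ Icc 0 a | 0 < D t}) :=
        mul_nonneg_of_nonpos_of_nonpos (by linarith) (by linarith)
      nlinarith [mul_nonneg hp (neg_nonneg.mpr hDt)]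
    · rw [h1]; simp
    · rcases lt_trichotomy t (sSup {t ∈ Icc 0 a | 0 < D t}) with h2 | h2 | h2
      · obtain ⟨s1, hs1, hs1t⟩ := exists_lt_of_csInf_lt hne h1
        obtain ⟨s2, hs2, hs2t⟩ := exists_lt_of_lt_csSup hne h2
        have htI : t ∈ {t ∈ Icc 0 a | 0 < D t} :=
          hIc.ordConnected.out hs1 hs2 ⟨hs1t.le, hs2t.le⟩
        have hDt : 0 < D t := htI.2
        have hp : 0 ≤ (t - sInf {t ∈ Icc 0 a | 0 < D t}) * (sSup {t ∈ Icc 0 a | 0 < D t} - t) :=
          mul_nonneg (by linarith) (by linarith)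
        nlinarith [mul_nonneg hp hDt.le]
      · rw [h2]; simp
      · have hDt : D t ≤ 0 := by
          by_contra h
          push Not at h
          have hmem : t ∈ {t ∈ Icc 0 a | 0 < D t} := ⟨ht, h⟩
          exact absurd (le_csSup hba hmem) (not_le.mpr h2)
        have hp : 0 ≤ (t - sInf {t ∈ Icc 0 a | 0 < D t}) * (t - sSup {t ∈ Icc 0 a | 0 < D t}) :=
          mul_nonneg (by linarith) (by linarith)
        nlinarith [mul_nonneg hp (neg_nonneg.mpr hDt)]

/-- Half-line form of the sharp inequality for squares of concave functions: if `r ≥ 0` is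
concave on `[0, a]` and `v = r ^ 2`, then `∫v · ∫t²v ≤ (8/5) (∫tv)²` (integrals over `[0, a]`;
equality for `r t = a - t`). -/
theorem sqrt_concave_half_line (v r : ℝ → ℝ) (a : ℝ) (ha : 0 ≤ a)
    (hr0 : ∀ t, 0 ≤ r t) (hvr : ∀ t, v t = r t ^ 2) (hconc : ConcaveOn ℝ (Icc 0 a) r)
    (hv : IntervalIntegrable v volume 0 a) :
    (∫ t in (0:ℝ)..a, v t) * (∫ t in (0:ℝ)..a, t ^ 2 * v t)
      ≤ 8 / 5 * (∫ t in (0:ℝ)..a, t * v t) ^ 2 := by
  have hv0 : ∀ t, 0 ≤ v t := fun t => by rw [hvr]; positivity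
  set A := ∫ t in (0:ℝ)..a, v t with hA
  set B := ∫ t in (0:ℝ)..a, t * v t with hB
  set M := ∫ t in (0:ℝ)..a, t ^ 2 * v t with hM
  have hA0 : 0 ≤ A := intervalIntegral.integral_nonneg ha (fun t _ => hv0 t)
  rcases eq_or_lt_of_le hA0 with hAz | hApos
  · rw [← hAz]; nlinarith [sq_nonneg B]
  have hapos : 0 < a := by
    rcases eq_or_lt_of_le ha with h | h
    · exfalso
      rw [hA, ← h] at hApos
      simp at hApos
    · exact h
  have h0mem : (0:ℝ) ∈ Icc 0 a := ⟨le_rfl, ha⟩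
  have hamem : a ∈ Icc 0 a := ⟨ha, le_rfl⟩
  have h4mem : a / 4 ∈ Icc 0 a := ⟨by positivity, by linarith⟩
  -- FACT 1: a * A ≤ 4 * B
  have hfact1 : a * A ≤ 4 * B := by
    have hpt : ∀ t ∈ Icc 0 a,
        0 ≤ (4 * t - a) * ((3 * a / 4) ^ 2 * v t - (a - t) ^ 2 * v (a / 4)) := by
      intro t ht
      rw [hvr t, hvr (a / 4)]
      have hra := hr0 a
      have hrt := hr0 t
      have hrq := hr0 (a / 4)
      rcases le_total t (a / 4) with h | h
      · have hc := bw_chord_le hconc ht hamem h (by linarith : a / 4 ≤ a)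
        have h1 : 3 * a / 4 * r t ≤ (a - t) * r (a / 4) := by
          nlinarith [mul_nonneg (sub_nonneg.mpr h) hra]
        have h1' : 0 ≤ 3 * a / 4 * r t := by positivity
        have h2 : (3 * a / 4 * r t) ^ 2 ≤ ((a - t) * r (a / 4)) ^ 2 :=
          pow_le_pow_left₀ h1' h1 2
        have h3 : (3 * a / 4) ^ 2 * r t ^ 2 - (a - t) ^ 2 * r (a / 4) ^ 2 ≤ 0 := by
          nlinarith [h2]
        exact mul_nonneg_of_nonpos_of_nonpos (by linarith) h3
      · have hc := bw_chord_le hconc h4mem hamem h ht.2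
        have h1 : (a - t) * r (a / 4) ≤ 3 * a / 4 * r t := by
          nlinarith [mul_nonneg (sub_nonneg.mpr h) hra]
        have h1' : 0 ≤ (a - t) * r (a / 4) :=
          mul_nonneg (by linarith [ht.2]) hrq
        have h2 : ((a - t) * r (a / 4)) ^ 2 ≤ (3 * a / 4 * r t) ^ 2 :=
          pow_le_pow_left₀ h1' h1 2
        have h3 : 0 ≤ (3 * a / 4) ^ 2 * r t ^ 2 - (a - t) ^ 2 * r (a / 4) ^ 2 := by
          nlinarith [h2]
        exact mul_nonneg (by linarith) h3
    have hint := intervalIntegral.integral_nonneg (μ := volume) ha hpt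
    have e : (fun t : ℝ => (4 * t - a) * ((3 * a / 4) ^ 2 * v t - (a - t) ^ 2 * v (a / 4)))
        = fun t : ℝ => (-(9 * a ^ 3 / 16) + 9 * a ^ 2 / 4 * t + 0 * t ^ 2) * v t
            - (v (a / 4) * (-a ^ 3) + v (a / 4) * (6 * a ^ 2) * t + v (a / 4) * (-9 * a) * t ^ 2
                + v (a / 4) * 4 * t ^ 3 + 0 * t ^ 4) := by
      funext t; ring
    rw [e, intervalIntegral.integral_sub
      (hv.continuousOn_mul (g := fun t : ℝ => -(9 * a ^ 3 / 16) + 9 * a ^ 2 / 4 * t + 0 * t ^ 2)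
        (by fun_prop))
      (Continuous.intervalIntegrable (by fun_prop) _ _),
      bw_int_quad_mul hv, bw_int_quartic] at hint
    have h2 : 0 ≤ 9 * a ^ 2 / 16 * (4 * B - a * A) := by
      have e2 : 9 * a ^ 2 / 16 * (4 * B - a * A) = -(9 * a ^ 3 / 16) * A + 9 * a ^ 2 / 4 * B
            + 0 * M -
          (v (a / 4) * (-a ^ 3) * (a - 0) + v (a / 4) * (6 * a ^ 2) * (a ^ 2 - 0 ^ 2) / 2
            + v (a / 4) * (-9 * a) * (a ^ 3 - 0 ^ 3) / 3 + v (a / 4) * 4 * (a ^ 4 - 0 ^ 4) / 4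
            + 0 * (a ^ 5 - 0 ^ 5) / 5) := by
        ring
      rw [e2]; exact hint
    have h3 : 0 ≤ 4 * B - a * A := by
      by_contra hneg
      push Not at hneg
      have hpos : 0 < 9 * a ^ 2 / 16 := by positivity
      nlinarith [mul_pos hpos (neg_pos.mpr hneg)]
    linarith
  have hBpos : 0 < B := by nlinarith [mul_pos hapos hApos]
  -- the comparison cone k t = α * (β - t) ^ 2
  set β := 4 * B / A with hβ
  have hβA : β * A = 4 * B := by
    rw [hβ]; field_simp
  have hβa : a ≤ β := by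
    rw [hβ, le_div_iff₀ hApos]; exact hfact1
  have hβpos : 0 < β := lt_of_lt_of_le hapos hβa
  set α := 3 * A / β ^ 3 with hα
  have hαβ : α * β ^ 3 = 3 * A := by
    rw [hα]; field_simp
  have hα0 : 0 ≤ α := by rw [hα]; positivity
  set γ := Real.sqrt α with hγ
  have hγ0 : 0 ≤ γ := Real.sqrt_nonneg α
  have hγ2 : γ ^ 2 = α := Real.sq_sqrt hα0
  -- single crossing
  have hDconc : ConcaveOn ℝ (Icc 0 a) (fun t => r t - γ * (β - t)) := by
    refine hconc.sub ⟨convex_Icc 0 a, ?_⟩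
    intro x _ y _ p q _ _ hpq
    have hq : q = 1 - p := by linarith
    subst hq
    simp only [smul_eq_mul]
    apply le_of_eq
    ring
  obtain ⟨t1, t2, ht1, ht12, ht2, hcross⟩ := bw_single_crossing ha hDconc
  have hcross2 : ∀ t ∈ Icc 0 a, (t - t1) * (t - t2) * (v t - α * (β - t) ^ 2) ≤ 0 := by
    intro t ht
    have e : (t - t1) * (t - t2) * (v t - α * (β - t) ^ 2)
        = ((t - t1) * (t - t2) * (r t - γ * (β - t))) * (r t + γ * (β - t)) := by
      rw [hvr t, ← hγ2]; ring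
    rw [e]
    have hS : 0 ≤ r t + γ * (β - t) :=
      add_nonneg (hr0 t) (mul_nonneg hγ0 (by linarith [ht.2]))
    exact mul_nonpos_of_nonpos_of_nonneg (hcross t ht) hS
  -- (I1)
  have hI1 : 0 ≤ ∫ t in (0:ℝ)..a, -((t - t1) * (t - t2) * (v t - α * (β - t) ^ 2)) :=
    intervalIntegral.integral_nonneg ha (fun t ht => neg_nonneg.mpr (hcross2 t ht))
  have e1 : (fun t : ℝ => -((t - t1) * (t - t2) * (v t - α * (β - t) ^ 2)))
      = fun t : ℝ => (α * (t1 * t2 * β ^ 2) + α * (-(t1 + t2) * β ^ 2 - 2 * β * (t1 * t2)) * t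
            + α * (β ^ 2 + 2 * β * (t1 + t2) + t1 * t2) * t ^ 2
            + α * (-(2 * β) - (t1 + t2)) * t ^ 3 + α * t ^ 4)
          - (t1 * t2 + (-(t1 + t2)) * t + 1 * t ^ 2) * v t := by
    funext t; ring
  rw [e1, intervalIntegral.integral_sub
    (Continuous.intervalIntegrable (by fun_prop) _ _)
    (hv.continuousOn_mul (g := fun t : ℝ => t1 * t2 + (-(t1 + t2)) * t + 1 * t ^ 2)
      (by fun_prop)),
    bw_int_quad_mul hv, bw_int_quartic] at hI1
  -- (I2)
  have hI2 : 0 ≤ ∫ t in a..β, (α * (t1 * t2 * β ^ 2)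
            + α * (-(t1 + t2) * β ^ 2 - 2 * β * (t1 * t2)) * t
            + α * (β ^ 2 + 2 * β * (t1 + t2) + t1 * t2) * t ^ 2
            + α * (-(2 * β) - (t1 + t2)) * t ^ 3 + α * t ^ 4) := by
    refine intervalIntegral.integral_nonneg hβa (fun t ht => ?_)
    have e : α * (t1 * t2 * β ^ 2) + α * (-(t1 + t2) * β ^ 2 - 2 * β * (t1 * t2)) * t
            + α * (β ^ 2 + 2 * β * (t1 + t2) + t1 * t2) * t ^ 2
            + α * (-(2 * β) - (t1 + t2)) * t ^ 3 + α * t ^ 4
          = α * ((t - t1) * (t - t2) * (β - t) ^ 2) := by ring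
    rw [e]
    have h1 : 0 ≤ t - t1 := by linarith [ht.1]
    have h2 : 0 ≤ t - t2 := by linarith [ht.1]
    exact mul_nonneg hα0 (mul_nonneg (mul_nonneg h1 h2) (sq_nonneg _))
  rw [bw_int_quartic] at hI2
  -- conclusion
  have hkey : α * (t1 * t2 * β ^ 2) * (β - 0)
        + α * (-(t1 + t2) * β ^ 2 - 2 * β * (t1 * t2)) * (β ^ 2 - 0 ^ 2) / 2
        + α * (β ^ 2 + 2 * β * (t1 + t2) + t1 * t2) * (β ^ 3 - 0 ^ 3) / 3
        + α * (-(2 * β) - (t1 + t2)) * (β ^ 4 - 0 ^ 4) / 4 + α * (β ^ 5 - 0 ^ 5) / 5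
      = t1 * t2 * A - (t1 + t2) * B + 2 / 5 * (β * B) := by
    linear_combination (t1 * t2 / 3 - (t1 + t2) * β / 12 + β ^ 2 / 30) * hαβ
      + (-(t1 + t2) / 4 + β / 10) * hβA
  have hMle : M ≤ 2 / 5 * (β * B) := by linarith
  have : A * M ≤ A * (2 / 5 * (β * B)) := mul_le_mul_of_nonneg_left hMle hA0
  have e3 : A * (2 / 5 * (β * B)) = 8 / 5 * B ^ 2 := by
    have : A * (2 / 5 * (β * B)) = 2 / 5 * ((β * A) * B) := by ring
    rw [this, hβA]; ring
  linarith

/-- An even function supported in `[-a, a]` has integral twice its integral over `[0, a]`. -/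
private lemma bw_even_integral (f : ℝ → ℝ) (a : ℝ) (ha : 0 ≤ a) (heven : ∀ t, f (-t) = f t)
    (hsupp : ∀ t, a < |t| → f t = 0) :
    ∫ t, f t = 2 * ∫ t in (0:ℝ)..a, f t := by
  have h1 : ∫ t, f t = ∫ t, f |t| := by
    congr 1
    funext t
    rcases abs_cases t with ⟨h, _⟩ | ⟨h, _⟩
    · rw [h]
    · rw [h, heven]
  rw [h1, integral_comp_abs, intervalIntegral.integral_of_le ha]
  congr 1
  refine setIntegral_eq_of_subset_of_forall_sdiff_eq_zero measurableSet_Ioi Ioc_subset_Ioi_self ?_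
  intro x hx
  apply hsupp
  have hx0 : 0 < x := hx.1
  have hxa : ¬ (x ∈ Ioc 0 a) := hx.2
  rw [abs_of_pos hx0]
  by_contra h
  push Not at h
  exact hxa ⟨hx0, h⟩

/-- Sharp Berwald inequality for square-root-concave profiles: for an even nonnegative `v`
whose square root is concave on `[-a, a]` and which vanishes outside,
`∫t²v · ∫v ≤ (8/5) (∫|t|v)²` (equality for `v t = (a - |t|)²`). -/
theorem sqrt_concave_second_moment (v : ℝ → ℝ) (a : ℝ) (ha : 0 ≤ a)
    (hvm : Measurable v) (hv0 : ∀ t, 0 ≤ v t) (heven : ∀ t, v (-t) = v t)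
    (hconc : ConcaveOn ℝ (Set.Icc (-a) a) (fun t => Real.sqrt (v t)))
    (hsupp : ∀ t, a < |t| → v t = 0) :
    (∫ t, t ^ 2 * v t) * (∫ t, v t) ≤ 8 / 5 * (∫ t, |t| * v t) ^ 2 := by
  have hbound : ∀ t ∈ Icc (-a) a, v t ≤ v 0 := by
    intro t ht
    have hnt : -t ∈ Icc (-a) a := ⟨by linarith [ht.2], by linarith [ht.1]⟩
    have key := hconc.2 ht hnt (by norm_num : (0:ℝ) ≤ 1 / 2) (by norm_num : (0:ℝ) ≤ 1 / 2)
      (by norm_num)
    simp only [smul_eq_mul] at key
    have e : (1 / 2 : ℝ) * t + 1 / 2 * -t = 0 := by ring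
    rw [e, heven] at key
    have h1 : Real.sqrt (v t) ≤ Real.sqrt (v 0) := by linarith
    exact (Real.sqrt_le_sqrt_iff (hv0 0)).mp h1
  have hv : IntervalIntegrable v volume 0 a := by
    rw [intervalIntegrable_iff_integrableOn_Icc_of_le ha]
    refine Measure.integrableOn_of_bounded (M := v 0) (by simp) hvm.aestronglyMeasurable ?_
    refine (ae_restrict_iff' measurableSet_Icc).mpr (Filter.Eventually.of_forall fun t ht => ?_)
    rw [Real.norm_eq_abs, abs_of_nonneg (hv0 t)]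
    exact hbound t ⟨by linarith [ht.1], ht.2⟩
  have hc0 : ConcaveOn ℝ (Icc 0 a) (fun t => Real.sqrt (v t)) :=
    hconc.subset (Icc_subset_Icc (by linarith) le_rfl) (convex_Icc 0 a)
  have hhalf := sqrt_concave_half_line v (fun t => Real.sqrt (v t)) a ha
    (fun t => Real.sqrt_nonneg _) (fun t => (Real.sq_sqrt (hv0 t)).symm) hc0 hv
  have e1 : ∫ t, t ^ 2 * v t = 2 * ∫ t in (0:ℝ)..a, t ^ 2 * v t :=
    bw_even_integral (fun t => t ^ 2 * v t) a ha (fun t => by simp [heven])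
      (fun t ht => by simp [hsupp t ht])
  have e2 : ∫ t, v t = 2 * ∫ t in (0:ℝ)..a, v t := bw_even_integral v a ha heven hsupp
  have e3 : ∫ t, |t| * v t = 2 * ∫ t in (0:ℝ)..a, t * v t := by
    rw [bw_even_integral (fun t => |t| * v t) a ha (fun t => by simp [heven])
      (fun t ht => by simp [hsupp t ht])]
    congr 1
    refine intervalIntegral.integral_congr (fun t ht => ?_)
    rw [uIcc_of_le ha] at ht
    rw [abs_of_nonneg ht.1]
  rw [e1, e2, e3]
  nlinarith [hhalf]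

end Vale.Agent.Lib.P254
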