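import Vale.Agent.Lib.P254.Sym.Defs

open MeasureTheory Set

namespace Vale.Agent.Lib.P254

lemma Adm.le_zero {v : ℝ → ℝ} (hv : Adm v) (t : ℝ) : v t ≤ v 0 := by
  rcases le_total 0 t with h | h
  · exact hv.anti 0 t le_rfl h
  · have := hv.anti 0 (-t) le_rfl (by linarith)
    rwa [hv.even] at this

/-- A bounded measurable function with bounded support is integrable. -/
lemma integrable_of_bdd_supp {g : ℝ → ℝ} (hgm : Measurable g) (M R : ℝ)
    (hb : ∀ t, |g t| ≤ M) (hs : ∀ t, R < |t| → g t = 0) : Integrable g := by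
  have h1 : Integrable (Set.indicator (Set.Icc (-R) R) (fun _ : ℝ => M)) := by
    rw [integrable_indicator_iff measurableSet_Icc]
    exact (continuous_const.integrableOn_Icc)
  refine h1.mono' hgm.aestronglyMeasurable (Filter.Eventually.of_forall fun t => ?_)
  by_cases ht : t ∈ Set.Icc (-R) R
  · rw [Set.indicator_of_mem ht]; exact hb t
  · rw [Set.indicator_of_notMem ht]
    have : R < |t| := by
      by_contra hcon
      push Not at hcon
      exact ht ⟨by linarith [neg_abs_le t], by linarith [le_abs_self t]⟩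
    rw [hs t this]; simp

lemma Adm.integrable {v : ℝ → ℝ} (hv : Adm v) : Integrable v := by
  obtain ⟨R, hR⟩ := hv.supp
  refine integrable_of_bdd_supp hv.meas (v 0) R (fun t => ?_) hR
  rw [abs_of_nonneg (hv.nonneg t)]; exact hv.le_zero t

lemma Adm.integrable_sq {v : ℝ → ℝ} (hv : Adm v) : Integrable (fun t => v t ^ 2) := by
  obtain ⟨R, hR⟩ := hv.supp
  refine integrable_of_bdd_supp (hv.meas.pow_const 2) (v 0 ^ 2) R (fun t => ?_) (fun t ht => ?_)
  · rw [abs_of_nonneg (by positivity)]
    exact pow_le_pow_left₀ (hv.nonneg t) (hv.le_zero t) 2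
  · simp [hR t ht]

lemma Adm.integrable_abs_mul {v : ℝ → ℝ} (hv : Adm v) : Integrable (fun t => |t| * v t) := by
  obtain ⟨R, hR⟩ := hv.supp
  refine integrable_of_bdd_supp (measurable_id.abs.mul hv.meas) (|R| * v 0) R (fun t => ?_)
    (fun t ht => ?_)
  · by_cases ht : R < |t|
    · rw [hR t ht]; simp; exact mul_nonneg (abs_nonneg _) (hv.nonneg 0)
    · push Not at ht
      rw [abs_mul, abs_abs, abs_of_nonneg (hv.nonneg t)]
      exact mul_le_mul (ht.trans (le_abs_self R)) (hv.le_zero t) (hv.nonneg t) (abs_nonneg _)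
  · simp [hR t ht]

lemma Adm.integrable_sq_mul {v : ℝ → ℝ} (hv : Adm v) : Integrable (fun t => t ^ 2 * v t) := by
  obtain ⟨R, hR⟩ := hv.supp
  refine integrable_of_bdd_supp ((measurable_id.pow_const 2).mul hv.meas) (R ^ 2 * v 0) R
    (fun t => ?_) (fun t ht => ?_)
  · by_cases ht : R < |t|
    · rw [hR t ht]; simp; exact mul_nonneg (sq_nonneg _) (hv.nonneg 0)
    · push Not at ht
      rw [abs_mul, abs_of_nonneg (sq_nonneg t), abs_of_nonneg (hv.nonneg t)]
      have h2 : t ^ 2 ≤ R ^ 2 := by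
        have := abs_nonneg t
        calc t ^ 2 = |t| ^ 2 := (sq_abs t).symm
          _ ≤ R ^ 2 := pow_le_pow_left₀ this ht 2
      exact mul_le_mul h2 (hv.le_zero t) (hv.nonneg t) (sq_nonneg _)
  · simp [hR t ht]

end Vale.Agent.Lib.P254
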