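import Mathlib

open MeasureTheory Set

namespace Vale.Agent.Lib.P254

/-- A bounded nonnegative function with bounded support has finite lower integral. -/
private lemma holder_lintegral_lt_top (w : ℝ → ℝ) (M R : ℝ) (hwb : ∀ t, w t ≤ M)
    (hws : ∀ t, R < |t| → w t = 0) :
    ∫⁻ t, ENNReal.ofReal (w t) < ⊤ := by
  have hle : ∀ t, ENNReal.ofReal (w t)
      ≤ (Set.Icc (-R) R).indicator (fun _ => ENNReal.ofReal M) t := by
    intro t
    by_cases ht : t ∈ Set.Icc (-R) R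
    · rw [Set.indicator_of_mem ht]
      exact ENNReal.ofReal_le_ofReal (hwb t)
    · rw [Set.indicator_of_notMem ht]
      have h1 : R < |t| := by
        by_contra hcon
        apply ht
        have h2 : |t| ≤ R := not_lt.mp hcon
        exact ⟨(abs_le.mp h2).1, (abs_le.mp h2).2⟩
      rw [hws t h1, ENNReal.ofReal_zero]
  calc ∫⁻ t, ENNReal.ofReal (w t)
      ≤ ∫⁻ t, (Set.Icc (-R) R).indicator (fun _ => ENNReal.ofReal M) t := lintegral_mono hle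
    _ = ENNReal.ofReal M * volume (Set.Icc (-R) R) := by
        rw [lintegral_indicator measurableSet_Icc, lintegral_const, Measure.restrict_apply_univ]
    _ < ⊤ := by
        rw [Real.volume_Icc]
        exact ENNReal.mul_lt_top ENNReal.ofReal_lt_top ENNReal.ofReal_lt_top

/-- Pointwise root extraction: `u ^ k ≤ c * v ^ (k + 2)` gives
`u ≤ c ^ (1 / k) * (v ^ ((k - 2) / k) * (v ^ 2) ^ (2 / k))`. -/
private lemma holder_pointwise (k : ℕ) (hk : 2 ≤ k) (a b c : ℝ) (hc : 0 ≤ c) (ha : 0 ≤ a)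
    (hb : 0 ≤ b) (h : a ^ k ≤ c * b ^ (k + 2)) :
    a ≤ c ^ ((k : ℝ)⁻¹) * (b ^ (((k : ℝ) - 2) / k) * (b ^ 2) ^ ((2 : ℝ) / k)) := by
  have hk0 : k ≠ 0 := by omega
  have hkpos : (0 : ℝ) < k := by exact_mod_cast Nat.pos_of_ne_zero hk0
  have h1 : a = (a ^ k) ^ ((k : ℝ)⁻¹) := (Real.pow_rpow_inv_natCast ha hk0).symm
  have h2 : (a ^ k) ^ ((k : ℝ)⁻¹) ≤ (c * b ^ (k + 2)) ^ ((k : ℝ)⁻¹) :=
    Real.rpow_le_rpow (pow_nonneg ha k) h (inv_nonneg.mpr hkpos.le)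
  have h3 : (c * b ^ (k + 2)) ^ ((k : ℝ)⁻¹) = c ^ ((k : ℝ)⁻¹) * (b ^ (k + 2)) ^ ((k : ℝ)⁻¹) :=
    Real.mul_rpow hc (pow_nonneg hb _)
  have h4 : (b ^ (k + 2)) ^ ((k : ℝ)⁻¹) = b ^ (((k : ℝ) + 2) / k) := by
    rw [← Real.rpow_natCast b (k + 2), ← Real.rpow_mul hb]
    congr 1
    push_cast
    field_simp
  have h5 : (b ^ 2) ^ ((2 : ℝ) / k) = b ^ ((4 : ℝ) / k) := by
    rw [← Real.rpow_natCast b 2, ← Real.rpow_mul hb]
    congr 1
    push_cast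
    ring
  have h6 : b ^ (((k : ℝ) - 2) / k) * b ^ ((4 : ℝ) / k) = b ^ (((k : ℝ) + 2) / k) := by
    have hne : ((k : ℝ) - 2) / k + (4 : ℝ) / k ≠ 0 := by
      have h7 : ((k : ℝ) - 2) / k + (4 : ℝ) / k = ((k : ℝ) + 2) / k := by
        field_simp
        ring
      rw [h7]
      positivity
    rw [← Real.rpow_add' hb hne]
    congr 1
    field_simp
    ring
  rw [h5, h6, ← h4, ← h3]
  calc a = (a ^ k) ^ ((k : ℝ)⁻¹) := h1
    _ ≤ (c * b ^ (k + 2)) ^ ((k : ℝ)⁻¹) := h2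

/-- Hölder interpolation step: a pointwise bound `u^k ≤ c v^(k+2)` integrates to
`(∫u)^k ≤ c (∫v)^(k-2) (∫v²)²`. -/
theorem holder_step (k : ℕ) (hk : 2 ≤ k) (u v : ℝ → ℝ) (c : ℝ) (hc : 0 ≤ c)
    (hu : ∀ t, 0 ≤ u t) (hv : ∀ t, 0 ≤ v t) (hum : Measurable u) (hvm : Measurable v)
    (hvb : ∃ M : ℝ, ∀ t, v t ≤ M) (hvs : ∃ R : ℝ, ∀ t, R < |t| → v t = 0)
    (h : ∀ t, u t ^ k ≤ c * v t ^ (k + 2)) :
    (∫ t, u t) ^ k ≤ c * (∫ t, v t) ^ (k - 2) * (∫ t, v t ^ 2) ^ 2 := by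
  obtain ⟨M, hM⟩ := hvb
  obtain ⟨R, hR⟩ := hvs
  have hk0 : k ≠ 0 := by omega
  have hkpos : (0 : ℝ) < k := by exact_mod_cast Nat.pos_of_ne_zero hk0
  have hk2 : (2 : ℝ) ≤ k := by exact_mod_cast hk
  have hp : (0 : ℝ) ≤ ((k : ℝ) - 2) / k := div_nonneg (by linarith) hkpos.le
  have hq : (0 : ℝ) ≤ (2 : ℝ) / k := div_nonneg (by norm_num) hkpos.le
  have hpq : ((k : ℝ) - 2) / k + (2 : ℝ) / k = 1 := by
    field_simp
    ring
  have hM0 : 0 ≤ M := le_trans (hv 0) (hM 0)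
  have hA : ∫⁻ t, ENNReal.ofReal (v t) < ⊤ := holder_lintegral_lt_top v M R hM hR
  have hB : ∫⁻ t, ENNReal.ofReal (v t ^ 2) < ⊤ := by
    apply holder_lintegral_lt_top (fun t => v t ^ 2) (M ^ 2) R
    · intro t
      exact pow_le_pow_left₀ (hv t) (hM t) 2
    · intro t ht
      show v t ^ 2 = 0
      rw [hR t ht]
      ring
  have hpt : ∀ t, ENNReal.ofReal (u t) ≤ ENNReal.ofReal (c ^ ((k : ℝ)⁻¹))
      * (ENNReal.ofReal (v t) ^ (((k : ℝ) - 2) / k)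
        * ENNReal.ofReal (v t ^ 2) ^ ((2 : ℝ) / k)) := by
    intro t
    rw [ENNReal.ofReal_rpow_of_nonneg (hv t) hp,
      ENNReal.ofReal_rpow_of_nonneg (pow_nonneg (hv t) 2) hq,
      ← ENNReal.ofReal_mul (Real.rpow_nonneg (hv t) _),
      ← ENNReal.ofReal_mul (Real.rpow_nonneg hc _)]
    exact ENNReal.ofReal_le_ofReal (holder_pointwise k hk (u t) (v t) c hc (hu t) (hv t) (h t))
  have hU : ∫⁻ t, ENNReal.ofReal (u t) ≤ ENNReal.ofReal (c ^ ((k : ℝ)⁻¹))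
      * ((∫⁻ t, ENNReal.ofReal (v t)) ^ (((k : ℝ) - 2) / k)
        * (∫⁻ t, ENNReal.ofReal (v t ^ 2)) ^ ((2 : ℝ) / k)) := by
    calc ∫⁻ t, ENNReal.ofReal (u t)
        ≤ ∫⁻ t, ENNReal.ofReal (c ^ ((k : ℝ)⁻¹))
          * (ENNReal.ofReal (v t) ^ (((k : ℝ) - 2) / k)
            * ENNReal.ofReal (v t ^ 2) ^ ((2 : ℝ) / k)) := lintegral_mono hpt
      _ = ENNReal.ofReal (c ^ ((k : ℝ)⁻¹))
          * ∫⁻ t, (ENNReal.ofReal (v t) ^ (((k : ℝ) - 2) / k)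
            * ENNReal.ofReal (v t ^ 2) ^ ((2 : ℝ) / k)) :=
          lintegral_const_mul' _ _ ENNReal.ofReal_ne_top
      _ ≤ ENNReal.ofReal (c ^ ((k : ℝ)⁻¹))
          * ((∫⁻ t, ENNReal.ofReal (v t)) ^ (((k : ℝ) - 2) / k)
            * (∫⁻ t, ENNReal.ofReal (v t ^ 2)) ^ ((2 : ℝ) / k)) := by
          gcongr
          exact ENNReal.lintegral_mul_norm_pow_le hvm.ennreal_ofReal.aemeasurable
            (hvm.pow_const 2).ennreal_ofReal.aemeasurable hp hq hpq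
  have hUk : (∫⁻ t, ENNReal.ofReal (u t)) ^ k ≤ ENNReal.ofReal c
      * (∫⁻ t, ENNReal.ofReal (v t)) ^ (k - 2) * (∫⁻ t, ENNReal.ofReal (v t ^ 2)) ^ 2 := by
    have h1 := pow_le_pow_left₀ zero_le hU k
    have e1 : ENNReal.ofReal (c ^ ((k : ℝ)⁻¹)) ^ k = ENNReal.ofReal c := by
      rw [← ENNReal.ofReal_pow (Real.rpow_nonneg hc _), Real.rpow_inv_natCast_pow hc hk0]
    have e2 : ((∫⁻ t, ENNReal.ofReal (v t)) ^ (((k : ℝ) - 2) / k)) ^ k
        = (∫⁻ t, ENNReal.ofReal (v t)) ^ (k - 2) := by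
      rw [← ENNReal.rpow_natCast, ← ENNReal.rpow_mul, ← ENNReal.rpow_natCast]
      congr 1
      rw [Nat.cast_sub hk]
      push_cast
      field_simp
    have e3 : ((∫⁻ t, ENNReal.ofReal (v t ^ 2)) ^ ((2 : ℝ) / k)) ^ k
        = (∫⁻ t, ENNReal.ofReal (v t ^ 2)) ^ 2 := by
      rw [← ENNReal.rpow_natCast, ← ENNReal.rpow_mul, ← ENNReal.rpow_natCast]
      congr 1
      push_cast
      field_simp
    rw [mul_pow, mul_pow, e1, e2, e3, ← mul_assoc] at h1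
    exact h1
  rw [integral_eq_lintegral_of_nonneg_ae (Filter.Eventually.of_forall hu)
      hum.aestronglyMeasurable,
    integral_eq_lintegral_of_nonneg_ae (Filter.Eventually.of_forall hv)
      hvm.aestronglyMeasurable,
    integral_eq_lintegral_of_nonneg_ae (Filter.Eventually.of_forall (fun t => pow_nonneg (hv t) 2))
      (hvm.pow_const 2).aestronglyMeasurable]
  have hfin : ENNReal.ofReal c
      * (∫⁻ t, ENNReal.ofReal (v t)) ^ (k - 2) * (∫⁻ t, ENNReal.ofReal (v t ^ 2)) ^ 2 ≠ ⊤ :=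
    ENNReal.mul_ne_top (ENNReal.mul_ne_top ENNReal.ofReal_ne_top (ENNReal.pow_ne_top hA.ne))
      (ENNReal.pow_ne_top hB.ne)
  have h2 := ENNReal.toReal_mono hfin hUk
  rw [ENNReal.toReal_pow, ENNReal.toReal_mul, ENNReal.toReal_mul, ENNReal.toReal_pow,
    ENNReal.toReal_pow, ENNReal.toReal_ofReal hc] at h2
  exact h2

end Vale.Agent.Lib.P254
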