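import Vale.Agent.Lib.P254.Sym.Defs

open MeasureTheory Set

namespace Vale.Agent.Lib.P254

variable {n : ℕ}

/-- Integrals over a 1-symmetric set are invariant under permuting the coordinates of the
integration variable. -/
lemma OneSym.setIntegral_comp_perm {K : Set (Fin n → ℝ)} (hK : OneSym K)
    (σ : Equiv.Perm (Fin n)) (F : (Fin n → ℝ) → ℝ) :
    ∫ x in K, F (x ∘ σ) = ∫ x in K, F x := by
  have hmp : MeasurePreserving (MeasurableEquiv.piCongrLeft (fun _ : Fin n => ℝ) σ.symm)
      volume volume := volume_measurePreserving_piCongrLeft (fun _ : Fin n => ℝ) σ.symm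
  have hcoe : ∀ x : Fin n → ℝ,
      MeasurableEquiv.piCongrLeft (fun _ : Fin n => ℝ) σ.symm x = x ∘ σ := by
    intro x
    funext b
    have h := Equiv.piCongrLeft_apply_apply (fun _ : Fin n => ℝ) σ.symm x (σ b)
    rw [Equiv.symm_apply_apply] at h
    exact h
  have hpre : (MeasurableEquiv.piCongrLeft (fun _ : Fin n => ℝ) σ.symm) ⁻¹' K = K := by
    ext x
    rw [mem_preimage, hcoe]
    constructor
    · intro hx
      have h2 := hK.2.2.1 σ.symm (x ∘ σ) hx
      have h3 : (x ∘ σ) ∘ σ.symm = x := by
        funext b
        simp only [Function.comp_apply, Equiv.apply_symm_apply]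
      rwa [h3] at h2
    · intro hx
      exact hK.2.2.1 σ x hx
  have key := hmp.setIntegral_preimage_emb
    (MeasurableEquiv.piCongrLeft (fun _ : Fin n => ℝ) σ.symm).measurableEmbedding F K
  rw [hpre] at key
  rw [← key]
  congr 1
  funext x
  rw [hcoe]

/-- All coordinates of a 1-symmetric set have the same second moment. -/
lemma OneSym.m2_eq {K : Set (Fin n → ℝ)} (hK : OneSym K) (i j : Fin n) : m2 K i = m2 K j := by
  have h := hK.setIntegral_comp_perm (Equiv.swap i j) (fun x => (x i) ^ 2)
  simp only [Function.comp_apply, Equiv.swap_apply_left] at h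
  unfold m2
  exact h.symm

/-- All coordinates of a 1-symmetric set have the same first absolute moment. -/
lemma OneSym.abs_moment_eq {K : Set (Fin n → ℝ)} (hK : OneSym K) (i j : Fin n) :
    ∫ x in K, |x i| = ∫ x in K, |x j| := by
  have h := hK.setIntegral_comp_perm (Equiv.swap i j) (fun x => |x i|)
  simp only [Function.comp_apply, Equiv.swap_apply_left] at h
  exact h.symm

end Vale.Agent.Lib.P254
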