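import Vale.Agent.Lib.P254.Sym.AdmBasic

open MeasureTheory Set

namespace Vale.Agent.Lib.P254

/-- Translation of a half-line integral. -/
private lemma oneDb_shift (f : ℝ → ℝ) (a c : ℝ) :
    ∫ x in Ioi a, f (x + c) = ∫ x in Ioi (a + c), f x := by
  rw [← integral_indicator measurableSet_Ioi, ← integral_indicator measurableSet_Ioi]
  rw [← integral_add_right_eq_self (fun x => (Ioi (a + c)).indicator f x) c]
  congr 1
  funext x
  by_cases hx : a < x
  · have h1 : x ∈ Ioi a := hx
    have h2 : x + c ∈ Ioi (a + c) := by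
      show a + c < x + c
      linarith
    rw [indicator_of_mem h1, indicator_of_mem h2]
  · have h1 : x ∉ Ioi a := hx
    have h2 : x + c ∉ Ioi (a + c) := by
      intro h
      apply hx
      have h3 : a + c < x + c := h
      linarith
    rw [indicator_of_notMem h1, indicator_of_notMem h2]

/-- Fubini on the triangle `0 < s < u`. -/
private lemma oneDb_tri (p g : ℝ → ℝ) (hp : Continuous p) (R : ℝ)
    (hg : IntegrableOn g (Ioi 0)) (hgR : ∀ u, R < u → g u = 0) :
    ∫ s in Ioi 0, p s * (∫ u in Ioi s, g u) = ∫ u in Ioi 0, (∫ s in Ioo 0 u, p s) * g u := by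
  have hP : Integrable ((Iic R).indicator p) (volume.restrict (Ioi 0)) := by
    rw [integrable_indicator_iff measurableSet_Iic]
    show Integrable p ((volume.restrict (Ioi 0)).restrict (Iic R))
    rw [Measure.restrict_restrict measurableSet_Iic]
    have h1 : Iic R ∩ Ioi 0 = Ioc 0 R := by
      ext x
      simp only [mem_inter_iff, mem_Iic, mem_Ioi, mem_Ioc]
      tauto
    rw [h1]
    exact hp.integrableOn_Ioc
  have hH : Integrable (fun z : ℝ × ℝ => (Iic R).indicator p z.1 * g z.2)
      ((volume.restrict (Ioi 0)).prod (volume.restrict (Ioi 0))) := hP.mul_prod hg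
  have hF : Integrable (Function.uncurry (fun s u : ℝ => if s < u then p s * g u else 0))
      ((volume.restrict (Ioi 0)).prod (volume.restrict (Ioi 0))) := by
    have h1 := hH.indicator (measurableSet_lt measurable_fst measurable_snd)
    have h2 : (Function.uncurry (fun s u : ℝ => if s < u then p s * g u else 0))
        = ({z : ℝ × ℝ | z.1 < z.2}).indicator
          (fun z : ℝ × ℝ => (Iic R).indicator p z.1 * g z.2) := by
      funext z
      by_cases hz : z.1 < z.2
      · have hz' : z ∈ {z : ℝ × ℝ | z.1 < z.2} := hz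
        rw [indicator_of_mem hz']
        simp only [Function.uncurry, if_pos hz]
        by_cases hR : z.1 ≤ R
        · have : z.1 ∈ Iic R := hR
          rw [indicator_of_mem this]
        · have h3 : R < z.2 := by
            have : R < z.1 := not_le.mp hR
            linarith
          rw [hgR z.2 h3]
          simp
      · have hz' : z ∉ {z : ℝ × ℝ | z.1 < z.2} := hz
        rw [indicator_of_notMem hz']
        simp only [Function.uncurry, if_neg hz]
    rw [h2]
    exact h1
  have hswap := integral_integral_swap hF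
  have hL : ∫ s in Ioi 0, p s * (∫ u in Ioi s, g u)
      = ∫ s in Ioi 0, ∫ u in Ioi 0, (if s < u then p s * g u else 0) := by
    apply setIntegral_congr_fun measurableSet_Ioi
    intro s hs
    have hs0 : (0 : ℝ) < s := hs
    have h1 : (fun u : ℝ => if s < u then p s * g u else 0)
        = (Ioi s).indicator (fun u => p s * g u) := by
      funext u
      by_cases hu : s < u
      · have : u ∈ Ioi s := hu
        rw [indicator_of_mem this, if_pos hu]
      · have : u ∉ Ioi s := hu
        rw [indicator_of_notMem this, if_neg hu]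
    show p s * (∫ u in Ioi s, g u) = ∫ u in Ioi 0, (if s < u then p s * g u else 0)
    rw [h1, setIntegral_indicator measurableSet_Ioi, Ioi_inter_Ioi, integral_const_mul]
    rw [max_eq_right hs0.le]
  have hR : ∫ u in Ioi 0, (∫ s in Ioo 0 u, p s) * g u
      = ∫ u in Ioi 0, ∫ s in Ioi 0, (if s < u then p s * g u else 0) := by
    apply setIntegral_congr_fun measurableSet_Ioi
    intro u hu
    have h1 : (fun s : ℝ => if s < u then p s * g u else 0)
        = (Iio u).indicator (fun s => p s * g u) := by
      funext s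
      by_cases hs : s < u
      · have : s ∈ Iio u := hs
        rw [indicator_of_mem this, if_pos hs]
      · have : s ∉ Iio u := hs
        rw [indicator_of_notMem this, if_neg hs]
    show (∫ s in Ioo 0 u, p s) * g u = ∫ s in Ioi 0, (if s < u then p s * g u else 0)
    rw [h1, setIntegral_indicator measurableSet_Iio, Ioi_inter_Iio, integral_mul_const]
  rw [hL, hR]
  exact hswap

/-- The tail function of an admissible profile. -/
private noncomputable def oneDbT (v : ℝ → ℝ) (s : ℝ) : ℝ := ∫ u in Ioi s, v u

private lemma oneDbT_nonneg {v : ℝ → ℝ} (hv : Adm v) (s : ℝ) : 0 ≤ oneDbT v s :=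
  setIntegral_nonneg measurableSet_Ioi (fun u _ => hv.nonneg u)

private lemma oneDbT_anti {v : ℝ → ℝ} (hv : Adm v) : Antitone (oneDbT v) := by
  intro s s' hss
  unfold oneDbT
  apply setIntegral_mono_set hv.integrable.integrableOn
  · exact Filter.Eventually.of_forall (fun u => hv.nonneg u)
  · exact Filter.Eventually.of_forall (fun u (hu : s' < u) => lt_of_le_of_lt hss hu)

private lemma oneDbT_zero {v : ℝ → ℝ} {R : ℝ} (hR : ∀ t, R < |t| → v t = 0) {s : ℝ}
    (hs : R ≤ s) : oneDbT v s = 0 := by
  unfold oneDbT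
  apply setIntegral_eq_zero_of_forall_eq_zero
  intro u hu
  have hu' : s < u := hu
  exact hR u (lt_of_lt_of_le (lt_of_le_of_lt hs hu') (le_abs_self u))

private lemma oneDbT_integrableOn {v : ℝ → ℝ} (hv : Adm v) : IntegrableOn (oneDbT v) (Ioi 0) := by
  obtain ⟨R, hR⟩ := hv.supp
  have hm : Measurable (oneDbT v) := (oneDbT_anti hv).measurable
  have h1 : Integrable ((Ioi (0 : ℝ)).indicator (oneDbT v)) := by
    refine integrable_of_bdd_supp (hm.indicator measurableSet_Ioi) (oneDbT v 0) R
      (fun t => ?_) (fun t ht => ?_)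
    · by_cases h0 : (0 : ℝ) < t
      · have : t ∈ Ioi (0 : ℝ) := h0
        rw [indicator_of_mem this, abs_of_nonneg (oneDbT_nonneg hv t)]
        exact oneDbT_anti hv h0.le
      · have : t ∉ Ioi (0 : ℝ) := h0
        rw [indicator_of_notMem this, abs_zero]
        exact oneDbT_nonneg hv 0
    · by_cases h0 : (0 : ℝ) < t
      · have : t ∈ Ioi (0 : ℝ) := h0
        rw [indicator_of_mem this]
        apply oneDbT_zero hR
        rw [abs_of_pos h0] at ht
        exact ht.le
      · have : t ∉ Ioi (0 : ℝ) := h0
        rw [indicator_of_notMem this]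
  exact (integrable_indicator_iff measurableSet_Ioi).mp h1

/-- The cross inequality between the profile and its tail function. -/
private lemma oneDb_cross {v : ℝ → ℝ} (hv : Adm v) {w s r : ℝ} (hw : 0 ≤ w) (hws : w ≤ s)
    (hr : 0 ≤ r) : v w * oneDbT v (s + r) ≤ v (w + r) * oneDbT v s := by
  have h1 : oneDbT v (s + r) = ∫ y in Ioi s, v (y + r) := (oneDb_shift v s r).symm
  rw [h1]
  unfold oneDbT
  rw [← integral_const_mul, ← integral_const_mul]
  apply setIntegral_mono_on
  · exact ((hv.integrable.comp_add_right r).const_mul (v w)).integrableOn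
  · exact (hv.integrable.const_mul (v (w + r))).integrableOn
  · exact measurableSet_Ioi
  · intro y hy
    have hy' : s < y := hy
    exact hv.logc w y r hw (by linarith) hr

/-- New better than used: the tail function is submultiplicative up to its value at zero. -/
private lemma oneDb_nbu {v : ℝ → ℝ} (hv : Adm v) {s r : ℝ} (hs : 0 ≤ s) (hr : 0 ≤ r) :
    oneDbT v 0 * oneDbT v (s + r) ≤ oneDbT v s * oneDbT v r := by
  have hsplit : ∀ f : ℝ → ℝ, Integrable f →
      ∫ w in Ioc 0 s, f w = (∫ w in Ioi 0, f w) - ∫ w in Ioi s, f w := by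
    intro f hf
    have h1 := setIntegral_union (μ := volume) (f := f) (Ioc_disjoint_Ioi (a := (0 : ℝ)) (le_refl s))
      measurableSet_Ioi hf.integrableOn hf.integrableOn
    rw [Ioc_union_Ioi_eq_Ioi hs] at h1
    linarith
  have h2 : (∫ w in Ioc 0 s, v w) * oneDbT v (s + r)
      ≤ (∫ w in Ioc 0 s, v (w + r)) * oneDbT v s := by
    rw [← integral_mul_const, ← integral_mul_const]
    apply setIntegral_mono_on
    · exact (hv.integrable.mul_const _).integrableOn
    · exact ((hv.integrable.comp_add_right r).mul_const _).integrableOn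
    · exact measurableSet_Ioc
    · intro w hw
      exact oneDb_cross hv hw.1.le hw.2 hr
  have h3 : ∫ w in Ioc 0 s, v w = oneDbT v 0 - oneDbT v s := hsplit v hv.integrable
  have h4 : ∫ w in Ioc 0 s, v (w + r) = oneDbT v r - oneDbT v (s + r) := by
    rw [hsplit (fun w => v (w + r)) (hv.integrable.comp_add_right r)]
    rw [oneDb_shift v 0 r, oneDb_shift v s r, zero_add]
    rfl
  rw [h3, h4] at h2
  nlinarith [h2]

/-- Second moment against first absolute moment for an admissible (log-concave) profile:
`∫t²v · ∫v ≤ 2 (∫|t|v)²` (equality for two-sided exponentials). -/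
theorem adm_second_moment {v : ℝ → ℝ} (hv : Adm v) :
    (∫ t, t ^ 2 * v t) * (∫ t, v t) ≤ 2 * (∫ t, |t| * v t) ^ 2 := by
  obtain ⟨R, hR⟩ := hv.supp
  have hvR : ∀ u, R < u → v u = 0 := fun u hu => hR u (lt_of_lt_of_le hu (le_abs_self u))
  have hTR : ∀ u, R < u → oneDbT v u = 0 := fun u hu => oneDbT_zero hR hu.le
  have habs : ∀ t, v |t| = v t := by
    intro t
    rcases le_total 0 t with h | h
    · rw [abs_of_nonneg h]
    · rw [abs_of_nonpos h, hv.even]
  -- reduction to the half line
  have e0 : ∫ t, v t = 2 * ∫ t in Ioi 0, v t := by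
    rw [← integral_comp_abs (f := v)]
    congr 1
    funext t
    exact (habs t).symm
  have e1 : ∫ t, |t| * v t = 2 * ∫ t in Ioi 0, t * v t := by
    rw [← integral_comp_abs (f := fun t => t * v t)]
    congr 1
    funext t
    rw [habs t]
  have e2 : ∫ t, t ^ 2 * v t = 2 * ∫ t in Ioi 0, t ^ 2 * v t := by
    rw [← integral_comp_abs (f := fun t => t ^ 2 * v t)]
    congr 1
    funext t
    rw [habs t, sq_abs]
  -- the three Fubini identities
  have hB : ∫ s in Ioi 0, oneDbT v s = ∫ u in Ioi 0, u * v u := by
    have h := oneDb_tri (fun _ => (1 : ℝ)) v continuous_const R hv.integrable.integrableOn hvR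
    have h1 : ∫ s in Ioi 0, oneDbT v s = ∫ s in Ioi 0, (1 : ℝ) * (∫ u in Ioi s, v u) := by
      apply setIntegral_congr_fun measurableSet_Ioi
      intro s _
      show oneDbT v s = 1 * (∫ u in Ioi s, v u)
      rw [one_mul]
      rfl
    rw [h1, h]
    apply setIntegral_congr_fun measurableSet_Ioi
    intro u hu
    have hu0 : (0 : ℝ) < u := hu
    show (∫ s in Ioo 0 u, (1 : ℝ)) * v u = u * v u
    rw [setIntegral_const]
    simp [hu0.le]
  have hM : ∫ s in Ioi 0, s * oneDbT v s = (∫ u in Ioi 0, u ^ 2 * v u) / 2 := by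
    have h := oneDb_tri (fun s => s) v continuous_id R hv.integrable.integrableOn hvR
    have h1 : ∫ s in Ioi 0, s * oneDbT v s = ∫ s in Ioi 0, s * (∫ u in Ioi s, v u) := rfl
    rw [h1, h, ← integral_div]
    apply setIntegral_congr_fun measurableSet_Ioi
    intro u hu
    have hu0 : (0 : ℝ) < u := hu
    show (∫ s in Ioo 0 u, s) * v u = u ^ 2 * v u / 2
    rw [← integral_Ioc_eq_integral_Ioo, ← intervalIntegral.integral_of_le hu0.le, integral_id]
    ring
  have hT2 : ∫ s in Ioi 0, (∫ x in Ioi s, oneDbT v x) = ∫ x in Ioi 0, x * oneDbT v x := by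
    have h := oneDb_tri (fun _ => (1 : ℝ)) (oneDbT v) continuous_const R
      (oneDbT_integrableOn hv) hTR
    have h1 : ∫ s in Ioi 0, (∫ x in Ioi s, oneDbT v x)
        = ∫ s in Ioi 0, (1 : ℝ) * (∫ x in Ioi s, oneDbT v x) := by
      apply setIntegral_congr_fun measurableSet_Ioi
      intro s _
      show (∫ x in Ioi s, oneDbT v x) = 1 * (∫ x in Ioi s, oneDbT v x)
      rw [one_mul]
    rw [h1, h]
    apply setIntegral_congr_fun measurableSet_Ioi
    intro u hu
    have hu0 : (0 : ℝ) < u := hu
    show (∫ s in Ioo 0 u, (1 : ℝ)) * oneDbT v u = u * oneDbT v u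
    rw [setIntegral_const]
    simp [hu0.le]
  -- the integrated inequality
  have hTi : IntegrableOn (oneDbT v) (Ioi 0) := oneDbT_integrableOn hv
  have hstep : ∀ s, 0 < s → oneDbT v 0 * (∫ x in Ioi s, oneDbT v x)
      ≤ oneDbT v s * ∫ r in Ioi 0, oneDbT v r := by
    intro s hs
    have h1 : ∫ x in Ioi s, oneDbT v x = ∫ r in Ioi 0, oneDbT v (r + s) := by
      rw [oneDb_shift (oneDbT v) 0 s, zero_add]
    rw [h1, ← integral_const_mul, ← integral_const_mul]
    apply integral_mono_of_nonneg
    · exact Filter.Eventually.of_forall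
        (fun r => mul_nonneg (oneDbT_nonneg hv 0) (oneDbT_nonneg hv (r + s)))
    · exact hTi.const_mul _
    · rw [Filter.EventuallyLE, ae_restrict_iff' measurableSet_Ioi]
      refine Filter.Eventually.of_forall (fun r hr => ?_)
      have hr0 : (0 : ℝ) < r := hr
      have := oneDb_nbu hv hs.le hr0.le
      rw [add_comm r s]
      exact this
  have hfinal : oneDbT v 0 * (∫ s in Ioi 0, (∫ x in Ioi s, oneDbT v x))
      ≤ (∫ s in Ioi 0, oneDbT v s) * ∫ r in Ioi 0, oneDbT v r := by
    rw [← integral_const_mul, ← integral_mul_const]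
    apply integral_mono_of_nonneg
    · rw [Filter.EventuallyLE, ae_restrict_iff' measurableSet_Ioi]
      refine Filter.Eventually.of_forall (fun s _ => ?_)
      exact mul_nonneg (oneDbT_nonneg hv 0)
        (setIntegral_nonneg measurableSet_Ioi (fun x _ => oneDbT_nonneg hv x))
    · exact hTi.mul_const _
    · rw [Filter.EventuallyLE, ae_restrict_iff' measurableSet_Ioi]
      exact Filter.Eventually.of_forall (fun s hs => hstep s hs)
  rw [hT2, hM, hB] at hfinal
  have hA : oneDbT v 0 = ∫ t in Ioi 0, v t := rfl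
  rw [hA] at hfinal
  rw [e0, e1, e2]
  nlinarith [hfinal]

end Vale.Agent.Lib.P254
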