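import Vale.Agent.Lib.P254.Sym.Base2
import Vale.Agent.Lib.P254.Sym.MomSym
import Vale.Agent.Lib.P254.Sym.OneDb
import Vale.Agent.Lib.P254.Sym.Holder
import Vale.Agent.Lib.P254.Sym.AdmBasic

open MeasureTheory Set

namespace Vale.Agent.Lib.P254

/-- Combination of the two one-dimensional inequalities. -/
theorem adm_combined {v : ℝ → ℝ} (hv : Adm v) :
    12 * (∫ t, t ^ 2 * v t) * (∫ t, v t ^ 2) ^ 2 ≤ 3 / 2 * (∫ t, v t) ^ 5 := by
  have h1 := adm_first_moment hv
  have h2 := adm_second_moment hv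
  set I0 := ∫ t, v t with hI0
  set I1 := ∫ t, |t| * v t with hI1
  set I2 := ∫ t, t ^ 2 * v t with hI2
  set J := ∫ t, v t ^ 2 with hJ
  have hI0n : 0 ≤ I0 := integral_nonneg fun t => hv.nonneg t
  have hI1n : 0 ≤ I1 := integral_nonneg fun t => mul_nonneg (abs_nonneg t) (hv.nonneg t)
  have hI2n : 0 ≤ I2 := integral_nonneg fun t => mul_nonneg (sq_nonneg t) (hv.nonneg t)
  have hJn : 0 ≤ J := integral_nonneg fun t => sq_nonneg (v t)
  rcases hI0n.eq_or_lt with h0 | h0
  · -- `∫ v = 0` forces `∫ v² = 0`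
    have hJ0 : J ≤ v 0 * I0 := by
      rw [hJ, hI0, ← integral_const_mul]
      refine integral_mono hv.integrable_sq (hv.integrable.const_mul _) fun t => ?_
      simp only [sq]
      exact mul_le_mul_of_nonneg_right (hv.le_zero t) (hv.nonneg t)
    have hJz : J = 0 := le_antisymm (by rw [← h0] at hJ0; simpa using hJ0) hJn
    rw [hJz, ← h0]; simp
  · have hI2 : I2 ≤ 2 * I1 ^ 2 / I0 := by
      rw [le_div_iff₀ h0]; exact h2
    have h3 : (I1 * J) ^ 2 ≤ (I0 ^ 3 / 4) ^ 2 :=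
      pow_le_pow_left₀ (mul_nonneg hI1n hJn) h1 2
    calc 12 * I2 * J ^ 2 ≤ 12 * (2 * I1 ^ 2 / I0) * J ^ 2 := by
          have : 0 ≤ J ^ 2 := sq_nonneg J
          nlinarith
      _ = 24 * (I1 * J) ^ 2 / I0 := by ring
      _ ≤ 24 * (I0 ^ 3 / 4) ^ 2 / I0 := by
          apply div_le_div_of_nonneg_right _ h0.le
          linarith
      _ = 3 / 2 * I0 ^ 5 := by
          field_simp
          ring

variable {m : ℕ}

/-- Second moment of the first coordinate by slices. -/
lemma m2_zero_slice {K : Set (Fin (m+1) → ℝ)} (hK : IsCompact K) :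
    m2 K 0 = ∫ t, t ^ 2 * vol (sec K t) := by
  unfold m2
  rw [integral_slice hK (fun x => (x 0) ^ 2) (by fun_prop)]
  congr 1
  ext t
  simp only [Fin.cons_zero]
  rw [setIntegral_const]
  simp [vol, Measure.real, mul_comm]

/-- Second moment of a later coordinate by slices. -/
lemma m2_succ_slice {K : Set (Fin (m+1) → ℝ)} (hK : IsCompact K) (j : Fin m) :
    m2 K j.succ = ∫ t, m2 (sec K t) j := by
  unfold m2
  rw [integral_slice hK (fun x => (x j.succ) ^ 2) (by fun_prop)]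
  simp only [Fin.cons_succ]

/-- Induction step of the moment bound. -/
theorem oneSym_step (hm : 2 ≤ m) (c : ℝ) (hc : 0 ≤ c)
    (IH : ∀ S : Set (Fin m → ℝ), OneSym S → ∀ j, (12 * m2 S j) ^ m ≤ c * (vol S) ^ (m + 2))
    {K : Set (Fin (m+1) → ℝ)} (hK : OneSym K) (i : Fin (m+1)) :
    (12 * m2 K i) ^ (m + 1) ≤ 3 / 2 * c * (vol K) ^ (m + 3) := by
  have hKc : IsCompact K := hK.1
  have hadm : Adm (fun t => vol (sec K t)) := hK.adm_vol_sec
  set v : ℝ → ℝ := fun t => vol (sec K t) with hv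
  let j0 : Fin m := ⟨0, by omega⟩
  set u : ℝ → ℝ := fun t => 12 * m2 (sec K t) j0 with hu
  have hm2n : ∀ (S : Set (Fin m → ℝ)) (j : Fin m), 0 ≤ m2 S j := fun S j =>
    integral_nonneg fun x => sq_nonneg (x j)
  have hun : ∀ t, 0 ≤ u t := fun t => mul_nonneg (by norm_num) (hm2n _ _)
  have hum : Measurable u := by
    have := measurable_slice hKc (fun x => (x j0.succ) ^ 2) (by fun_prop)
    simp only [Fin.cons_succ] at this
    exact this.const_mul 12
  have hpt : ∀ t, u t ^ m ≤ c * v t ^ (m + 2) := fun t => IH (sec K t) (hK.sec_oneSym t) j0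
  have hH := holder_step m hm u v c hc hun hadm.nonneg hum hadm.meas
    ⟨v 0, fun t => hadm.le_zero t⟩ hadm.supp hpt
  have hV : ∫ t, v t = vol K := (vol_slice hKc).symm
  have hU : ∫ t, u t = 12 * m2 K i := by
    rw [hu, integral_const_mul, ← m2_succ_slice hKc j0, hK.m2_eq j0.succ i]
  have hT : ∫ t, t ^ 2 * v t = m2 K i := by
    rw [← m2_zero_slice hKc, hK.m2_eq 0 i]
  have hC := adm_combined hadm
  rw [hT, hV] at hC
  rw [hU, hV] at hH
  set X := 12 * m2 K i with hX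
  set V := vol K with hVdef
  set J := ∫ t, v t ^ 2 with hJ
  have hXn : 0 ≤ X := mul_nonneg (by norm_num) (integral_nonneg fun x => sq_nonneg (x i))
  have hVn : 0 ≤ V := ENNReal.toReal_nonneg
  have hC' : X * J ^ 2 ≤ 3 / 2 * V ^ 5 := by rw [hX]; linarith
  calc X ^ (m + 1) = X ^ m * X := pow_succ X m
    _ ≤ c * V ^ (m - 2) * J ^ 2 * X := mul_le_mul_of_nonneg_right hH hXn
    _ = c * V ^ (m - 2) * (X * J ^ 2) := by ring
    _ ≤ c * V ^ (m - 2) * (3 / 2 * V ^ 5) :=
        mul_le_mul_of_nonneg_left hC' (mul_nonneg hc (pow_nonneg hVn _))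
    _ = 3 / 2 * c * V ^ (m + 3) := by
        have : m + 3 = (m - 2) + 5 := by omega
        rw [this, pow_add]; ring

/-- Moment bound for 1-symmetric compact convex sets in every dimension `n ≥ 2`. -/
theorem oneSym_moment_bound : ∀ n : ℕ, 2 ≤ n → ∀ K : Set (Fin n → ℝ), OneSym K → ∀ i : Fin n,
    (12 * m2 K i) ^ n ≤ 81 / 64 * (3 / 2) ^ (n - 2) * (vol K) ^ (n + 2) := by
  intro n hn
  induction n, hn using Nat.le_induction with
  | base =>
    intro K hK i
    simpa using oneSym_base hK i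
  | succ n hn ih =>
    intro K hK i
    have h := oneSym_step hn (81 / 64 * (3 / 2) ^ (n - 2)) (by positivity) ih hK i
    have e : n + 1 - 2 = (n - 2) + 1 := by omega
    rw [e, pow_succ]
    calc (12 * m2 K i) ^ (n + 1) ≤ 3 / 2 * (81 / 64 * (3 / 2) ^ (n - 2)) * vol K ^ (n + 3) := h
      _ = 81 / 64 * ((3 / 2) ^ (n - 2) * (3 / 2)) * vol K ^ (n + 1 + 2) := by ring

end Vale.Agent.Lib.P254
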