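import Vale.Agent.Lib.P254.Sym.BM2
import Vale.Agent.Lib.P254.Sym.Berwald1D
import Vale.Agent.Lib.P254.Sym.Induct

open MeasureTheory Set

namespace Vale.Agent.Lib.P254

/-- Under the reflection symmetry of the first coordinate, sections at opposite heights
coincide. -/
lemma sec_neg_of_flip {n : ℕ} {K : Set (Fin (n+1) → ℝ)}
    (hflip : ∀ x ∈ K, Function.update x 0 (-(x 0)) ∈ K) (t : ℝ) : sec K (-t) = sec K t := by
  have key : ∀ s : ℝ, sec K s ⊆ sec K (-s) := by
    intro s y hy
    rw [mem_sec] at hy ⊢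
    have h := hflip _ hy
    rw [Fin.cons_zero, Fin.update_cons_zero] at h
    exact h
  refine Set.Subset.antisymm ?_ (key t)
  have h := key (-t)
  rw [neg_neg] at h
  exact h

/-- First absolute moment of the first coordinate by slices. -/
lemma abs_moment_zero_slice {m : ℕ} {K : Set (Fin (m+1) → ℝ)} (hK : IsCompact K) :
    ∫ x in K, |x 0| = ∫ t, |t| * vol (sec K t) := by
  rw [integral_slice hK (fun x => |x 0|) (by fun_prop)]
  congr 1
  ext t
  simp only [Fin.cons_zero]
  rw [setIntegral_const]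
  simp [vol, Measure.real, mul_comm]

/-- Sharp Berwald inequality for the first coordinate of a compact convex set in `ℝ³` that is
symmetric under the reflection of that coordinate. -/
theorem berwald3_zero {K : Set (Fin 3 → ℝ)} (hK : IsCompact K) (hc : Convex ℝ K)
    (hflip : ∀ x ∈ K, Function.update x 0 (-(x 0)) ∈ K) :
    m2 K 0 * vol K ≤ 8 / 5 * (∫ x in K, |x 0|) ^ 2 := by
  obtain ⟨a, ha, hconc, hsupp⟩ := sqrt_concave_vol_sec hK hc hflip
  have h := sqrt_concave_second_moment (fun t => vol (sec K t)) a ha (measurable_vol_sec hK)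
    (fun t => ENNReal.toReal_nonneg) (fun t => by rw [sec_neg_of_flip hflip]) hconc hsupp
  rw [m2_zero_slice hK, vol_slice hK, abs_moment_zero_slice hK]
  exact h

private lemma swap_coe (i : Fin 3) (x : Fin 3 → ℝ) :
    MeasurableEquiv.piCongrLeft (fun _ : Fin 3 => ℝ) (Equiv.swap 0 i).symm x
      = x ∘ (Equiv.swap 0 i) := by
  funext b
  have h := Equiv.piCongrLeft_apply_apply (fun _ : Fin 3 => ℝ) (Equiv.swap 0 i).symm x
    ((Equiv.swap 0 i) b)
  rw [Equiv.symm_apply_apply] at h
  exact h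

private lemma swap_preimage (i : Fin 3) (K : Set (Fin 3 → ℝ)) :
    (MeasurableEquiv.piCongrLeft (fun _ : Fin 3 => ℝ) (Equiv.swap 0 i).symm) ⁻¹' K
      = (fun x : Fin 3 → ℝ => x ∘ (Equiv.swap 0 i)) ⁻¹' K := by
  ext x
  rw [mem_preimage, mem_preimage, swap_coe]

private lemma swap_integral (i : Fin 3) (K : Set (Fin 3 → ℝ)) (F : (Fin 3 → ℝ) → ℝ) :
    ∫ x in (fun x : Fin 3 → ℝ => x ∘ (Equiv.swap 0 i)) ⁻¹' K, F (x ∘ (Equiv.swap 0 i))
      = ∫ y in K, F y := by
  have hmp : MeasurePreserving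
      (MeasurableEquiv.piCongrLeft (fun _ : Fin 3 => ℝ) (Equiv.swap 0 i).symm) volume volume :=
    volume_measurePreserving_piCongrLeft (fun _ : Fin 3 => ℝ) (Equiv.swap 0 i).symm
  have key := hmp.setIntegral_preimage_emb
    (MeasurableEquiv.piCongrLeft (fun _ : Fin 3 => ℝ) (Equiv.swap 0 i).symm).measurableEmbedding
    F K
  rw [swap_preimage] at key
  rw [← key]
  congr 1
  funext x
  rw [swap_coe]

private lemma swap_vol (i : Fin 3) (K : Set (Fin 3 → ℝ)) :
    vol ((fun x : Fin 3 → ℝ => x ∘ (Equiv.swap 0 i)) ⁻¹' K) = vol K := by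
  have hmp : MeasurePreserving
      (MeasurableEquiv.piCongrLeft (fun _ : Fin 3 => ℝ) (Equiv.swap 0 i).symm) volume volume :=
    volume_measurePreserving_piCongrLeft (fun _ : Fin 3 => ℝ) (Equiv.swap 0 i).symm
  have h := hmp.measure_preimage_equiv K
  rw [swap_preimage] at h
  unfold vol
  rw [h]

/-- Sharp Berwald inequality for every coordinate of an unconditional compact convex set in
`ℝ³`: `∫_K xᵢ² · |K| ≤ (8/5) (∫_K |xᵢ|)²`. -/
theorem berwald3 {K : Set (Fin 3 → ℝ)} (hK : IsCompact K) (hc : Convex ℝ K)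
    (hs : ∀ i : Fin 3, ∀ x ∈ K, Function.update x i (-(x i)) ∈ K) (i : Fin 3) :
    m2 K i * vol K ≤ 8 / 5 * (∫ x in K, |x i|) ^ 2 := by
  set σ : Equiv.Perm (Fin 3) := Equiv.swap 0 i with hσ
  have hσi : σ i = 0 := Equiv.swap_apply_right 0 i
  have hσσ : ∀ y : Fin 3 → ℝ, (y ∘ σ) ∘ σ = y := by
    intro y
    funext j
    simp only [Function.comp_apply, hσ, Equiv.swap_apply_self]
  set K' : Set (Fin 3 → ℝ) := (fun x : Fin 3 → ℝ => x ∘ σ) ⁻¹' K with hK'
  have hK'c : IsCompact K' := by
    have himg : K' = (fun x : Fin 3 → ℝ => x ∘ σ) '' K := by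
      ext x
      constructor
      · intro hx
        exact ⟨x ∘ σ, hx, hσσ x⟩
      · rintro ⟨y, hy, rfl⟩
        show (y ∘ σ) ∘ σ ∈ K
        rw [hσσ]
        exact hy
    rw [himg]
    exact hK.image (continuous_pi fun j => continuous_apply (σ j))
  have hK'v : Convex ℝ K' := by
    intro x hx y hy a b ha hb hab
    have h := hc (show x ∘ σ ∈ K from hx) (show y ∘ σ ∈ K from hy) ha hb hab
    exact h
  have hK'f : ∀ x ∈ K', Function.update x 0 (-(x 0)) ∈ K' := by
    intro x hx
    show Function.update x 0 (-(x 0)) ∘ σ ∈ K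
    have h := hs i (x ∘ σ) hx
    have e : Function.update x 0 (-(x 0)) ∘ σ = Function.update (x ∘ σ) i (-((x ∘ σ) i)) := by
      rw [Function.update_comp_equiv]
      have h1 : σ.symm 0 = i := by
        rw [hσ, Equiv.symm_swap, Equiv.swap_apply_left]
      rw [h1, Function.comp_apply, hσi]
    rw [e]
    exact h
  have hmain := berwald3_zero hK'c hK'v hK'f
  have e1 : m2 K' 0 = m2 K i := by
    unfold m2
    have h := swap_integral i K (fun y => (y i) ^ 2)
    simp only [Function.comp_apply] at h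
    rw [← hσ, hσi] at h
    exact h
  have e2 : ∫ x in K', |x 0| = ∫ x in K, |x i| := by
    have h := swap_integral i K (fun y => |y i|)
    simp only [Function.comp_apply] at h
    rw [← hσ, hσi] at h
    exact h
  have e3 : vol K' = vol K := swap_vol i K
  rw [e1, e2, e3] at hmain
  exact hmain

end Vale.Agent.Lib.P254
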