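import Vale.Agent.Lib.P254.Sym.PL1
import Vale.Agent.Lib.P254.Sym.Slice

open MeasureTheory Set

namespace Vale.Agent.Lib.P254

/-- The section-volume function of a compact set is integrable. -/
lemma integrable_vol_sec {n : ℕ} {K : Set (Fin (n+1) → ℝ)} (hK : IsCompact K) :
    Integrable (fun t => vol (sec K t)) := by
  obtain ⟨R, hR⟩ := sec_eq_empty_of_compact hK
  obtain ⟨M, hM⟩ := vol_sec_bounded hK
  have hmeas := measurable_vol_sec hK
  have hsupp : Function.support (fun t => vol (sec K t)) ⊆ Icc (-R) R := by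
    intro t ht
    by_contra hnot
    apply ht
    have : R < |t| := by
      by_contra hle
      push Not at hle
      exact hnot (abs_le.mp hle)
    show vol (sec K t) = 0
    rw [hR t this]; simp [vol]
  rw [← integrableOn_iff_integrable_of_support_subset hsupp]
  apply Measure.integrableOn_of_bounded (M := M) (by simp) hmeas.aestronglyMeasurable
  exact Filter.Eventually.of_forall (fun t => by
    rw [Real.norm_eq_abs, abs_of_nonneg (show 0 ≤ vol (sec K t) from ENNReal.toReal_nonneg)]
    exact hM t)

/-- In dimension zero every nonempty set has volume one. -/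
lemma vol_fin_zero (S : Set (Fin 0 → ℝ)) (hS : S.Nonempty) : vol S = 1 := by
  have : S = univ := Subsingleton.eq_univ_of_nonempty hS
  rw [this, vol]
  simp [volume_pi]

/-- Prékopa's theorem for sections of a compact convex set: the volume of the fibre over the
parameter `e` is a log-concave function of `e`. -/
theorem fibre_vol_logconcave (m : ℕ) :
    ∀ (E : Type) [NormedAddCommGroup E] [NormedSpace ℝ E] (C : Set ((Fin m → ℝ) × E)),
      IsCompact C → Convex ℝ C → ∀ (e₀ e₁ : E) (a b : ℝ), 0 < a → 0 < b → a + b = 1 →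
        vol {y | (y, e₀) ∈ C} ^ a * vol {y | (y, e₁) ∈ C} ^ b ≤
          vol {y | (y, a • e₀ + b • e₁) ∈ C} := by
  induction m with
  | zero =>
    intro E _ _ C hC hconv e₀ e₁ a b ha hb hab
    by_cases h0 : {y : Fin 0 → ℝ | (y, e₀) ∈ C}.Nonempty
    · by_cases h1 : {y : Fin 0 → ℝ | (y, e₁) ∈ C}.Nonempty
      · obtain ⟨y0, hy0⟩ := h0
        obtain ⟨y1, hy1⟩ := h1
        have hy : y1 = y0 := Subsingleton.elim _ _
        subst hy
        have h2 : {y : Fin 0 → ℝ | (y, a • e₀ + b • e₁) ∈ C}.Nonempty := by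
          refine ⟨y1, ?_⟩
          have := hconv hy0 hy1 ha.le hb.le hab
          have e : a • (y1, e₀) + b • (y1, e₁) = (y1, a • e₀ + b • e₁) :=
            Prod.ext (Subsingleton.elim _ _) (by simp)
          rw [e] at this; exact this
        rw [vol_fin_zero _ ⟨y1, hy0⟩, vol_fin_zero _ ⟨y1, hy1⟩, vol_fin_zero _ h2]; simp
      · rw [not_nonempty_iff_eq_empty] at h1
        rw [h1]
        have : vol (∅ : Set (Fin 0 → ℝ)) = 0 := by simp [vol]
        rw [this, Real.zero_rpow hb.ne', mul_zero]
        exact ENNReal.toReal_nonneg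
    · rw [not_nonempty_iff_eq_empty] at h0
      rw [h0]
      have : vol (∅ : Set (Fin 0 → ℝ)) = 0 := by simp [vol]
      rw [this, Real.zero_rpow ha.ne', zero_mul]
      exact ENNReal.toReal_nonneg
  | succ m ih =>
    intro E _ _ C hC hconv e₀ e₁ a b ha hb hab
    -- the lifted set
    set C' : Set ((Fin m → ℝ) × (ℝ × E)) :=
      {p | ((Fin.cons p.2.1 p.1 : Fin (m+1) → ℝ), p.2.2) ∈ C} with hC'
    have hC'c : IsCompact C' := by
      have : C' = (fun q : (Fin (m+1) → ℝ) × E => (Fin.tail q.1, (q.1 0, q.2))) '' C := by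
        ext p
        constructor
        · intro hp
          exact ⟨_, hp, by simp⟩
        · rintro ⟨q, hq, rfl⟩
          show ((Fin.cons (q.1 0) (Fin.tail q.1) : Fin (m+1) → ℝ), q.2) ∈ C
          rw [Fin.cons_self_tail]; exact hq
      rw [this]
      exact hC.image (by fun_prop)
    have hC'v : Convex ℝ C' := by
      intro p hp q hq a' b' ha' hb' hab'
      have := hconv hp hq ha' hb' hab'
      show ((Fin.cons (a' • p + b' • q).2.1 (a' • p + b' • q).1 : Fin (m+1) → ℝ),
        (a' • p + b' • q).2.2) ∈ C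
      convert this using 1
      ext i
      · refine Fin.cases ?_ ?_ i <;> simp
      · simp
    have key := ih (ℝ × E) C' hC'c hC'v
    -- fibres are compact
    have hKc : ∀ e : E, IsCompact {z : Fin (m+1) → ℝ | (z, e) ∈ C} := by
      intro e
      have : {z : Fin (m+1) → ℝ | (z, e) ∈ C} = Prod.fst '' (C ∩ (univ ×ˢ {e})) := by
        ext z
        constructor
        · intro hz; exact ⟨(z, e), ⟨hz, by simp⟩, rfl⟩
        · rintro ⟨⟨z', e'⟩, ⟨hz, hmem⟩, rfl⟩
          simp at hmem; subst hmem; exact hz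
      rw [this]
      exact (hC.inter_right (isClosed_univ.prod isClosed_singleton)).image continuous_fst
    have hsec : ∀ (e : E) (t : ℝ),
        sec {z : Fin (m+1) → ℝ | (z, e) ∈ C} t = {y | (y, (t, e)) ∈ C'} := fun e t => rfl
    have hquasi : ∀ e : E, ∀ c : ℝ, 0 < c →
        Convex ℝ {t | c ≤ vol (sec {z : Fin (m+1) → ℝ | (z, e) ∈ C} t)} := by
      intro e c hc s hs t ht a' b' ha' hb' hab'
      rcases ha'.eq_or_lt with h | ha'pos
      · have : b' = 1 := by linarith
        subst this; rw [← h]; simpa using ht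
      rcases hb'.eq_or_lt with h | hb'pos
      · have : a' = 1 := by linarith
        subst this; rw [← h]; simpa using hs
      have := key (s, e) (t, e) a' b' ha'pos hb'pos hab'
      have e2 : a' • (s, e) + b' • (t, e) = (a' • s + b' • t, e) := by
        ext <;> simp [← add_smul, hab']
      rw [e2] at this
      show c ≤ vol (sec {z : Fin (m+1) → ℝ | (z, e) ∈ C} (a' • s + b' • t))
      rw [hsec]
      refine le_trans ?_ this
      have h1 : c ^ a' ≤ vol {y | (y, (s, e)) ∈ C'} ^ a' := Real.rpow_le_rpow hc.le hs ha'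
      have h2 : c ^ b' ≤ vol {y | (y, (t, e)) ∈ C'} ^ b' := Real.rpow_le_rpow hc.le ht hb'
      calc c = c ^ a' * c ^ b' := by rw [← Real.rpow_add hc, hab', Real.rpow_one]
        _ ≤ _ := mul_le_mul h1 h2 (Real.rpow_nonneg hc.le _)
            (Real.rpow_nonneg ENNReal.toReal_nonneg _)
    have hPL := prekopa_leindler_one (fun t => vol (sec {z : Fin (m+1) → ℝ | (z, e₀) ∈ C} t))
      (fun t => vol (sec {z : Fin (m+1) → ℝ | (z, e₁) ∈ C} t))
      (fun t => vol (sec {z : Fin (m+1) → ℝ | (z, a • e₀ + b • e₁) ∈ C} t)) a b ha hb hab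
      (fun _ => ENNReal.toReal_nonneg) (fun _ => ENNReal.toReal_nonneg)
      (fun _ => ENNReal.toReal_nonneg)
      (measurable_vol_sec (hKc _)) (measurable_vol_sec (hKc _)) (measurable_vol_sec (hKc _))
      (integrable_vol_sec (hKc _)) (integrable_vol_sec (hKc _)) (integrable_vol_sec (hKc _))
      (vol_sec_bounded (hKc _)) (vol_sec_bounded (hKc _))
      (hquasi e₀) (hquasi e₁)
      (by
        intro s t
        have := key (s, e₀) (t, e₁) a b ha hb hab
        have e2 : a • (s, e₀) + b • (t, e₁) = (a * s + b * t, a • e₀ + b • e₁) := by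
          ext <;> simp
        rw [e2] at this
        exact this)
    rw [← vol_slice (hKc _), ← vol_slice (hKc _), ← vol_slice (hKc _)] at hPL
    exact hPL

end Vale.Agent.Lib.P254
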