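import Vale.Agent.Lib.P254.Sym.FibreLC

open MeasureTheory Set

namespace Vale.Agent.Lib.P254

variable {n : ℕ}

/-- The section-volume function of a compact convex set is log-concave. -/
theorem sec_vol_logconcave {K : Set (Fin (n+1) → ℝ)} (hK : IsCompact K) (hc : Convex ℝ K)
    (s t a b : ℝ) (ha : 0 < a) (hb : 0 < b) (hab : a + b = 1) :
    vol (sec K s) ^ a * vol (sec K t) ^ b ≤ vol (sec K (a * s + b * t)) := by
  set C : Set ((Fin n → ℝ) × ℝ) := {p | (Fin.cons p.2 p.1 : Fin (n+1) → ℝ) ∈ K} with hC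
  have hCK : C = (fun z : Fin (n+1) → ℝ => ((Fin.tail z : Fin n → ℝ), z 0)) '' K := by
    ext p
    constructor
    · intro hp
      refine ⟨Fin.cons p.2 p.1, hp, ?_⟩
      simp
    · rintro ⟨z, hz, rfl⟩
      show (Fin.cons (z 0) (Fin.tail z) : Fin (n+1) → ℝ) ∈ K
      rw [Fin.cons_self_tail]
      exact hz
  have hcont : Continuous (fun z : Fin (n+1) → ℝ => ((Fin.tail z : Fin n → ℝ), z 0)) := by
    refine Continuous.prodMk ?_ (continuous_apply 0)
    exact continuous_pi fun i => continuous_apply i.succ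
  have hcomp : IsCompact C := by
    rw [hCK]
    exact hK.image hcont
  have hconv : Convex ℝ C := by
    intro p hp q hq c d hc0 hd0 hcd
    show (Fin.cons (c • p + d • q).2 (c • p + d • q).1 : Fin (n+1) → ℝ) ∈ K
    have hEq : (Fin.cons (c • p + d • q).2 (c • p + d • q).1 : Fin (n+1) → ℝ) =
        c • (Fin.cons p.2 p.1 : Fin (n+1) → ℝ) + d • (Fin.cons q.2 q.1 : Fin (n+1) → ℝ) := by
      ext i
      refine Fin.cases ?_ (fun j => ?_) i
      · simp
      · simp
    rw [hEq]
    exact hc hp hq hc0 hd0 hcd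
  have hmain := fibre_vol_logconcave n ℝ C hcomp hconv s t a b ha hb hab
  simpa [hC, sec, smul_eq_mul] using hmain

/-- Four-point form of log-concavity of the section-volume function. -/
theorem sec_vol_four_point {K : Set (Fin (n+1) → ℝ)} (hK : IsCompact K) (hc : Convex ℝ K)
    (x y r : ℝ) (hxy : x ≤ y) (hr : 0 ≤ r) :
    vol (sec K x) * vol (sec K (y + r)) ≤ vol (sec K (x + r)) * vol (sec K y) := by
  have hv : ∀ t, 0 ≤ vol (sec K t) := fun t => ENNReal.toReal_nonneg
  rcases hr.eq_or_lt with rfl | hr'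
  · simp
  rcases hxy.eq_or_lt with rfl | hxy'
  · exact le_of_eq (mul_comm _ _)
  have hd : 0 < y + r - x := by linarith
  set L := r / (y + r - x) with hL
  have hL0 : 0 < L := div_pos hr' hd
  have hL1 : L < 1 := by
    rw [hL, div_lt_one hd]
    linarith
  have hdne : y + r - x ≠ 0 := ne_of_gt hd
  have e1 : (1 - L) * x + L * (y + r) = x + r := by
    rw [hL]
    field_simp
    ring
  have e2 : L * x + (1 - L) * (y + r) = y := by
    rw [hL]
    field_simp
    ring
  have h1 := sec_vol_logconcave hK hc x (y + r) (1 - L) L (by linarith) hL0 (by ring)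
  have h2 := sec_vol_logconcave hK hc x (y + r) L (1 - L) hL0 (by linarith) (by ring)
  rw [e1] at h1
  rw [e2] at h2
  have hu : 0 ≤ vol (sec K x) := hv x
  have hw : 0 ≤ vol (sec K (y + r)) := hv _
  have hu1 : vol (sec K x) ^ (1 - L) * vol (sec K x) ^ L = vol (sec K x) := by
    rw [← Real.rpow_add_of_nonneg hu (by linarith) hL0.le]
    simp
  have hw1 : vol (sec K (y + r)) ^ L * vol (sec K (y + r)) ^ (1 - L) = vol (sec K (y + r)) := by
    rw [← Real.rpow_add_of_nonneg hw hL0.le (by linarith)]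
    simp
  have hsplit : vol (sec K x) * vol (sec K (y + r)) =
      (vol (sec K x) ^ (1 - L) * vol (sec K (y + r)) ^ L) *
        (vol (sec K x) ^ L * vol (sec K (y + r)) ^ (1 - L)) := by
    calc vol (sec K x) * vol (sec K (y + r))
        = (vol (sec K x) ^ (1 - L) * vol (sec K x) ^ L) *
            (vol (sec K (y + r)) ^ L * vol (sec K (y + r)) ^ (1 - L)) := by rw [hu1, hw1]
      _ = _ := by ring
  rw [hsplit]
  refine mul_le_mul h1 h2 ?_ (hv _)
  exact mul_nonneg (Real.rpow_nonneg hu _) (Real.rpow_nonneg hw _)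

end Vale.Agent.Lib.P254
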