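import Vale.Agent.Lib.P254.Defs

open MeasureTheory Set

namespace Vale.Agent.Lib.P254

/-- A compact convex subset of `ℝ^n` invariant under all coordinate permutations and all
sign changes of single coordinates (the unit ball of a symmetric norm, when it has interior). -/
def OneSym {n : ℕ} (K : Set (Fin n → ℝ)) : Prop :=
  IsCompact K ∧ Convex ℝ K ∧ (∀ σ : Equiv.Perm (Fin n), ∀ x ∈ K, x ∘ σ ∈ K) ∧
    (∀ i : Fin n, ∀ x ∈ K, Function.update x i (-(x i)) ∈ K)

/-- The section of `K ⊆ ℝ^(n+1)` at height `t` of the first coordinate. -/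
def sec {n : ℕ} (K : Set (Fin (n+1) → ℝ)) (t : ℝ) : Set (Fin n → ℝ) :=
  {y | (Fin.cons t y : Fin (n+1) → ℝ) ∈ K}

/-- Unnormalised second moment of the coordinate `i` over `K`. -/
noncomputable def m2 {n : ℕ} (K : Set (Fin n → ℝ)) (i : Fin n) : ℝ :=
  ∫ x in K, (x i) ^ 2

/-- One-dimensional profile functions: even, nonincreasing on `[0,∞)`, boundedly supported,
and log-concave in the four-point form. -/
structure Adm (v : ℝ → ℝ) : Prop where
  meas : Measurable v
  nonneg : ∀ t, 0 ≤ v t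
  even : ∀ t, v (-t) = v t
  anti : ∀ s t, 0 ≤ s → s ≤ t → v t ≤ v s
  supp : ∃ R : ℝ, ∀ t, R < |t| → v t = 0
  logc : ∀ x y r, 0 ≤ x → x ≤ y → 0 ≤ r → v x * v (y + r) ≤ v (x + r) * v y

end Vale.Agent.Lib.P254
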