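import Vale.Agent.Lib.P254.Sym.FinalSym

open MeasureTheory Set

namespace Vale.Agent.Lib.P254

/-- A compact convex subset of `ℝ^(m+1)` invariant under all sign changes of single coordinates
and under all permutations of the coordinates that fix the coordinate `0` (no symmetry is assumed
between the coordinate `0` and the other coordinates). -/
def AxisSym {m : ℕ} (K : Set (Fin (m+1) → ℝ)) : Prop :=
  IsCompact K ∧ Convex ℝ K ∧
    (∀ σ : Equiv.Perm (Fin (m+1)), σ 0 = 0 → ∀ x ∈ K, x ∘ σ ∈ K) ∧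
    (∀ i : Fin (m+1), ∀ x ∈ K, Function.update x i (-(x i)) ∈ K)

variable {m : ℕ}

/-- Sections of an axis-symmetric set orthogonal to the axis are 1-symmetric. -/
lemma AxisSym.sec_oneSym {K : Set (Fin (m+1) → ℝ)} (hK : AxisSym K) (t : ℝ) :
    OneSym (sec K t) := by
  obtain ⟨hc, hconv, hperm, hflip⟩ := hK
  refine ⟨isCompact_sec hc t, ?_, ?_, ?_⟩
  · intro y hy y' hy' a b ha hb hab
    rw [mem_sec] at hy hy' ⊢
    have h := hconv hy hy' ha hb hab
    have heq : (Fin.cons t (a • y + b • y') : Fin (m+1) → ℝ)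
        = a • (Fin.cons t y : Fin (m+1) → ℝ) + b • (Fin.cons t y' : Fin (m+1) → ℝ) := by
      funext i
      refine Fin.cases ?_ ?_ i
      · simp only [Fin.cons_zero, Pi.add_apply, Pi.smul_apply, smul_eq_mul]
        rw [← add_mul, hab, one_mul]
      · intro j
        simp only [Fin.cons_succ, Pi.add_apply, Pi.smul_apply, smul_eq_mul]
    rw [heq]
    exact h
  · intro σ y hy
    rw [mem_sec] at hy ⊢
    have h0 : (Equiv.Perm.decomposeFin.symm ((0 : Fin (m+1)), σ)) 0 = 0 := by simp
    have h := hperm (Equiv.Perm.decomposeFin.symm (0, σ)) h0 _ hy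
    have heq : (Fin.cons t (y ∘ σ) : Fin (m+1) → ℝ)
        = (Fin.cons t y : Fin (m+1) → ℝ) ∘ (Equiv.Perm.decomposeFin.symm (0, σ)) := by
      funext i
      refine Fin.cases ?_ ?_ i
      · simp
      · intro j
        simp
    rw [heq]
    exact h
  · intro i y hy
    rw [mem_sec] at hy ⊢
    have h := hflip i.succ _ hy
    rw [Fin.cons_succ, ← Fin.cons_update] at h
    exact h

/-- Sections at opposite heights coincide. -/
lemma AxisSym.sec_neg {K : Set (Fin (m+1) → ℝ)} (hK : AxisSym K) (t : ℝ) :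
    sec K (-t) = sec K t := by
  have key : ∀ s : ℝ, sec K s ⊆ sec K (-s) := by
    intro s y hy
    rw [mem_sec] at hy ⊢
    have h := hK.2.2.2 0 _ hy
    rw [Fin.cons_zero, Fin.update_cons_zero] at h
    exact h
  refine Set.Subset.antisymm ?_ (key t)
  have h := key (-t)
  rw [neg_neg] at h
  exact h

/-- Sections shrink as the height grows. -/
lemma AxisSym.sec_anti {K : Set (Fin (m+1) → ℝ)} (hK : AxisSym K) {s t : ℝ} (hs : 0 ≤ s)
    (hst : s ≤ t) : sec K t ⊆ sec K s := by
  intro y hy
  rcases (hs.trans hst).eq_or_lt with h0 | hpos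
  · have hst' : s = t := by linarith
    rw [hst']
    exact hy
  have hy' : y ∈ sec K (-t) := by
    rw [hK.sec_neg t]
    exact hy
  rw [mem_sec] at hy hy' ⊢
  have hsum : (s + t) / (2 * t) + (t - s) / (2 * t) = 1 := by
    field_simp
    ring
  have hconv : Convex ℝ K := hK.2.1
  have ha : 0 ≤ (s + t) / (2 * t) := by positivity
  have hb : 0 ≤ (t - s) / (2 * t) := div_nonneg (by linarith) (by positivity)
  have h := hconv hy hy' ha hb hsum
  have heq : (Fin.cons s y : Fin (m+1) → ℝ)
      = ((s + t) / (2 * t)) • (Fin.cons t y : Fin (m+1) → ℝ)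
        + ((t - s) / (2 * t)) • (Fin.cons (-t) y : Fin (m+1) → ℝ) := by
    funext i
    refine Fin.cases ?_ ?_ i
    · simp only [Fin.cons_zero, Pi.add_apply, Pi.smul_apply, smul_eq_mul]
      field_simp
      ring
    · intro j
      simp only [Fin.cons_succ, Pi.add_apply, Pi.smul_apply, smul_eq_mul]
      rw [← add_mul, hsum, one_mul]
  rw [heq]
  exact h

/-- The section-volume function of an axis-symmetric set is an admissible profile. -/
lemma AxisSym.adm_vol_sec {K : Set (Fin (m+1) → ℝ)} (hK : AxisSym K) :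
    Adm (fun t => vol (sec K t)) := by
  refine ⟨measurable_vol_sec hK.1, fun t => ENNReal.toReal_nonneg, ?_, ?_, ?_, ?_⟩
  · intro t
    show vol (sec K (-t)) = vol (sec K t)
    rw [hK.sec_neg]
  · intro s t hs hst
    exact ENNReal.toReal_mono (isCompact_sec hK.1 s).measure_lt_top.ne
      (measure_mono (hK.sec_anti hs hst))
  · obtain ⟨R, hR⟩ := sec_eq_empty_of_compact hK.1
    refine ⟨R, fun t ht => ?_⟩
    show vol (sec K t) = 0
    rw [hR t ht]
    simp [vol]
  · intro x y r _ hxy hr
    exact sec_vol_four_point hK.1 hK.2.1 x y r hxy hr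

/-- All coordinates other than the axis have the same second moment. -/
lemma AxisSym.m2_succ_eq {K : Set (Fin (m+1) → ℝ)} (hK : AxisSym K) (j j' : Fin m) :
    m2 K j.succ = m2 K j'.succ := by
  rw [m2_succ_slice hK.1 j, m2_succ_slice hK.1 j']
  congr 1
  funext t
  exact (hK.sec_oneSym t).m2_eq j j'

/-- Moment bound for axis-symmetric sets: the second moment along the axis times the `m`-th power
of the second moment of any other coordinate. -/
theorem axisSym_moment_bound (hm : 2 ≤ m) {K : Set (Fin (m+1) → ℝ)} (hK : AxisSym K)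
    (j : Fin m) :
    (12 * m2 K 0) * (12 * m2 K j.succ) ^ m ≤
      81 / 64 * (3 / 2) ^ (m - 1) * (vol K) ^ (m + 3) := by
  have hKc : IsCompact K := hK.1
  have hadm : Adm (fun t => vol (sec K t)) := hK.adm_vol_sec
  set v : ℝ → ℝ := fun t => vol (sec K t) with hv
  set c : ℝ := 81 / 64 * (3 / 2) ^ (m - 2) with hc
  have hc0 : 0 ≤ c := by positivity
  set u : ℝ → ℝ := fun t => 12 * m2 (sec K t) j with hu
  have hm2n : ∀ (S : Set (Fin m → ℝ)) (j : Fin m), 0 ≤ m2 S j := fun S j =>
    integral_nonneg fun x => sq_nonneg (x j)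
  have hun : ∀ t, 0 ≤ u t := fun t => mul_nonneg (by norm_num) (hm2n _ _)
  have hum : Measurable u := by
    have := measurable_slice hKc (fun x => (x j.succ) ^ 2) (by fun_prop)
    simp only [Fin.cons_succ] at this
    exact this.const_mul 12
  have hpt : ∀ t, u t ^ m ≤ c * v t ^ (m + 2) := fun t =>
    oneSym_moment_bound m hm (sec K t) (hK.sec_oneSym t) j
  have hH := holder_step m hm u v c hc0 hun hadm.nonneg hum hadm.meas
    ⟨v 0, fun t => hadm.le_zero t⟩ hadm.supp hpt
  have hV : ∫ t, v t = vol K := (vol_slice hKc).symm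
  have hU : ∫ t, u t = 12 * m2 K j.succ := by
    rw [hu, integral_const_mul, ← m2_succ_slice hKc j]
  have hT : ∫ t, t ^ 2 * v t = m2 K 0 := (m2_zero_slice hKc).symm
  have hC := adm_combined hadm
  rw [hT, hV] at hC
  rw [hU, hV] at hH
  set X0 := 12 * m2 K 0 with hX0
  set X := 12 * m2 K j.succ with hX
  set V := vol K with hVdef
  set J := ∫ t, v t ^ 2 with hJ
  have hX0n : 0 ≤ X0 := mul_nonneg (by norm_num) (integral_nonneg fun x => sq_nonneg (x 0))
  have hVn : 0 ≤ V := ENNReal.toReal_nonneg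
  have hC' : X0 * J ^ 2 ≤ 3 / 2 * V ^ 5 := by rw [hX0]; linarith
  calc X0 * X ^ m ≤ X0 * (c * V ^ (m - 2) * J ^ 2) := mul_le_mul_of_nonneg_left hH hX0n
    _ = c * V ^ (m - 2) * (X0 * J ^ 2) := by ring
    _ ≤ c * V ^ (m - 2) * (3 / 2 * V ^ 5) :=
        mul_le_mul_of_nonneg_left hC' (mul_nonneg hc0 (pow_nonneg hVn _))
    _ = 81 / 64 * (3 / 2) ^ (m - 1) * V ^ (m + 3) := by
        have e1 : m + 3 = (m - 2) + 5 := by omega
        have e2 : m - 1 = (m - 2) + 1 := by omega
        rw [hc, e1, e2, pow_add, pow_succ]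
        ring

section Flip

variable {n : ℕ}

/-- Sign change of the coordinate `k`. -/
private def axFlip (k : Fin n) (x : Fin n → ℝ) : Fin n → ℝ :=
  Function.update x k (-(x k))

private lemma axFlip_eq (k : Fin n) (x : Fin n → ℝ) :
    axFlip k x = fun j => (if j = k then (fun t : ℝ => -t) else (fun t : ℝ => t)) (x j) := by
  funext j
  unfold axFlip
  by_cases h : j = k
  · subst h
    simp
  · simp [h]

private lemma axFlip_self (k : Fin n) (x : Fin n → ℝ) : axFlip k x k = -(x k) := by
  simp [axFlip]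

private lemma axFlip_ne (k : Fin n) (x : Fin n → ℝ) {j : Fin n} (h : j ≠ k) :
    axFlip k x j = x j := by
  simp [axFlip, h]

private lemma axFlip_invol (k : Fin n) : Function.Involutive (axFlip (n := n) k) := by
  intro x
  funext j
  by_cases h : j = k
  · subst h
    rw [axFlip_self, axFlip_self, neg_neg]
  · rw [axFlip_ne k _ h, axFlip_ne k _ h]

private lemma axFlip_mp (k : Fin n) :
    MeasurePreserving (axFlip (n := n) k) volume volume := by
  have h := volume_preserving_pi (α' := fun _ : Fin n => ℝ) (β' := fun _ : Fin n => ℝ)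
    (f := fun j : Fin n => (if j = k then (fun t : ℝ => -t) else (fun t : ℝ => t)))
    (fun j => by
      by_cases hj : j = k
      · simp only [hj, if_true]
        exact Measure.measurePreserving_neg (volume : Measure ℝ)
      · simp only [hj, if_false]
        exact MeasurePreserving.id _)
  have heq : axFlip (n := n) k = fun (x : Fin n → ℝ) (j : Fin n) =>
      (if j = k then (fun t : ℝ => -t) else (fun t : ℝ => t)) (x j) := by
    funext x
    exact axFlip_eq k x
  rw [heq]
  exact h

private lemma axFlip_preimage {K : Set (Fin n → ℝ)}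
    (hflip : ∀ i : Fin n, ∀ x ∈ K, Function.update x i (-(x i)) ∈ K) (k : Fin n) :
    axFlip k ⁻¹' K = K := by
  ext x
  constructor
  · intro hx
    have h1 : axFlip k (axFlip k x) ∈ K := hflip k _ hx
    rw [axFlip_invol k x] at h1
    exact h1
  · intro hx
    exact hflip k x hx

private lemma axFlip_integral {K : Set (Fin n → ℝ)}
    (hflip : ∀ i : Fin n, ∀ x ∈ K, Function.update x i (-(x i)) ∈ K) (k : Fin n)
    (F : (Fin n → ℝ) → ℝ) : ∫ x in K, F (axFlip k x) = ∫ x in K, F x := by
  have hmp := axFlip_mp (n := n) k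
  have hemb : MeasurableEmbedding (axFlip (n := n) k) :=
    (MeasurableEquiv.ofInvolutive (axFlip k) (axFlip_invol k) hmp.measurable).measurableEmbedding
  have h := hmp.setIntegral_preimage_emb hemb F K
  rw [axFlip_preimage hflip k] at h
  exact h

private lemma ax_first_moment {K : Set (Fin n → ℝ)}
    (hflip : ∀ i : Fin n, ∀ x ∈ K, Function.update x i (-(x i)) ∈ K) (k : Fin n) :
    ∫ x in K, x k = 0 := by
  have h := axFlip_integral hflip k (fun x => x k)
  simp only [axFlip_self] at h
  rw [integral_neg] at h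
  linarith

private lemma ax_mixed_moment {K : Set (Fin n → ℝ)}
    (hflip : ∀ i : Fin n, ∀ x ∈ K, Function.update x i (-(x i)) ∈ K) {k j : Fin n}
    (hkj : k ≠ j) : ∫ x in K, x k * x j = 0 := by
  have h := axFlip_integral hflip k (fun x => x k * x j)
  simp only [axFlip_self, axFlip_ne k _ (Ne.symm hkj)] at h
  have h2 : ∫ x in K, -(x k) * x j = -∫ x in K, x k * x j := by
    rw [← integral_neg]
    congr 1
    funext x
    ring
  rw [h2] at h
  linarith

/-- The covariance matrix of a set invariant under all sign changes of single coordinates is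
diagonal, with the normalised second moments on the diagonal. -/
theorem covMatrix_of_flip {K : Set (Fin n → ℝ)}
    (hflip : ∀ i : Fin n, ∀ x ∈ K, Function.update x i (-(x i)) ∈ K) :
    covMatrix K = Matrix.diagonal (fun a : Fin n => (vol K)⁻¹ * m2 K a) := by
  have hcent : ∀ k : Fin n, centroid K k = 0 := by
    intro k
    unfold centroid
    rw [ax_first_moment hflip k, mul_zero]
  ext a b
  unfold covMatrix
  rw [Matrix.of_apply]
  simp only [hcent, sub_zero]
  by_cases hab : a = b
  · subst hab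
    rw [Matrix.diagonal_apply_eq]
    unfold m2
    congr 2
    funext x
    ring
  · rw [Matrix.diagonal_apply_ne _ hab, ax_mixed_moment hflip hab, mul_zero]

end Flip

/-- Determinant of the covariance matrix of an axis-symmetric set. -/
theorem AxisSym.det_covMatrix {K : Set (Fin (m+1) → ℝ)} (hK : AxisSym K) (j : Fin m) :
    (covMatrix K).det = ((vol K)⁻¹ * m2 K 0) * ((vol K)⁻¹ * m2 K j.succ) ^ m := by
  rw [covMatrix_of_flip hK.2.2.2, Matrix.det_diagonal, Fin.prod_univ_succ]
  congr 1
  have h : ∀ i ∈ (Finset.univ : Finset (Fin m)),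
      (vol K)⁻¹ * m2 K i.succ = (vol K)⁻¹ * m2 K j.succ := fun i _ => by
    rw [hK.m2_succ_eq i j]
  rw [Finset.prod_congr rfl h, Finset.prod_const, Finset.card_univ, Fintype.card_fin]

/-- The ratio `det Σ_K / |K|²` of an axis-symmetric convex body in `ℝ^(m+1)`, `m ≥ 2`, is at
most `9/16 / 8^(m+1)`. -/
theorem axisSym_ratio_le (hm : 2 ≤ m) {K : Set (Fin (m+1) → ℝ)} (hK : AxisSym K)
    (hi : (interior K).Nonempty) :
    (covMatrix K).det / (vol K) ^ 2 ≤ 9 / 16 / 8 ^ (m + 1) ∧
      0 ≤ (covMatrix K).det / (vol K) ^ 2 := by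
  have hV : 0 < vol K := vol_pos_of_interior hK.1 hi
  let j0 : Fin m := ⟨0, by omega⟩
  have hdet := hK.det_covMatrix j0
  have hb := axisSym_moment_bound hm hK j0
  have hm0 : 0 ≤ m2 K 0 := integral_nonneg fun x => sq_nonneg (x 0)
  have hm1 : 0 ≤ m2 K j0.succ := integral_nonneg fun x => sq_nonneg (x j0.succ)
  have hratio : (covMatrix K).det / (vol K) ^ 2 =
      (12 * m2 K 0) * (12 * m2 K j0.succ) ^ m / (12 ^ (m + 1) * (vol K) ^ (m + 3)) := by
    rw [hdet, mul_pow, mul_pow, inv_pow]
    have e3 : m + 3 = m + 1 + 2 := by omega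
    rw [e3, pow_add (vol K) (m + 1) 2, pow_succ (vol K) m, pow_succ (12 : ℝ) m]
    field_simp
  have hconst : (81 / 64 : ℝ) * (3 / 2) ^ (m - 1) / 12 ^ (m + 1) = 9 / 16 / 8 ^ (m + 1) := by
    have h := oneSym_const_eq (n := m + 1) (by omega)
    have e : m + 1 - 2 = m - 1 := by omega
    rw [e] at h
    exact h
  have hle : (12 * m2 K 0) * (12 * m2 K j0.succ) ^ m / (12 ^ (m + 1) * (vol K) ^ (m + 3)) ≤
      81 / 64 * (3 / 2) ^ (m - 1) / 12 ^ (m + 1) := by
    rw [div_le_div_iff₀ (by positivity) (by positivity)]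
    calc (12 * m2 K 0) * (12 * m2 K j0.succ) ^ m * 12 ^ (m + 1)
        ≤ 81 / 64 * (3 / 2) ^ (m - 1) * vol K ^ (m + 3) * 12 ^ (m + 1) :=
          mul_le_mul_of_nonneg_right hb (by positivity)
      _ = 81 / 64 * (3 / 2) ^ (m - 1) * (12 ^ (m + 1) * vol K ^ (m + 3)) := by ring
  refine ⟨by rw [hratio, ← hconst]; exact hle, ?_⟩
  rw [hratio]
  positivity

/-- **Strong isotropic constant inequality for axis-symmetric convex bodies** in `ℝ^(m+1)`,
`m ≥ 2`, with the explicit bound `L_K^(2n) = det Σ_K / |K|² ≤ (9/16) / 8^n`, `n = m + 1`. -/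
theorem axisSym_isotropic_lt (hm : 2 ≤ m) (K : Set (Fin (m+1) → ℝ)) (hK : IsCompact K)
    (hc : Convex ℝ K) (hi : (interior K).Nonempty)
    (hperm : ∀ σ : Equiv.Perm (Fin (m+1)), σ 0 = 0 → ∀ x ∈ K, x ∘ σ ∈ K)
    (hsign : ∀ i : Fin (m+1), ∀ x ∈ K, Function.update x i (-(x i)) ∈ K)
    (T : Fin (m+2) → Fin (m+1) → ℝ) (hT : AffineIndependent ℝ T) :
    isotropicConstant K < isotropicConstant (convexHull ℝ (Set.range T)) ∧
      (covMatrix K).det / (vol K) ^ 2 ≤ 9 / 16 / 8 ^ (m + 1) := by
  have hS : AxisSym K := ⟨hK, hc, hperm, hsign⟩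
  obtain ⟨h1, h0⟩ := axisSym_ratio_le hm hS hi
  refine ⟨?_, h1⟩
  have hlt : (covMatrix K).det / (vol K) ^ 2 < simplexRatio (m + 1) := by
    refine lt_of_le_of_lt h1 ?_
    rw [← oneSym_const_eq (n := m + 1) (by omega)]
    exact numeric_bound (m + 1) (by omega)
  unfold isotropicConstant
  rw [ratio_general_simplex T hT]
  have hpos : (0:ℝ) < 1 / (2 * ((m + 1 : ℕ) : ℝ)) := by positivity
  exact Real.rpow_lt_rpow h0 hlt hpos

end Vale.Agent.Lib.P254
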