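import Mathlib

open MeasureTheory Set

namespace Vale.Agent.Lib.P254

/-- A convex subset of the real line contains the open interval between its infimum and
its supremum. -/
theorem pl1_convex_real_Ioo_subset {I : Set ℝ} (hc : Convex ℝ I) :
    Ioo (sInf I) (sSup I) ⊆ I := by
  intro z hz
  have hne : I.Nonempty := by
    by_contra h
    rw [not_nonempty_iff_eq_empty] at h
    rw [h, Real.sInf_empty, Real.sSup_empty] at hz
    exact lt_irrefl _ (lt_trans hz.1 hz.2)
  obtain ⟨p, hp, hpz⟩ := exists_lt_of_csInf_lt hne hz.1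
  obtain ⟨q, hq, hzq⟩ := exists_lt_of_lt_csSup hne hz.2
  exact hc.ordConnected.out hp hq ⟨hpz.le, hzq.le⟩

/-- The length of a bounded convex subset of the real line. -/
theorem pl1_convex_real_volume {I : Set ℝ} (hc : Convex ℝ I) (hb : Bornology.IsBounded I) :
    volume I = ENNReal.ofReal (sSup I - sInf I) := by
  apply le_antisymm
  · have h : I ⊆ Icc (sInf I) (sSup I) :=
      fun z hz => ⟨csInf_le hb.bddBelow hz, le_csSup hb.bddAbove hz⟩
    calc volume I ≤ volume (Icc (sInf I) (sSup I)) := measure_mono h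
      _ = ENNReal.ofReal (sSup I - sInf I) := Real.volume_Icc
  · calc ENNReal.ofReal (sSup I - sInf I) = volume (Ioo (sInf I) (sSup I)) :=
        Real.volume_Ioo.symm
      _ ≤ volume I := measure_mono (pl1_convex_real_Ioo_subset hc)

/-- A point of a bounded nonempty convex subset of the line at a prescribed relative position
strictly between its infimum and its supremum. -/
theorem pl1_convex_real_mem {I : Set ℝ} (hc : Convex ℝ I) (hb : Bornology.IsBounded I)
    (hne : I.Nonempty) {s : ℝ} (hs0 : 0 < s) (hs1 : s < 1) :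
    sInf I + s * (sSup I - sInf I) ∈ I := by
  have hab : sInf I ≤ sSup I := by
    obtain ⟨p, hp⟩ := hne
    exact le_trans (csInf_le hb.bddBelow hp) (le_csSup hb.bddAbove hp)
  rcases hab.eq_or_lt with h | h
  · obtain ⟨p, hp⟩ := hne
    have hpa : sInf I ≤ p := csInf_le hb.bddBelow hp
    have hpb : p ≤ sSup I := le_csSup hb.bddAbove hp
    have hpe : p = sInf I := le_antisymm (by linarith) hpa
    have : sInf I + s * (sSup I - sInf I) = p := by rw [← h, sub_self, mul_zero, add_zero, hpe]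
    rw [this]; exact hp
  · apply pl1_convex_real_Ioo_subset hc
    constructor <;> nlinarith

/-- One-dimensional Brunn-Minkowski inequality for convex sets. -/
theorem pl1_bm_one {I J W : Set ℝ} (hI : Convex ℝ I) (hIb : Bornology.IsBounded I)
    (hIne : I.Nonempty)
    (hJ : Convex ℝ J) (hJb : Bornology.IsBounded J) (hJne : J.Nonempty) {θ : ℝ} (hθ0 : 0 ≤ θ)
    (hθ1 : θ ≤ 1) (hW : ∀ p ∈ I, ∀ q ∈ J, (1 - θ) * p + θ * q ∈ W) :
    ENNReal.ofReal (1 - θ) * volume I + ENNReal.ofReal θ * volume J ≤ volume W := by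
  have hab : sInf I ≤ sSup I := by
    obtain ⟨p, hp⟩ := hIne
    exact le_trans (csInf_le hIb.bddBelow hp) (le_csSup hIb.bddAbove hp)
  have hcd : sInf J ≤ sSup J := by
    obtain ⟨p, hp⟩ := hJne
    exact le_trans (csInf_le hJb.bddBelow hp) (le_csSup hJb.bddAbove hp)
  have h1θ : 0 ≤ 1 - θ := by linarith
  rw [pl1_convex_real_volume hI hIb, pl1_convex_real_volume hJ hJb, ← ENNReal.ofReal_mul h1θ,
    ← ENNReal.ofReal_mul hθ0, ← ENNReal.ofReal_add (mul_nonneg h1θ (by linarith))
      (mul_nonneg hθ0 (by linarith))]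
  have hsub : Ioo ((1 - θ) * sInf I + θ * sInf J)
      ((1 - θ) * sInf I + θ * sInf J +
        ((1 - θ) * (sSup I - sInf I) + θ * (sSup J - sInf J))) ⊆ W := by
    intro z hz
    have hL : 0 < (1 - θ) * (sSup I - sInf I) + θ * (sSup J - sInf J) := by
      linarith [hz.1, hz.2]
    have hs0 : 0 < (z - ((1 - θ) * sInf I + θ * sInf J)) /
        ((1 - θ) * (sSup I - sInf I) + θ * (sSup J - sInf J)) :=
      div_pos (by linarith [hz.1]) hL
    have hs1 : (z - ((1 - θ) * sInf I + θ * sInf J)) /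
        ((1 - θ) * (sSup I - sInf I) + θ * (sSup J - sInf J)) < 1 := by
      rw [div_lt_one hL]; linarith [hz.2]
    have hpI := pl1_convex_real_mem hI hIb hIne hs0 hs1
    have hqJ := pl1_convex_real_mem hJ hJb hJne hs0 hs1
    have hmul : (z - ((1 - θ) * sInf I + θ * sInf J)) /
        ((1 - θ) * (sSup I - sInf I) + θ * (sSup J - sInf J)) *
        ((1 - θ) * (sSup I - sInf I) + θ * (sSup J - sInf J)) =
        z - ((1 - θ) * sInf I + θ * sInf J) := div_mul_cancel₀ _ hL.ne'
    have hz' : z = (1 - θ) * (sInf I + (z - ((1 - θ) * sInf I + θ * sInf J)) /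
        ((1 - θ) * (sSup I - sInf I) + θ * (sSup J - sInf J)) * (sSup I - sInf I)) +
        θ * (sInf J + (z - ((1 - θ) * sInf I + θ * sInf J)) /
        ((1 - θ) * (sSup I - sInf I) + θ * (sSup J - sInf J)) * (sSup J - sInf J)) := by
      linear_combination (-1 : ℝ) * hmul
    rw [hz']
    exact hW _ hpI _ hqJ
  calc ENNReal.ofReal ((1 - θ) * (sSup I - sInf I) + θ * (sSup J - sInf J))
      = volume (Ioo ((1 - θ) * sInf I + θ * sInf J)
          ((1 - θ) * sInf I + θ * sInf J +
            ((1 - θ) * (sSup I - sInf I) + θ * (sSup J - sInf J)))) := by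
        rw [Real.volume_Ioo]; congr 1; ring
    _ ≤ volume W := measure_mono hsub

/-- A convex subset of the line of finite length is bounded. -/
theorem pl1_bounded_of_convex {I : Set ℝ} (hc : Convex ℝ I) (hfin : volume I ≠ ⊤) :
    Bornology.IsBounded I := by
  rcases I.eq_empty_or_nonempty with h | ⟨p, hp⟩
  · rw [h]; exact Bornology.isBounded_empty
  rw [isBounded_iff_bddBelow_bddAbove]
  constructor
  · by_contra hnb
    apply hfin
    rw [not_bddBelow_iff] at hnb
    apply ENNReal.eq_top_of_forall_nnreal_le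
    intro r
    obtain ⟨q, hq, hqp⟩ := hnb (p - r)
    have hsub : Icc q p ⊆ I := hc.ordConnected.out hq hp
    calc (r : ENNReal) = ENNReal.ofReal r := (ENNReal.ofReal_coe_nnreal).symm
      _ ≤ ENNReal.ofReal (p - q) := ENNReal.ofReal_le_ofReal (by linarith)
      _ = volume (Icc q p) := Real.volume_Icc.symm
      _ ≤ volume I := measure_mono hsub
  · by_contra hnb
    apply hfin
    rw [not_bddAbove_iff] at hnb
    apply ENNReal.eq_top_of_forall_nnreal_le
    intro r
    obtain ⟨q, hq, hqp⟩ := hnb (p + r)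
    have hsub : Icc p q ⊆ I := hc.ordConnected.out hp hq
    calc (r : ENNReal) = ENNReal.ofReal r := (ENNReal.ofReal_coe_nnreal).symm
      _ ≤ ENNReal.ofReal (q - p) := ENNReal.ofReal_le_ofReal (by linarith)
      _ = volume (Icc p q) := Real.volume_Icc.symm
      _ ≤ volume I := measure_mono hsub

/-- The distribution function of a nonnegative integrable function is integrable on `(0,∞)`. -/
theorem pl1_level_integrable {φ : ℝ → ℝ} (hφ0 : ∀ x, 0 ≤ φ x) (hφi : Integrable φ) :
    IntegrableOn (fun t : ℝ => volume.real {x | t ≤ φ x}) (Ioi 0) := by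
  have key := lintegral_eq_lintegral_meas_le volume (Filter.Eventually.of_forall hφ0)
    hφi.aemeasurable
  have hfin : ∫⁻ t in Ioi (0:ℝ), volume {x | t ≤ φ x} ≠ ⊤ := by
    rw [← key]; exact hφi.lintegral_lt_top.ne
  have hmeas : Measurable (fun t : ℝ => volume {x | t ≤ φ x}) :=
    Antitone.measurable (fun s t hst => measure_mono (fun x hx => le_trans hst hx))
  exact integrable_toReal_of_lintegral_ne_top hmeas.aemeasurable hfin

/-- Normalised form of the one-dimensional Prékopa–Leindler inequality (both `f` and `g`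
have supremum `1`), in additive form. -/
theorem pl1_normalized (f g h : ℝ → ℝ) (a b : ℝ) (ha : 0 < a) (hb : 0 < b) (hab : a + b = 1)
    (hf0 : ∀ x, 0 ≤ f x) (hg0 : ∀ x, 0 ≤ g x) (hh0 : ∀ x, 0 ≤ h x)
    (hfi : Integrable f) (hgi : Integrable g) (hhi : Integrable h)
    (hf1 : ∀ x, f x ≤ 1) (hg1 : ∀ x, g x ≤ 1)
    (hfs : ∀ u, u < 1 → ∃ x, u ≤ f x) (hgs : ∀ u, u < 1 → ∃ x, u ≤ g x)
    (hfq : ∀ c : ℝ, 0 < c → Convex ℝ {x | c ≤ f x})
    (hgq : ∀ c : ℝ, 0 < c → Convex ℝ {x | c ≤ g x})
    (hfgh : ∀ x y, f x ^ a * g y ^ b ≤ h (a * x + b * y)) :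
    a * (∫ x, f x) + b * (∫ x, g x) ≤ ∫ x, h x := by
  have hF := hfi.integral_eq_integral_Ioc_meas_le (M := 1) (Filter.Eventually.of_forall hf0)
    (Filter.Eventually.of_forall hf1)
  have hG := hgi.integral_eq_integral_Ioc_meas_le (M := 1) (Filter.Eventually.of_forall hg0)
    (Filter.Eventually.of_forall hg1)
  have hH := hhi.integral_eq_integral_meas_le (Filter.Eventually.of_forall hh0)
  rw [hF, hG, hH, integral_Ioc_eq_integral_Ioo, integral_Ioc_eq_integral_Ioo]
  have iF : IntegrableOn (fun t : ℝ => volume.real {x | t ≤ f x}) (Ioo 0 1) :=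
    (pl1_level_integrable hf0 hfi).mono_set Ioo_subset_Ioi_self
  have iG : IntegrableOn (fun t : ℝ => volume.real {x | t ≤ g x}) (Ioo 0 1) :=
    (pl1_level_integrable hg0 hgi).mono_set Ioo_subset_Ioi_self
  have iH := pl1_level_integrable hh0 hhi
  calc a * (∫ t in Ioo 0 1, volume.real {x | t ≤ f x}) +
        b * ∫ t in Ioo 0 1, volume.real {x | t ≤ g x}
      = ∫ t in Ioo 0 1, (a * volume.real {x | t ≤ f x} + b * volume.real {x | t ≤ g x}) := by
        rw [integral_add (iF.const_mul a) (iG.const_mul b), integral_const_mul,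
          integral_const_mul]
    _ ≤ ∫ t in Ioo 0 1, volume.real {x | t ≤ h x} := by
        apply setIntegral_mono_on ((iF.const_mul a).add (iG.const_mul b))
          (iH.mono_set Ioo_subset_Ioi_self) measurableSet_Ioo
        intro t ht
        have hI : Convex ℝ {x | t ≤ f x} := hfq t ht.1
        have hJ : Convex ℝ {x | t ≤ g x} := hgq t ht.1
        have hIf : volume {x | t ≤ f x} ≠ ⊤ := (hfi.measure_ge_lt_top ht.1).ne
        have hJf : volume {x | t ≤ g x} ≠ ⊤ := (hgi.measure_ge_lt_top ht.1).ne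
        have hWf : volume {x | t ≤ h x} ≠ ⊤ := (hhi.measure_ge_lt_top ht.1).ne
        have h1b : 1 - b = a := by linarith
        have hbm := pl1_bm_one hI (pl1_bounded_of_convex hI hIf) (hfs t ht.2) hJ
          (pl1_bounded_of_convex hJ hJf) (hgs t ht.2) (θ := b) hb.le (by linarith)
          (W := {x | t ≤ h x}) (by
            intro p hp q hq
            rw [h1b]
            show t ≤ h (a * p + b * q)
            refine le_trans ?_ (hfgh p q)
            have h1 : t ^ a ≤ f p ^ a := Real.rpow_le_rpow ht.1.le hp ha.le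
            have h2 : t ^ b ≤ g q ^ b := Real.rpow_le_rpow ht.1.le hq hb.le
            calc t = t ^ a * t ^ b := by rw [← Real.rpow_add ht.1, hab, Real.rpow_one]
              _ ≤ f p ^ a * g q ^ b :=
                mul_le_mul h1 h2 (Real.rpow_nonneg ht.1.le b) (Real.rpow_nonneg (hf0 p) a))
        rw [h1b] at hbm
        have := ENNReal.toReal_mono hWf hbm
        rw [ENNReal.toReal_add (ENNReal.mul_ne_top ENNReal.ofReal_ne_top hIf)
          (ENNReal.mul_ne_top ENNReal.ofReal_ne_top hJf), ENNReal.toReal_mul,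
          ENNReal.toReal_mul, ENNReal.toReal_ofReal ha.le, ENNReal.toReal_ofReal hb.le] at this
        exact this
    _ ≤ ∫ t in Ioi 0, volume.real {x | t ≤ h x} := by
        apply setIntegral_mono_set iH
        · exact Filter.Eventually.of_forall (fun t => ENNReal.toReal_nonneg)
        · exact (Ioo_subset_Ioi_self).eventuallyLE

/-- One-dimensional Prékopa–Leindler inequality for quasi-concave `f`, `g`. -/
theorem prekopa_leindler_one (f g h : ℝ → ℝ) (a b : ℝ) (ha : 0 < a) (hb : 0 < b)
    (hab : a + b = 1)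
    (hf0 : ∀ x, 0 ≤ f x) (hg0 : ∀ x, 0 ≤ g x) (hh0 : ∀ x, 0 ≤ h x)
    (_hfm : Measurable f) (_hgm : Measurable g) (_hhm : Measurable h)
    (hfi : Integrable f) (hgi : Integrable g) (hhi : Integrable h)
    (hfb : ∃ M, ∀ x, f x ≤ M) (hgb : ∃ M, ∀ x, g x ≤ M)
    (hfq : ∀ c : ℝ, 0 < c → Convex ℝ {x | c ≤ f x})
    (hgq : ∀ c : ℝ, 0 < c → Convex ℝ {x | c ≤ g x})
    (hfgh : ∀ x y, f x ^ a * g y ^ b ≤ h (a * x + b * y)) :
    (∫ x, f x) ^ a * (∫ x, g x) ^ b ≤ ∫ x, h x := by
  have hIf : 0 ≤ ∫ x, f x := integral_nonneg hf0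
  have hIg : 0 ≤ ∫ x, g x := integral_nonneg hg0
  have hIh : 0 ≤ ∫ x, h x := integral_nonneg hh0
  rcases hIf.eq_or_lt with hf' | hfpos
  · rw [← hf', Real.zero_rpow ha.ne', zero_mul]; exact hIh
  rcases hIg.eq_or_lt with hg' | hgpos
  · rw [← hg', Real.zero_rpow hb.ne', mul_zero]; exact hIh
  obtain ⟨Mf, hMf⟩ := hfb
  obtain ⟨Mg, hMg⟩ := hgb
  have hbf : BddAbove (range f) := ⟨Mf, by rintro _ ⟨x, rfl⟩; exact hMf x⟩
  have hbg : BddAbove (range g) := ⟨Mg, by rintro _ ⟨x, rfl⟩; exact hMg x⟩
  set F := sSup (range f) with hF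
  set G := sSup (range g) with hG
  have hfF : ∀ x, f x ≤ F := fun x => le_csSup hbf ⟨x, rfl⟩
  have hgG : ∀ x, g x ≤ G := fun x => le_csSup hbg ⟨x, rfl⟩
  have hFpos : 0 < F := by
    by_contra hle
    push Not at hle
    have h0 : ∀ x, f x = 0 := fun x => le_antisymm (le_trans (hfF x) hle) (hf0 x)
    have : ∫ x, f x = 0 := by simp [h0]
    linarith
  have hGpos : 0 < G := by
    by_contra hle
    push Not at hle
    have h0 : ∀ x, g x = 0 := fun x => le_antisymm (le_trans (hgG x) hle) (hg0 x)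
    have : ∫ x, g x = 0 := by simp [h0]
    linarith
  have hM : 0 < F ^ a * G ^ b :=
    mul_pos (Real.rpow_pos_of_pos hFpos a) (Real.rpow_pos_of_pos hGpos b)
  have key := pl1_normalized (fun x => f x / F) (fun x => g x / G)
    (fun x => h x / (F ^ a * G ^ b)) a b ha hb hab
    (fun x => div_nonneg (hf0 x) hFpos.le) (fun x => div_nonneg (hg0 x) hGpos.le)
    (fun x => div_nonneg (hh0 x) hM.le)
    (hfi.div_const F) (hgi.div_const G) (hhi.div_const _)
    (fun x => (div_le_one hFpos).mpr (hfF x)) (fun x => (div_le_one hGpos).mpr (hgG x))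
    (by
      intro u hu
      have : u * F < F := by nlinarith
      obtain ⟨_, ⟨x, rfl⟩, hx⟩ := exists_lt_of_lt_csSup (range_nonempty f) this
      exact ⟨x, (le_div_iff₀ hFpos).mpr hx.le⟩)
    (by
      intro u hu
      have : u * G < G := by nlinarith
      obtain ⟨_, ⟨x, rfl⟩, hx⟩ := exists_lt_of_lt_csSup (range_nonempty g) this
      exact ⟨x, (le_div_iff₀ hGpos).mpr hx.le⟩)
    (by
      intro c hc
      have : {x | c ≤ f x / F} = {x | c * F ≤ f x} := by
        ext x; simp only [mem_ofPred_eq]; exact le_div_iff₀ hFpos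
      rw [this]; exact hfq _ (mul_pos hc hFpos))
    (by
      intro c hc
      have : {x | c ≤ g x / G} = {x | c * G ≤ g x} := by
        ext x; simp only [mem_ofPred_eq]; exact le_div_iff₀ hGpos
      rw [this]; exact hgq _ (mul_pos hc hGpos))
    (by
      intro x y
      show (f x / F) ^ a * (g y / G) ^ b ≤ h (a * x + b * y) / (F ^ a * G ^ b)
      rw [Real.div_rpow (hf0 x) hFpos.le, Real.div_rpow (hg0 y) hGpos.le, div_mul_div_comm]
      exact div_le_div_of_nonneg_right (hfgh x y) hM.le)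
  rw [integral_div, integral_div, integral_div] at key
  have amgm := Real.geom_mean_le_arith_mean2_weighted ha.le hb.le (div_nonneg hIf hFpos.le)
    (div_nonneg hIg hGpos.le) hab
  have h3 : ((∫ x, f x) / F) ^ a * ((∫ x, g x) / G) ^ b =
      (∫ x, f x) ^ a * (∫ x, g x) ^ b / (F ^ a * G ^ b) := by
    rw [Real.div_rpow hIf hFpos.le, Real.div_rpow hIg hGpos.le, div_mul_div_comm]
  rw [h3] at amgm
  exact (div_le_div_iff_of_pos_right hM).mp (le_trans amgm key)

end Vale.Agent.Lib.P254
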