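import Vale.Agent.Lib.P254.Sym.Slice

open MeasureTheory Set

namespace Vale.Agent.Lib.P254

variable {n : ℕ}

/-- Sections of a 1-symmetric set are 1-symmetric. -/
lemma OneSym.sec_oneSym {K : Set (Fin (n+1) → ℝ)} (hK : OneSym K) (t : ℝ) : OneSym (sec K t) := by
  obtain ⟨hc, hconv, hperm, hflip⟩ := hK
  refine ⟨isCompact_sec hc t, ?_, ?_, ?_⟩
  · intro y hy y' hy' a b ha hb hab
    rw [mem_sec] at hy hy' ⊢
    have h := hconv hy hy' ha hb hab
    have heq : (Fin.cons t (a • y + b • y') : Fin (n+1) → ℝ)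
        = a • (Fin.cons t y : Fin (n+1) → ℝ) + b • (Fin.cons t y' : Fin (n+1) → ℝ) := by
      funext i
      refine Fin.cases ?_ ?_ i
      · simp only [Fin.cons_zero, Pi.add_apply, Pi.smul_apply, smul_eq_mul]
        rw [← add_mul, hab, one_mul]
      · intro j
        simp only [Fin.cons_succ, Pi.add_apply, Pi.smul_apply, smul_eq_mul]
    rw [heq]
    exact h
  · intro σ y hy
    rw [mem_sec] at hy ⊢
    have h := hperm (Equiv.Perm.decomposeFin.symm (0, σ)) _ hy
    have heq : (Fin.cons t (y ∘ σ) : Fin (n+1) → ℝ)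
        = (Fin.cons t y : Fin (n+1) → ℝ) ∘ (Equiv.Perm.decomposeFin.symm (0, σ)) := by
      funext i
      refine Fin.cases ?_ ?_ i
      · simp
      · intro j
        simp
    rw [heq]
    exact h
  · intro i y hy
    rw [mem_sec] at hy ⊢
    have h := hflip i.succ _ hy
    rw [Fin.cons_succ, ← Fin.cons_update] at h
    exact h

/-- Sections at opposite heights coincide. -/
lemma OneSym.sec_neg {K : Set (Fin (n+1) → ℝ)} (hK : OneSym K) (t : ℝ) :
    sec K (-t) = sec K t := by
  have key : ∀ s : ℝ, sec K s ⊆ sec K (-s) := by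
    intro s y hy
    rw [mem_sec] at hy ⊢
    have h := hK.2.2.2 0 _ hy
    rw [Fin.cons_zero, Fin.update_cons_zero] at h
    exact h
  refine Set.Subset.antisymm ?_ (key t)
  have h := key (-t)
  rw [neg_neg] at h
  exact h

/-- Sections shrink as the height grows. -/
lemma OneSym.sec_anti {K : Set (Fin (n+1) → ℝ)} (hK : OneSym K) {s t : ℝ} (hs : 0 ≤ s)
    (hst : s ≤ t) : sec K t ⊆ sec K s := by
  intro y hy
  rcases (hs.trans hst).eq_or_lt with h0 | hpos
  · have hst' : s = t := by linarith
    rw [hst']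
    exact hy
  have hy' : y ∈ sec K (-t) := by
    rw [hK.sec_neg t]
    exact hy
  rw [mem_sec] at hy hy' ⊢
  have hsum : (s + t) / (2 * t) + (t - s) / (2 * t) = 1 := by
    field_simp
    ring
  have hconv : Convex ℝ K := hK.2.1
  have ha : 0 ≤ (s + t) / (2 * t) := by positivity
  have hb : 0 ≤ (t - s) / (2 * t) := div_nonneg (by linarith) (by positivity)
  have h := hconv hy hy' ha hb hsum
  have heq : (Fin.cons s y : Fin (n+1) → ℝ)
      = ((s + t) / (2 * t)) • (Fin.cons t y : Fin (n+1) → ℝ)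
        + ((t - s) / (2 * t)) • (Fin.cons (-t) y : Fin (n+1) → ℝ) := by
    funext i
    refine Fin.cases ?_ ?_ i
    · simp only [Fin.cons_zero, Pi.add_apply, Pi.smul_apply, smul_eq_mul]
      field_simp
      ring
    · intro j
      simp only [Fin.cons_succ, Pi.add_apply, Pi.smul_apply, smul_eq_mul]
      rw [← add_mul, hsum, one_mul]
  rw [heq]
  exact h

end Vale.Agent.Lib.P254
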