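import Vale.Agent.Lib.P254.Sym.SecLC
import Vale.Agent.Lib.P254.Sym.SecSym

open MeasureTheory Set

namespace Vale.Agent.Lib.P254

variable {n : ℕ}

/-- The section-volume function of a 1-symmetric set is an admissible profile. -/
lemma OneSym.adm_vol_sec {K : Set (Fin (n+1) → ℝ)} (hK : OneSym K) :
    Adm (fun t => vol (sec K t)) := by
  refine ⟨measurable_vol_sec hK.1, fun t => ENNReal.toReal_nonneg, ?_, ?_, ?_, ?_⟩
  · intro t
    show vol (sec K (-t)) = vol (sec K t)
    rw [hK.sec_neg]
  · intro s t hs hst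
    exact ENNReal.toReal_mono (isCompact_sec hK.1 s).measure_lt_top.ne
      (measure_mono (hK.sec_anti hs hst))
  · obtain ⟨R, hR⟩ := sec_eq_empty_of_compact hK.1
    refine ⟨R, fun t ht => ?_⟩
    show vol (sec K t) = 0
    rw [hR t ht]
    simp [vol]
  · intro x y r _ hxy hr
    exact sec_vol_four_point hK.1 hK.2.1 x y r hxy hr

end Vale.Agent.Lib.P254
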