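import Vale.Agent.Lib.P254.Sym.Axis

open MeasureTheory Set

namespace Vale.Agent.Lib.P254

variable {m : ℕ}

/-- The ratio bound for axis-symmetric sets of positive volume. -/
theorem axisSym_ratio_le_of_pos (hm : 2 ≤ m) {K : Set (Fin (m+1) → ℝ)} (hK : AxisSym K)
    (hV : 0 < vol K) :
    (covMatrix K).det / (vol K) ^ 2 ≤ 9 / 16 / 8 ^ (m + 1) ∧
      0 ≤ (covMatrix K).det / (vol K) ^ 2 := by
  let j0 : Fin m := ⟨0, by omega⟩
  have hdet := hK.det_covMatrix j0
  have hb := axisSym_moment_bound hm hK j0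
  have hm0 : 0 ≤ m2 K 0 := integral_nonneg fun x => sq_nonneg (x 0)
  have hm1 : 0 ≤ m2 K j0.succ := integral_nonneg fun x => sq_nonneg (x j0.succ)
  have hratio : (covMatrix K).det / (vol K) ^ 2 =
      (12 * m2 K 0) * (12 * m2 K j0.succ) ^ m / (12 ^ (m + 1) * (vol K) ^ (m + 3)) := by
    rw [hdet, mul_pow, mul_pow, inv_pow]
    have e3 : m + 3 = m + 1 + 2 := by omega
    rw [e3, pow_add (vol K) (m + 1) 2, pow_succ (vol K) m, pow_succ (12 : ℝ) m]
    field_simp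
  have hconst : (81 / 64 : ℝ) * (3 / 2) ^ (m - 1) / 12 ^ (m + 1) = 9 / 16 / 8 ^ (m + 1) := by
    have h := oneSym_const_eq (n := m + 1) (by omega)
    have e : m + 1 - 2 = m - 1 := by omega
    rw [e] at h
    exact h
  have hle : (12 * m2 K 0) * (12 * m2 K j0.succ) ^ m / (12 ^ (m + 1) * (vol K) ^ (m + 3)) ≤
      81 / 64 * (3 / 2) ^ (m - 1) / 12 ^ (m + 1) := by
    rw [div_le_div_iff₀ (by positivity) (by positivity)]
    calc (12 * m2 K 0) * (12 * m2 K j0.succ) ^ m * 12 ^ (m + 1)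
        ≤ 81 / 64 * (3 / 2) ^ (m - 1) * vol K ^ (m + 3) * 12 ^ (m + 1) :=
          mul_le_mul_of_nonneg_right hb (by positivity)
      _ = 81 / 64 * (3 / 2) ^ (m - 1) * (12 ^ (m + 1) * vol K ^ (m + 3)) := by ring
  refine ⟨by rw [hratio, ← hconst]; exact hle, ?_⟩
  rw [hratio]
  positivity

/-- The coordinate permutation `x ↦ x ∘ τ` written as an affine map. -/
lemma affMap_perm (τ : Equiv.Perm (Fin (m+1))) (x : Fin (m+1) → ℝ) :
    affMap (τ.permMatrix ℝ) 0 x = x ∘ τ := by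
  unfold affMap
  rw [Matrix.permMatrix_mulVec, add_zero]

lemma abs_det_perm (τ : Equiv.Perm (Fin (m+1))) : |(τ.permMatrix ℝ).det| = 1 := by
  rw [Matrix.det_permutation]
  rcases Int.units_eq_one_or (Equiv.Perm.sign τ) with h | h <;> simp [h]

lemma det_perm_ne_zero (τ : Equiv.Perm (Fin (m+1))) : (τ.permMatrix ℝ).det ≠ 0 := by
  intro h
  have h1 := abs_det_perm τ
  rw [h, abs_zero] at h1
  exact zero_ne_one h1

/-- Moving the distinguished coordinate to the index `0` by a transposition of coordinates. -/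
theorem axisSym_image {K : Set (Fin (m+1) → ℝ)} (hK : IsCompact K) (hc : Convex ℝ K)
    (i0 : Fin (m+1))
    (hperm : ∀ σ : Equiv.Perm (Fin (m+1)), σ i0 = i0 → ∀ x ∈ K, x ∘ σ ∈ K)
    (hsign : ∀ i : Fin (m+1), ∀ x ∈ K, Function.update x i (-(x i)) ∈ K) :
    AxisSym (affMap ((Equiv.swap 0 i0).permMatrix ℝ) 0 '' K) := by
  set τ : Equiv.Perm (Fin (m+1)) := Equiv.swap 0 i0 with hτ
  have hmem : ∀ y, y ∈ affMap (τ.permMatrix ℝ) 0 '' K ↔ ∃ x ∈ K, x ∘ τ = y := by
    intro y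
    constructor
    · rintro ⟨x, hx, rfl⟩
      exact ⟨x, hx, (affMap_perm τ x).symm⟩
    · rintro ⟨x, hx, rfl⟩
      exact ⟨x, hx, affMap_perm τ x⟩
  refine ⟨hK.image (continuous_affMap _ _), ?_, ?_, ?_⟩
  · intro y hy y' hy' a b ha hb hab
    obtain ⟨x, hx, rfl⟩ := (hmem y).1 hy
    obtain ⟨x', hx', rfl⟩ := (hmem y').1 hy'
    exact (hmem _).2 ⟨a • x + b • x', hc hx hx' ha hb hab, rfl⟩
  · intro σ hσ y hy
    obtain ⟨x, hx, rfl⟩ := (hmem y).1 hy
    have hρ : (τ * σ * τ⁻¹) i0 = i0 := by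
      have h1 : τ⁻¹ i0 = 0 := by
        rw [hτ, Equiv.swap_inv, Equiv.swap_apply_right]
      rw [Equiv.Perm.mul_apply, Equiv.Perm.mul_apply, h1, hσ, hτ, Equiv.swap_apply_left]
    refine (hmem _).2 ⟨x ∘ ⇑(τ * σ * τ⁻¹), hperm (τ * σ * τ⁻¹) hρ x hx, ?_⟩
    funext j
    simp only [Function.comp_apply]
    rw [Equiv.Perm.mul_apply, Equiv.Perm.mul_apply, Equiv.Perm.inv_def, Equiv.symm_apply_apply]
  · intro i y hy
    obtain ⟨x, hx, rfl⟩ := (hmem y).1 hy
    refine (hmem _).2 ⟨Function.update x (τ i) (-(x (τ i))), hsign (τ i) x hx, ?_⟩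
    funext j
    by_cases hj : j = i
    · subst hj
      simp
    · have hne : τ j ≠ τ i := fun h => hj (τ.injective h)
      simp [Function.update_of_ne hj, Function.update_of_ne hne]

/-- **Strong isotropic constant inequality for unconditional convex bodies that are symmetric
in all coordinates but one**, in `ℝ^n`, `n ≥ 3`, with the explicit bound
`L_K^(2n) = det Σ_K / |K|² ≤ 9/16 / 8^n`. The distinguished coordinate `i0` is arbitrary. -/
theorem axisSym_isotropic_lt_gen {n : ℕ} (hn : 3 ≤ n) (K : Set (Fin n → ℝ)) (hK : IsCompact K)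
    (hc : Convex ℝ K) (hi : (interior K).Nonempty) (i0 : Fin n)
    (hperm : ∀ σ : Equiv.Perm (Fin n), σ i0 = i0 → ∀ x ∈ K, x ∘ σ ∈ K)
    (hsign : ∀ i : Fin n, ∀ x ∈ K, Function.update x i (-(x i)) ∈ K)
    (T : Fin (n+1) → Fin n → ℝ) (hT : AffineIndependent ℝ T) :
    isotropicConstant K < isotropicConstant (convexHull ℝ (Set.range T)) ∧
      (covMatrix K).det / (vol K) ^ 2 ≤ 9 / 16 / 8 ^ n := by
  obtain ⟨m, rfl⟩ : ∃ m, n = m + 1 := ⟨n - 1, by omega⟩
  have hm : 2 ≤ m := by omega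
  have hV : 0 < vol K := vol_pos_of_interior hK hi
  have hdet : ((Equiv.swap (0 : Fin (m+1)) i0).permMatrix ℝ).det ≠ 0 := det_perm_ne_zero _
  have hS : AxisSym (affMap ((Equiv.swap (0 : Fin (m+1)) i0).permMatrix ℝ) 0 '' K) :=
    axisSym_image hK hc i0 hperm hsign
  have hratio := ratio_image_affMap ((Equiv.swap (0 : Fin (m+1)) i0).permMatrix ℝ) hdet 0 hK
    hV.ne'
  have hvol : vol (affMap ((Equiv.swap (0 : Fin (m+1)) i0).permMatrix ℝ) 0 '' K) = vol K := by
    rw [vol_image_affMap _ hdet 0 hK.measurableSet, abs_det_perm, one_mul]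
  obtain ⟨h1, h0⟩ := axisSym_ratio_le_of_pos hm hS (by rw [hvol]; exact hV)
  rw [hratio] at h1 h0
  refine ⟨?_, h1⟩
  have hlt : (covMatrix K).det / (vol K) ^ 2 < simplexRatio (m + 1) := by
    refine lt_of_le_of_lt h1 ?_
    rw [← oneSym_const_eq (n := m + 1) (by omega)]
    exact numeric_bound (m + 1) (by omega)
  unfold isotropicConstant
  rw [ratio_general_simplex T hT]
  have hpos : (0:ℝ) < 1 / (2 * ((m + 1 : ℕ) : ℝ)) := by positivity
  exact Real.rpow_lt_rpow h0 hlt hpos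

end Vale.Agent.Lib.P254
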