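import Mathlib

open MeasureTheory Set

namespace Vale.Agent.Lib.P254

/-- The interval spanned by two points of `a A + b B` lies in `S`, hence its length is at most
the measure of `S`. -/
private lemma bm_one_key (A B S : Set ℝ) (a b : ℝ) (ha : 0 < a) (hb : 0 < b)
    (hA : Convex ℝ A) (hB : Convex ℝ B)
    (hS : ∀ x ∈ A, ∀ y ∈ B, a * x + b * y ∈ S)
    {x1 x2 y1 y2 : ℝ} (hx1 : x1 ∈ A) (hx2 : x2 ∈ A) (hy1 : y1 ∈ B) (hy2 : y2 ∈ B)
    (hx : x1 ≤ x2) (hy : y1 ≤ y2) :
    ENNReal.ofReal (a * (x2 - x1) + b * (y2 - y1)) ≤ volume S := by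
  have hsub : Icc (a * x1 + b * y1) (a * x2 + b * y2) ⊆ S := by
    intro z hz
    have hIA : Icc x1 x2 ⊆ A := hA.ordConnected.out hx1 hx2
    have hIB : Icc y1 y2 ⊆ B := hB.ordConnected.out hy1 hy2
    have hz1 := hz.1
    have hz2 := hz.2
    have h1 : 0 ≤ a * (x2 - x1) := mul_nonneg ha.le (sub_nonneg.mpr hx)
    have h2 : 0 ≤ b * (y2 - y1) := mul_nonneg hb.le (sub_nonneg.mpr hy)
    by_cases hD : a * (x2 - x1) + b * (y2 - y1) = 0
    · have hzeq : z = a * x1 + b * y1 := by linarith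
      rw [hzeq]
      exact hS x1 hx1 y1 hy1
    · have hDpos : 0 < a * (x2 - x1) + b * (y2 - y1) :=
        lt_of_le_of_ne (add_nonneg h1 h2) (Ne.symm hD)
      set θ : ℝ := (z - (a * x1 + b * y1)) / (a * (x2 - x1) + b * (y2 - y1)) with hθ
      have hθ0 : 0 ≤ θ := div_nonneg (by linarith) hDpos.le
      have hθ1 : θ ≤ 1 := by
        rw [hθ, div_le_one hDpos]
        linarith
      have hx21 : 0 ≤ x2 - x1 := sub_nonneg.mpr hx
      have hy21 : 0 ≤ y2 - y1 := sub_nonneg.mpr hy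
      have hxm : x1 + θ * (x2 - x1) ∈ A := by
        refine hIA ⟨?_, ?_⟩
        · have := mul_nonneg hθ0 hx21
          linarith
        · have := mul_le_mul_of_nonneg_right hθ1 hx21
          linarith
      have hym : y1 + θ * (y2 - y1) ∈ B := by
        refine hIB ⟨?_, ?_⟩
        · have := mul_nonneg hθ0 hy21
          linarith
        · have := mul_le_mul_of_nonneg_right hθ1 hy21
          linarith
      have hθmul : θ * (a * (x2 - x1) + b * (y2 - y1)) = z - (a * x1 + b * y1) := by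
        rw [hθ]
        field_simp
      have hz' : z = a * (x1 + θ * (x2 - x1)) + b * (y1 + θ * (y2 - y1)) := by
        linarith
      rw [hz']
      exact hS _ hxm _ hym
  calc ENNReal.ofReal (a * (x2 - x1) + b * (y2 - y1))
      = volume (Icc (a * x1 + b * y1) (a * x2 + b * y2)) := by
        rw [Real.volume_Icc]
        congr 1
        ring
    _ ≤ volume S := measure_mono hsub

/-- One-dimensional Brunn–Minkowski inequality for nonempty convex sets: if `S` contains
`a A + b B`, then `a |A| + b |B| ≤ |S|`. -/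
theorem bm_one (A B S : Set ℝ) (a b : ℝ) (ha : 0 < a) (hb : 0 < b)
    (hA : Convex ℝ A) (hB : Convex ℝ B) (hAn : A.Nonempty) (hBn : B.Nonempty)
    (hS : ∀ x ∈ A, ∀ y ∈ B, a * x + b * y ∈ S) :
    ENNReal.ofReal a * volume A + ENNReal.ofReal b * volume B ≤ volume S := by
  by_cases htop : volume S = ⊤
  · rw [htop]
    exact le_top
  set V : ℝ := (volume S).toReal with hV
  have hreal0 : ∀ x1 ∈ A, ∀ x2 ∈ A, ∀ y1 ∈ B, ∀ y2 ∈ B, x1 ≤ x2 → y1 ≤ y2 →
      a * (x2 - x1) + b * (y2 - y1) ≤ V := by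
    intro x1 hx1 x2 hx2 y1 hy1 y2 hy2 hx hy
    have hkey := bm_one_key A B S a b ha hb hA hB hS hx1 hx2 hy1 hy2 hx hy
    exact (ENNReal.ofReal_le_iff_le_toReal htop).mp hkey
  have hreal : ∀ x1 ∈ A, ∀ x2 ∈ A, ∀ y1 ∈ B, ∀ y2 ∈ B,
      a * (x2 - x1) + b * (y2 - y1) ≤ V := by
    intro x1 hx1 x2 hx2 y1 hy1 y2 hy2
    rcases le_total x1 x2 with hx | hx <;> rcases le_total y1 y2 with hy | hy
    · exact hreal0 x1 hx1 x2 hx2 y1 hy1 y2 hy2 hx hy
    · have h0 := hreal0 x1 hx1 x2 hx2 y1 hy1 y1 hy1 hx le_rfl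
      have h1 : b * (y2 - y1) ≤ 0 := mul_nonpos_of_nonneg_of_nonpos hb.le (by linarith)
      linarith
    · have h0 := hreal0 x1 hx1 x1 hx1 y1 hy1 y2 hy2 le_rfl hy
      have h1 : a * (x2 - x1) ≤ 0 := mul_nonpos_of_nonneg_of_nonpos ha.le (by linarith)
      linarith
    · have h0 := hreal0 x1 hx1 x1 hx1 y1 hy1 y1 hy1 le_rfl le_rfl
      have h1 : a * (x2 - x1) ≤ 0 := mul_nonpos_of_nonneg_of_nonpos ha.le (by linarith)
      have h2 : b * (y2 - y1) ≤ 0 := mul_nonpos_of_nonneg_of_nonpos hb.le (by linarith)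
      linarith
  obtain ⟨x0, hx0⟩ := hAn
  obtain ⟨y0, hy0⟩ := hBn
  have hAa : BddAbove A := by
    refine ⟨x0 + V / a, fun x hx => ?_⟩
    have h0 := hreal x0 hx0 x hx y0 hy0 y0 hy0
    have h2 : x - x0 ≤ V / a := by
      rw [le_div_iff₀ ha]
      linarith
    linarith
  have hAb : BddBelow A := by
    refine ⟨x0 - V / a, fun x hx => ?_⟩
    have h0 := hreal x hx x0 hx0 y0 hy0 y0 hy0
    have h2 : x0 - x ≤ V / a := by
      rw [le_div_iff₀ ha]
      linarith
    linarith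
  have hBa : BddAbove B := by
    refine ⟨y0 + V / b, fun y hy => ?_⟩
    have h0 := hreal x0 hx0 x0 hx0 y0 hy0 y hy
    have h2 : y - y0 ≤ V / b := by
      rw [le_div_iff₀ hb]
      linarith
    linarith
  have hBb : BddBelow B := by
    refine ⟨y0 - V / b, fun y hy => ?_⟩
    have h0 := hreal x0 hx0 x0 hx0 y hy y0 hy0
    have h2 : y0 - y ≤ V / b := by
      rw [le_div_iff₀ hb]
      linarith
    linarith
  have hAsub : A ⊆ Icc (sInf A) (sSup A) := fun x hx => ⟨csInf_le hAb hx, le_csSup hAa hx⟩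
  have hBsub : B ⊆ Icc (sInf B) (sSup B) := fun y hy => ⟨csInf_le hBb hy, le_csSup hBa hy⟩
  have hAlen : 0 ≤ sSup A - sInf A := by
    have h1 := (hAsub hx0).1
    have h2 := (hAsub hx0).2
    linarith
  have hBlen : 0 ≤ sSup B - sInf B := by
    have h1 := (hBsub hy0).1
    have h2 := (hBsub hy0).2
    linarith
  have s1 : ∀ x1 ∈ A, ∀ y1 ∈ B, ∀ y2 ∈ B, a * (sSup A - x1) + b * (y2 - y1) ≤ V := by
    intro x1 hx1 y1 hy1 y2 hy2
    have h1 : sSup A ≤ x1 + (V - b * (y2 - y1)) / a := by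
      refine csSup_le ⟨x0, hx0⟩ (fun x2 hx2 => ?_)
      have h0 := hreal x1 hx1 x2 hx2 y1 hy1 y2 hy2
      have h2 : x2 - x1 ≤ (V - b * (y2 - y1)) / a := by
        rw [le_div_iff₀ ha]
        linarith
      linarith
    have h3 : sSup A - x1 ≤ (V - b * (y2 - y1)) / a := by linarith
    rw [le_div_iff₀ ha] at h3
    linarith
  have s2 : ∀ y1 ∈ B, ∀ y2 ∈ B, a * (sSup A - sInf A) + b * (y2 - y1) ≤ V := by
    intro y1 hy1 y2 hy2
    have h1 : sSup A - (V - b * (y2 - y1)) / a ≤ sInf A := by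
      refine le_csInf ⟨x0, hx0⟩ (fun x1 hx1 => ?_)
      have h0 := s1 x1 hx1 y1 hy1 y2 hy2
      have h2 : sSup A - x1 ≤ (V - b * (y2 - y1)) / a := by
        rw [le_div_iff₀ ha]
        linarith
      linarith
    have h3 : sSup A - sInf A ≤ (V - b * (y2 - y1)) / a := by linarith
    rw [le_div_iff₀ ha] at h3
    linarith
  have s3 : ∀ y1 ∈ B, a * (sSup A - sInf A) + b * (sSup B - y1) ≤ V := by
    intro y1 hy1
    have h1 : sSup B ≤ y1 + (V - a * (sSup A - sInf A)) / b := by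
      refine csSup_le ⟨y0, hy0⟩ (fun y2 hy2 => ?_)
      have h0 := s2 y1 hy1 y2 hy2
      have h2 : y2 - y1 ≤ (V - a * (sSup A - sInf A)) / b := by
        rw [le_div_iff₀ hb]
        linarith
      linarith
    have h3 : sSup B - y1 ≤ (V - a * (sSup A - sInf A)) / b := by linarith
    rw [le_div_iff₀ hb] at h3
    linarith
  have hfin : a * (sSup A - sInf A) + b * (sSup B - sInf B) ≤ V := by
    have h1 : sSup B - (V - a * (sSup A - sInf A)) / b ≤ sInf B := by
      refine le_csInf ⟨y0, hy0⟩ (fun y1 hy1 => ?_)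
      have h0 := s3 y1 hy1
      have h2 : sSup B - y1 ≤ (V - a * (sSup A - sInf A)) / b := by
        rw [le_div_iff₀ hb]
        linarith
      linarith
    have h3 : sSup B - sInf B ≤ (V - a * (sSup A - sInf A)) / b := by linarith
    rw [le_div_iff₀ hb] at h3
    linarith
  have hvA : volume A ≤ ENNReal.ofReal (sSup A - sInf A) :=
    (measure_mono hAsub).trans_eq Real.volume_Icc
  have hvB : volume B ≤ ENNReal.ofReal (sSup B - sInf B) :=
    (measure_mono hBsub).trans_eq Real.volume_Icc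
  calc ENNReal.ofReal a * volume A + ENNReal.ofReal b * volume B
      ≤ ENNReal.ofReal a * ENNReal.ofReal (sSup A - sInf A)
          + ENNReal.ofReal b * ENNReal.ofReal (sSup B - sInf B) :=
        add_le_add (mul_le_mul_right hvA _) (mul_le_mul_right hvB _)
    _ = ENNReal.ofReal (a * (sSup A - sInf A) + b * (sSup B - sInf B)) := by
        rw [← ENNReal.ofReal_mul ha.le, ← ENNReal.ofReal_mul hb.le,
          ← ENNReal.ofReal_add (mul_nonneg ha.le hAlen) (mul_nonneg hb.le hBlen)]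
    _ ≤ ENNReal.ofReal V := ENNReal.ofReal_le_ofReal hfin
    _ = volume S := ENNReal.ofReal_toReal htop

end Vale.Agent.Lib.P254
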