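import Vale.Agent.Lib.P254.Sym.FibreLC

open MeasureTheory Set
open scoped Pointwise

namespace Vale.Agent.Lib.P254

/-- Area of a dilate of a planar set. -/
lemma vol_smul_two (r : ℝ) (S : Set (Fin 2 → ℝ)) : vol (r • S) = r ^ 2 * vol S := by
  unfold vol
  rw [Measure.addHaar_smul, Module.finrank_fin_fun, ENNReal.toReal_mul,
    ENNReal.toReal_ofReal (abs_nonneg _), abs_pow, sq_abs]

private lemma bm2_weak {B W : Set (Fin 2 → ℝ)} (hWfin : volume W ≠ ⊤) (z : Fin 2 → ℝ) (b : ℝ)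
    (_hb : 0 ≤ b) (hW : ∀ y ∈ B, z + b • y ∈ W) :
    b * Real.sqrt (vol B) ≤ Real.sqrt (vol W) := by
  have hsub : b • B ⊆ (fun h => z + h) ⁻¹' W := by
    rintro _ ⟨y, hy, rfl⟩
    exact hW y hy
  have h1 : volume (b • B) ≤ volume W := by
    calc volume (b • B) ≤ volume ((fun h => z + h) ⁻¹' W) := measure_mono hsub
      _ = volume W := measure_preimage_add volume z W
  have h2 : vol (b • B) ≤ vol W := ENNReal.toReal_mono hWfin h1
  rw [vol_smul_two] at h2
  have hB0 : 0 ≤ vol B := ENNReal.toReal_nonneg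
  apply Real.le_sqrt_of_sq_le
  calc (b * Real.sqrt (vol B)) ^ 2 = b ^ 2 * vol B := by rw [mul_pow, Real.sq_sqrt hB0]
    _ ≤ vol W := h2

/-- Brunn–Minkowski inequality in the plane, in its square-root form, for compact convex sets:
if `a • A + b • B ⊆ W` then `a √|A| + b √|B| ≤ √|W|`. -/
theorem bm2_sqrt {A B W : Set (Fin 2 → ℝ)} (hA : IsCompact A) (hAc : Convex ℝ A)
    (hAn : A.Nonempty) (hB : IsCompact B) (hBc : Convex ℝ B) (hBn : B.Nonempty)
    (hWfin : volume W ≠ ⊤) {a b : ℝ} (ha : 0 ≤ a) (hb : 0 ≤ b)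
    (hW : ∀ x ∈ A, ∀ y ∈ B, a • x + b • y ∈ W) :
    a * Real.sqrt (vol A) + b * Real.sqrt (vol B) ≤ Real.sqrt (vol W) := by
  obtain ⟨x0, hx0⟩ := hAn
  obtain ⟨y0, hy0⟩ := hBn
  have hwB : b * Real.sqrt (vol B) ≤ Real.sqrt (vol W) :=
    bm2_weak hWfin (a • x0) b hb (fun y hy => hW x0 hx0 y hy)
  have hwA : a * Real.sqrt (vol A) ≤ Real.sqrt (vol W) :=
    bm2_weak hWfin (b • y0) a ha (fun x hx => by rw [add_comm]; exact hW x hx y0 hy0)
  have hA0 : 0 ≤ vol A := ENNReal.toReal_nonneg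
  have hB0 : 0 ≤ vol B := ENNReal.toReal_nonneg
  have hW0 : 0 ≤ vol W := ENNReal.toReal_nonneg
  set α := Real.sqrt (vol A) with hα
  set β := Real.sqrt (vol B) with hβ
  have hα0 : 0 ≤ α := Real.sqrt_nonneg _
  have hβ0 : 0 ≤ β := Real.sqrt_nonneg _
  rcases eq_or_lt_of_le (mul_nonneg ha hα0) with h1 | h1
  · rw [← h1, zero_add]; exact hwB
  rcases eq_or_lt_of_le (mul_nonneg hb hβ0) with h2 | h2
  · rw [← h2, add_zero]; exact hwA
  have hapos : 0 < a := by
    rcases eq_or_lt_of_le ha with h | h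
    · rw [← h, zero_mul] at h1; exact absurd h1 (lt_irrefl 0)
    · exact h
  have hαpos : 0 < α := by
    rcases eq_or_lt_of_le hα0 with h | h
    · rw [← h, mul_zero] at h1; exact absurd h1 (lt_irrefl 0)
    · exact h
  have hbpos : 0 < b := by
    rcases eq_or_lt_of_le hb with h | h
    · rw [← h, zero_mul] at h2; exact absurd h2 (lt_irrefl 0)
    · exact h
  have hβpos : 0 < β := by
    rcases eq_or_lt_of_le hβ0 with h | h
    · rw [← h, mul_zero] at h2; exact absurd h2 (lt_irrefl 0)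
    · exact h
  set c := a * α + b * β with hc
  have hcpos : 0 < c := by positivity
  have hα2 : α ^ 2 = vol A := Real.sq_sqrt hA0
  have hβ2 : β ^ 2 = vol B := Real.sq_sqrt hB0
  have hvA' : vol (α⁻¹ • A) = 1 := by
    rw [vol_smul_two, ← hα2]; field_simp
  have hvB' : vol (β⁻¹ • B) = 1 := by
    rw [vol_smul_two, ← hβ2]; field_simp
  set S : Set ((Fin 2 → ℝ) × ℝ) := (α⁻¹ • A) ×ˢ ({0} : Set ℝ) with hS
  set T : Set ((Fin 2 → ℝ) × ℝ) := (β⁻¹ • B) ×ˢ ({1} : Set ℝ) with hT
  have hSc : Convex ℝ S := (hAc.smul α⁻¹).prod (convex_singleton 0)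
  have hTc : Convex ℝ T := (hBc.smul β⁻¹).prod (convex_singleton 1)
  have hSk : IsCompact S := (hA.smul α⁻¹).prod isCompact_singleton
  have hTk : IsCompact T := (hB.smul β⁻¹).prod isCompact_singleton
  have hSn : S.Nonempty := ⟨(α⁻¹ • x0, 0), ⟨smul_mem_smul_set hx0, rfl⟩⟩
  have hTn : T.Nonempty := ⟨(β⁻¹ • y0, 1), ⟨smul_mem_smul_set hy0, rfl⟩⟩
  set C : Set ((Fin 2 → ℝ) × ℝ) := convexJoin ℝ S T with hC
  have hCc : Convex ℝ C := hSc.convexJoin hTc
  have hCk : IsCompact C := by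
    have himg : C = (fun p : (((Fin 2 → ℝ) × ℝ) × ((Fin 2 → ℝ) × ℝ)) × ℝ =>
        (1 - p.2) • p.1.1 + p.2 • p.1.2) '' ((S ×ˢ T) ×ˢ Icc (0:ℝ) 1) := by
      ext z
      rw [hC, mem_convexJoin]
      constructor
      · rintro ⟨p, hp, q, hq, u, w, hu, hw, huw, rfl⟩
        refine ⟨((p, q), w), ⟨⟨hp, hq⟩, ⟨hw, by linarith⟩⟩, ?_⟩
        have h1w : 1 - w = u := by linarith
        show (1 - w) • p + w • q = u • p + w • q
        rw [h1w]
      · rintro ⟨⟨⟨p, q⟩, e⟩, ⟨⟨hp, hq⟩, he0, he1⟩, rfl⟩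
        exact ⟨p, hp, q, hq, 1 - e, e, by linarith, he0, by ring, rfl⟩
    rw [himg]
    exact ((hSk.prod hTk).prod isCompact_Icc).image (by fun_prop)
  set μ := b * β / c with hμ
  have hμpos : 0 < μ := by positivity
  have h1μ : 1 - μ = a * α / c := by
    rw [hμ, hc]; field_simp; ring
  have h1μpos : 0 < 1 - μ := by rw [h1μ]; positivity
  have key := fibre_vol_logconcave 2 ℝ C hCk hCc 0 1 (1 - μ) μ h1μpos hμpos (by ring)
  have hfin : ∀ e : ℝ, volume {y : Fin 2 → ℝ | (y, e) ∈ C} ≠ ⊤ := by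
    intro e
    have hsub : {y : Fin 2 → ℝ | (y, e) ∈ C} ⊆ Prod.fst '' C := fun y hy => ⟨(y, e), hy, rfl⟩
    exact (lt_of_le_of_lt (measure_mono hsub) (hCk.image continuous_fst).measure_lt_top).ne
  have h0 : 1 ≤ vol {y : Fin 2 → ℝ | (y, (0:ℝ)) ∈ C} := by
    have hle : vol (α⁻¹ • A) ≤ vol {y : Fin 2 → ℝ | (y, (0:ℝ)) ∈ C} := by
      apply ENNReal.toReal_mono (hfin 0)
      apply measure_mono
      intro y hy
      exact subset_convexJoin_left hTn (show (y, (0:ℝ)) ∈ S from ⟨hy, rfl⟩)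
    rw [hvA'] at hle
    exact hle
  have h1' : 1 ≤ vol {y : Fin 2 → ℝ | (y, (1:ℝ)) ∈ C} := by
    have hle : vol (β⁻¹ • B) ≤ vol {y : Fin 2 → ℝ | (y, (1:ℝ)) ∈ C} := by
      apply ENNReal.toReal_mono (hfin 1)
      apply measure_mono
      intro y hy
      exact subset_convexJoin_right hSn (show (y, (1:ℝ)) ∈ T from ⟨hy, rfl⟩)
    rw [hvB'] at hle
    exact hle
  have hL : 1 ≤ vol {y : Fin 2 → ℝ | (y, (0:ℝ)) ∈ C} ^ (1 - μ)
      * vol {y : Fin 2 → ℝ | (y, (1:ℝ)) ∈ C} ^ μ := by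
    have e1 := Real.one_le_rpow h0 h1μpos.le
    have e2 := Real.one_le_rpow h1' hμpos.le
    nlinarith
  have hsubW : {y : Fin 2 → ℝ | (y, (1 - μ) • (0:ℝ) + μ • (1:ℝ)) ∈ C} ⊆ c⁻¹ • W := by
    intro y hy
    have hy2 : (y, (1 - μ) • (0:ℝ) + μ • (1:ℝ)) ∈ convexJoin ℝ S T := hy
    rw [mem_convexJoin] at hy2
    obtain ⟨⟨p1, p2⟩, hp, ⟨q1, q2⟩, hq, u, w, hu, hw, huw, hpq⟩ := hy2
    obtain ⟨hp1, hp2⟩ := hp
    obtain ⟨hq1, hq2⟩ := hq
    have hp2' : p2 = 0 := hp2
    have hq2' : q2 = 1 := hq2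
    have hfst : u • p1 + w • q1 = y := congrArg Prod.fst hpq
    have hsnd : u • p2 + w • q2 = (1 - μ) • (0:ℝ) + μ • (1:ℝ) := congrArg Prod.snd hpq
    rw [hp2', hq2'] at hsnd
    simp only [smul_eq_mul, mul_zero, mul_one, zero_add] at hsnd
    have hu' : u = 1 - μ := by linarith
    obtain ⟨x, hx, hxp⟩ := hp1
    obtain ⟨y', hy', hyq⟩ := hq1
    have hxp' : α⁻¹ • x = p1 := hxp
    have hyq' : β⁻¹ • y' = q1 := hyq
    refine ⟨a • x + b • y', hW x hx y' hy', ?_⟩
    show c⁻¹ • (a • x + b • y') = y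
    rw [← hfst, hu', hsnd, h1μ, hμ, ← hxp', ← hyq']
    simp only [smul_add, smul_smul]
    congr 2 <;> field_simp
  have hWs : volume (c⁻¹ • W) ≠ ⊤ := by
    rw [Measure.addHaar_smul]
    exact ENNReal.mul_ne_top ENNReal.ofReal_ne_top hWfin
  have hR : vol {y : Fin 2 → ℝ | (y, (1 - μ) • (0:ℝ) + μ • (1:ℝ)) ∈ C} ≤ vol (c⁻¹ • W) :=
    ENNReal.toReal_mono hWs (measure_mono hsubW)
  rw [vol_smul_two] at hR
  have hone : 1 ≤ c⁻¹ ^ 2 * vol W := le_trans hL (le_trans key hR)
  have hfinal : c ^ 2 ≤ vol W := by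
    have hc2 : 0 < c ^ 2 := by positivity
    calc c ^ 2 = c ^ 2 * 1 := by ring
      _ ≤ c ^ 2 * (c⁻¹ ^ 2 * vol W) := mul_le_mul_of_nonneg_left hone hc2.le
      _ = vol W := by field_simp
  exact Real.le_sqrt_of_sq_le hfinal

variable {n : ℕ}

/-- Convex combinations of points of two sections lie in the section at the combined height. -/
lemma sec_combo {K : Set (Fin (n+1) → ℝ)} (hc : Convex ℝ K) {s t a b : ℝ} (ha : 0 ≤ a)
    (hb : 0 ≤ b) (hab : a + b = 1) {y y' : Fin n → ℝ} (hy : y ∈ sec K s) (hy' : y' ∈ sec K t) :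
    a • y + b • y' ∈ sec K (a * s + b * t) := by
  rw [mem_sec] at hy hy' ⊢
  have h := hc hy hy' ha hb hab
  have heq : (Fin.cons (a * s + b * t) (a • y + b • y') : Fin (n+1) → ℝ)
      = a • (Fin.cons s y : Fin (n+1) → ℝ) + b • (Fin.cons t y' : Fin (n+1) → ℝ) := by
    funext i
    refine Fin.cases ?_ ?_ i
    · simp only [Fin.cons_zero, Pi.add_apply, Pi.smul_apply, smul_eq_mul]
    · intro j
      simp only [Fin.cons_succ, Pi.add_apply, Pi.smul_apply, smul_eq_mul]
  rw [heq]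
  exact h

/-- Sections of a convex set are convex. -/
lemma convex_sec {K : Set (Fin (n+1) → ℝ)} (hc : Convex ℝ K) (t : ℝ) : Convex ℝ (sec K t) := by
  intro y hy y' hy' a b ha hb hab
  have h := sec_combo hc ha hb hab hy hy'
  have e : a * t + b * t = t := by rw [← add_mul, hab, one_mul]
  rwa [e] at h

/-- Brunn–Minkowski for parallel sections of a convex body in `ℝ³`: the square root of the
section area is concave along any segment joining two heights with nonempty sections. -/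
theorem sec_sqrt_concave {K : Set (Fin 3 → ℝ)} (hK : IsCompact K) (hc : Convex ℝ K)
    {s t a b : ℝ} (ha : 0 ≤ a) (hb : 0 ≤ b) (hab : a + b = 1)
    (hs : (sec K s).Nonempty) (ht : (sec K t).Nonempty) :
    a * Real.sqrt (vol (sec K s)) + b * Real.sqrt (vol (sec K t))
      ≤ Real.sqrt (vol (sec K (a * s + b * t))) :=
  bm2_sqrt (isCompact_sec hK s) (convex_sec hc s) hs (isCompact_sec hK t) (convex_sec hc t) ht
    (isCompact_sec hK (a * s + b * t)).measure_lt_top.ne ha hb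
    (fun _ hx _ hy => sec_combo hc ha hb hab hx hy)

/-- For a compact convex set in `ℝ³` symmetric under the reflection of the first coordinate,
the square root of the section area is concave on a symmetric interval `[-a, a]` and the
sections are empty outside it. -/
theorem sqrt_concave_vol_sec {K : Set (Fin 3 → ℝ)} (hK : IsCompact K) (hc : Convex ℝ K)
    (hflip : ∀ x ∈ K, Function.update x 0 (-(x 0)) ∈ K) :
    ∃ a : ℝ, 0 ≤ a ∧ ConcaveOn ℝ (Icc (-a) a) (fun t => Real.sqrt (vol (sec K t))) ∧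
      ∀ t, a < |t| → vol (sec K t) = 0 := by
  have hvol_empty : vol (∅ : Set (Fin 2 → ℝ)) = 0 := by simp [vol]
  rcases K.eq_empty_or_nonempty with hemp | hne
  · have hsec : ∀ t, sec K t = ∅ := by
      intro t
      rw [eq_empty_iff_forall_notMem]
      intro y hy
      have h := mem_sec.1 hy
      rw [hemp] at h
      exact h
    refine ⟨0, le_rfl, ?_, ?_⟩
    · have h0 : (fun t => Real.sqrt (vol (sec K t))) = fun _ => (0:ℝ) := by
        funext t
        rw [hsec t, hvol_empty, Real.sqrt_zero]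
      rw [h0]
      exact concaveOn_const 0 (convex_Icc _ _)
    · intro t _
      rw [hsec t, hvol_empty]
  · have hPc : IsCompact ((fun x : Fin 3 → ℝ => x 0) '' K) := hK.image (continuous_apply 0)
    have hPne : ((fun x : Fin 3 → ℝ => x 0) '' K).Nonempty := hne.image _
    set a := sSup ((fun x : Fin 3 → ℝ => x 0) '' K) with hadef
    obtain ⟨p, hpK, hpa⟩ := hPc.sSup_mem hPne
    have hpa' : p 0 = a := hpa
    have hle : ∀ x ∈ K, x 0 ≤ a := fun x hx => le_csSup hPc.bddAbove ⟨x, hx, rfl⟩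
    have habs : ∀ x ∈ K, |x 0| ≤ a := by
      intro x hx
      have h1 := hle x hx
      have h2 := hle _ (hflip x hx)
      rw [Function.update_self] at h2
      exact abs_le.mpr ⟨by linarith, h1⟩
    have ha0 : 0 ≤ a := le_trans (abs_nonneg _) (habs p hpK)
    have hempty : ∀ t, a < |t| → sec K t = ∅ := by
      intro t ht
      rw [eq_empty_iff_forall_notMem]
      intro y hy
      have h := habs _ (mem_sec.1 hy)
      rw [Fin.cons_zero] at h
      linarith
    have hnon : ∀ t ∈ Icc (-a) a, (sec K t).Nonempty := by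
      intro t ht
      refine ⟨Fin.tail p, ?_⟩
      rw [mem_sec]
      have hp' : Function.update p 0 (-(p 0)) ∈ K := hflip p hpK
      rcases eq_or_lt_of_le ha0 with h0 | hpos
      · have ht0 : t = 0 := le_antisymm (by rw [h0]; exact ht.2) (by linarith [ht.1])
        have e : (Fin.cons t (Fin.tail p) : Fin 3 → ℝ) = p := by
          rw [ht0, h0, ← hpa']
          exact Fin.cons_self_tail p
        rw [e]
        exact hpK
      · have hl0 : 0 ≤ (a + t) / (2 * a) := div_nonneg (by linarith [ht.1]) (by linarith)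
        have hl1 : 0 ≤ (a - t) / (2 * a) := div_nonneg (by linarith [ht.2]) (by linarith)
        have hl : (a + t) / (2 * a) + (a - t) / (2 * a) = 1 := by
          field_simp; ring
        have h := hc hpK hp' hl0 hl1 hl
        have e : (Fin.cons t (Fin.tail p) : Fin 3 → ℝ)
            = ((a + t) / (2 * a)) • p + ((a - t) / (2 * a)) • Function.update p 0 (-(p 0)) := by
          funext i
          refine Fin.cases ?_ ?_ i
          · simp only [Fin.cons_zero, Pi.add_apply, Pi.smul_apply, smul_eq_mul,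
              Function.update_self, hpa']
            field_simp
            ring
          · intro j
            have hj : (Fin.succ j : Fin 3) ≠ 0 := Fin.succ_ne_zero j
            simp only [Fin.cons_succ, Pi.add_apply, Pi.smul_apply, smul_eq_mul,
              Function.update_of_ne hj, Fin.tail]
            rw [← add_mul, hl, one_mul]
        rw [e]
        exact h
    refine ⟨a, ha0, ⟨convex_Icc _ _, ?_⟩, fun t ht => ?_⟩
    · intro t0 ht0 t1 ht1 l0 l1 hl0 hl1 hl
      simp only [smul_eq_mul]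
      exact sec_sqrt_concave hK hc hl0 hl1 hl (hnon t0 ht0) (hnon t1 ht1)
    · rw [hempty t ht, hvol_empty]

end Vale.Agent.Lib.P254
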