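import Vale.Agent.Lib.P254.Sym.SecSym
import Vale.Agent.Lib.P254.Sym.BM1

open MeasureTheory Set

namespace Vale.Agent.Lib.P254

/-- The subset of the line corresponding to a subset of `Fin 1 → ℝ`. -/
private def line (S : Set (Fin 1 → ℝ)) : Set ℝ := {x | (fun _ => x) ∈ S}

private lemma mem_line {S : Set (Fin 1 → ℝ)} {x : ℝ} :
    x ∈ line S ↔ (fun _ => x) ∈ S := Iff.rfl

private lemma const_eq (y : Fin 1 → ℝ) : (fun _ => y 0) = y := by
  funext i
  rw [Subsingleton.elim i 0]

private lemma symm_apply_eq (x : ℝ) :
    (MeasurableEquiv.funUnique (Fin 1) ℝ).symm x = fun _ => x := by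
  funext i
  rfl

private lemma line_eq_preimage (S : Set (Fin 1 → ℝ)) :
    line S = (MeasurableEquiv.funUnique (Fin 1) ℝ).symm ⁻¹' S := by
  ext x
  rw [mem_line, mem_preimage, symm_apply_eq]

private lemma line_eq_image (S : Set (Fin 1 → ℝ)) :
    line S = (fun y : Fin 1 → ℝ => y 0) '' S := by
  ext x
  constructor
  · intro hx
    exact ⟨fun _ => x, hx, rfl⟩
  · rintro ⟨y, hy, rfl⟩
    rw [mem_line, const_eq]
    exact hy

private lemma convex_line {S : Set (Fin 1 → ℝ)} (hS : Convex ℝ S) : Convex ℝ (line S) := by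
  intro x hx y hy a b ha hb hab
  rw [mem_line] at hx hy ⊢
  have h := hS hx hy ha hb hab
  have heq : (fun _ : Fin 1 => a • x + b • y)
      = a • (fun _ : Fin 1 => x) + b • (fun _ : Fin 1 => y) := by
    funext i
    simp
  rw [heq]
  exact h

private lemma volume_eq_line (S : Set (Fin 1 → ℝ)) : volume S = volume (line S) := by
  rw [line_eq_preimage]
  exact ((MeasurePreserving.symm _
    (volume_preserving_funUnique (Fin 1) ℝ)).measure_preimage_equiv S).symm

private lemma integral_eq_line (S : Set (Fin 1 → ℝ)) :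
    ∫ y in S, |y 0| = ∫ x in line S, |x| := by
  rw [line_eq_preimage]
  have h := MeasurePreserving.setIntegral_preimage_emb
    (MeasurePreserving.symm _ (volume_preserving_funUnique (Fin 1) ℝ))
    (MeasurableEquiv.funUnique (Fin 1) ℝ).symm.measurableEmbedding
    (fun y : Fin 1 → ℝ => |y 0|) S
  exact h.symm

/-- A compact convex symmetric subset of the line: first absolute moment from the length. -/
lemma OneSym.abs_moment_one {S : Set (Fin 1 → ℝ)} (hS : OneSym S) :
    ∫ y in S, |y 0| = (vol S) ^ 2 / 4 := by
  obtain ⟨hc, hconv, -, hflip⟩ := hS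
  have hcl : IsCompact (line S) := by
    rw [line_eq_image]
    exact hc.image (continuous_apply 0)
  have hcv : Convex ℝ (line S) := convex_line hconv
  have hsym : ∀ x ∈ line S, -x ∈ line S := by
    intro x hx
    rw [mem_line] at hx ⊢
    have h := hflip 0 _ hx
    have heq : Function.update (fun _ : Fin 1 => x) 0 (-x) = fun _ => -x := by
      funext i
      rw [Subsingleton.elim i 0]
      simp
    rw [heq] at h
    exact h
  rcases (line S).eq_empty_or_nonempty with hemp | hne
  · have hS0 : S = ∅ := by
      rw [eq_empty_iff_forall_notMem]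
      intro y hy
      have hy0 : y 0 ∈ line S := by
        rw [mem_line, const_eq]
        exact hy
      rw [hemp] at hy0
      exact hy0
    rw [hS0]
    simp [vol]
  · set c := sSup (line S) with hcdef
    have hcmem : c ∈ line S := hcl.sSup_mem hne
    have hle : ∀ x ∈ line S, x ≤ c := fun x hx => le_csSup hcl.bddAbove hx
    have hc0 : 0 ≤ c := by
      have := hle _ (hsym c hcmem)
      linarith
    have hIcc : line S = Icc (-c) c := by
      refine Subset.antisymm (fun x hx => ⟨?_, hle x hx⟩) ?_
      · have := hle _ (hsym x hx)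
        linarith
      · exact hcv.ordConnected.out (hsym c hcmem) hcmem
    have hvol : vol S = 2 * c := by
      unfold vol
      rw [volume_eq_line, hIcc, Real.volume_Icc, ENNReal.toReal_ofReal (by linarith)]
      ring
    have h1 : ∫ x in (-c)..0, |x| = c ^ 2 / 2 := by
      have h : ∫ x in (-c)..0, |x| = ∫ x in (-c)..0, -x := by
        refine intervalIntegral.integral_congr (fun x hx => ?_)
        rw [uIcc_of_le (by linarith)] at hx
        exact abs_of_nonpos hx.2
      rw [h, intervalIntegral.integral_neg, integral_id]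
      ring
    have h2 : ∫ x in (0:ℝ)..c, |x| = c ^ 2 / 2 := by
      have h : ∫ x in (0:ℝ)..c, |x| = ∫ x in (0:ℝ)..c, x := by
        refine intervalIntegral.integral_congr (fun x hx => ?_)
        rw [uIcc_of_le hc0] at hx
        exact abs_of_nonneg hx.1
      rw [h, integral_id]
      ring
    rw [integral_eq_line, hIcc, hvol, integral_Icc_eq_integral_Ioc,
      ← intervalIntegral.integral_of_le (by linarith),
      ← intervalIntegral.integral_add_adjacent_intervals (b := 0)
        (continuous_abs.intervalIntegrable _ _) (continuous_abs.intervalIntegrable _ _), h1, h2]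
    ring

private lemma sec_empty_of_empty {K : Set (Fin 2 → ℝ)} (hK : K = ∅) (t : ℝ) : sec K t = ∅ := by
  rw [eq_empty_iff_forall_notMem]
  intro y hy
  have h := mem_sec.1 hy
  rw [hK] at h
  exact h

private lemma vol_empty : vol (∅ : Set (Fin 1 → ℝ)) = 0 := by
  simp [vol]

/-- In the plane the section-length function of a 1-symmetric set is concave on its support. -/
lemma OneSym.concave_vol_sec {K : Set (Fin 2 → ℝ)} (hK : OneSym K) :
    ∃ a : ℝ, 0 ≤ a ∧ ConcaveOn ℝ (Set.Icc (-a) a) (fun t => vol (sec K t)) ∧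
      ∀ t, a < |t| → vol (sec K t) = 0 := by
  rcases K.eq_empty_or_nonempty with hemp | hne
  · refine ⟨0, le_rfl, ?_, ?_⟩
    · have h0 : (fun t => vol (sec K t)) = fun _ => (0:ℝ) := by
        funext t
        rw [sec_empty_of_empty hemp t, vol_empty]
      rw [h0]
      exact concaveOn_const 0 (convex_Icc _ _)
    · intro t _
      rw [sec_empty_of_empty hemp t, vol_empty]
  · have hPc : IsCompact ((fun x : Fin 2 → ℝ => x 0) '' K) := hK.1.image (continuous_apply 0)
    have hPne : ((fun x : Fin 2 → ℝ => x 0) '' K).Nonempty := hne.image _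
    set a := sSup ((fun x : Fin 2 → ℝ => x 0) '' K) with hadef
    obtain ⟨p, hpK, hpa⟩ := hPc.sSup_mem hPne
    have hpa' : p 0 = a := hpa
    have hle : ∀ x ∈ K, x 0 ≤ a := fun x hx => le_csSup hPc.bddAbove ⟨x, hx, rfl⟩
    have habs : ∀ x ∈ K, |x 0| ≤ a := by
      intro x hx
      have h1 := hle x hx
      have h2 := hle _ (hK.2.2.2 0 x hx)
      rw [Function.update_self] at h2
      exact abs_le.mpr ⟨by linarith, h1⟩
    have ha0 : 0 ≤ a := le_trans (abs_nonneg _) (habs p hpK)
    have hempty : ∀ t, a < |t| → sec K t = ∅ := by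
      intro t ht
      rw [eq_empty_iff_forall_notMem]
      intro y hy
      have h := habs _ (mem_sec.1 hy)
      rw [Fin.cons_zero] at h
      linarith
    have hystar : Fin.tail p ∈ sec K a := by
      rw [mem_sec, ← hpa', Fin.cons_self_tail]
      exact hpK
    have hnon : ∀ t ∈ Icc (-a) a, Fin.tail p ∈ sec K t := by
      intro t ht
      have h1 : sec K a ⊆ sec K |t| := hK.sec_anti (abs_nonneg t) (abs_le.mpr ht)
      have h2 : sec K |t| = sec K t := by
        rcases le_total 0 t with h | h
        · rw [abs_of_nonneg h]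
        · rw [abs_of_nonpos h, hK.sec_neg]
      rw [← h2]
      exact h1 hystar
    refine ⟨a, ha0, ⟨convex_Icc _ _, ?_⟩, fun t ht => ?_⟩
    · intro t0 ht0 t1 ht1 l0 l1 hl0 hl1 hl
      simp only [smul_eq_mul]
      rcases hl0.eq_or_lt with h0 | h0
      · have h1 : l1 = 1 := by linarith
        rw [← h0, h1]
        simp
      rcases hl1.eq_or_lt with h1 | h1
      · have h0' : l0 = 1 := by linarith
        rw [← h1, h0']
        simp
      have hfin : ∀ t, volume (sec K t) = ENNReal.ofReal (vol (sec K t)) := fun t =>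
        (ENNReal.ofReal_toReal (isCompact_sec hK.1 t).measure_lt_top.ne).symm
      have hv : ∀ t, 0 ≤ vol (sec K t) := fun t => ENNReal.toReal_nonneg
      have hbm := bm_one (line (sec K t0)) (line (sec K t1)) (line (sec K (l0 * t0 + l1 * t1)))
        l0 l1 h0 h1 (convex_line (hK.sec_oneSym t0).2.1) (convex_line (hK.sec_oneSym t1).2.1)
        ⟨Fin.tail p 0, ?_⟩ ⟨Fin.tail p 0, ?_⟩ ?_
      · rw [← volume_eq_line, ← volume_eq_line, ← volume_eq_line, hfin t0, hfin t1,
          hfin (l0 * t0 + l1 * t1), ← ENNReal.ofReal_mul hl0, ← ENNReal.ofReal_mul hl1,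
          ← ENNReal.ofReal_add (mul_nonneg hl0 (hv t0)) (mul_nonneg hl1 (hv t1))] at hbm
        exact (ENNReal.ofReal_le_ofReal_iff (hv _)).1 hbm
      · rw [mem_line, const_eq]
        exact hnon t0 ht0
      · rw [mem_line, const_eq]
        exact hnon t1 ht1
      · intro x hx y hy
        rw [mem_line, mem_sec] at hx hy ⊢
        have h := hK.2.1 hx hy hl0 hl1 hl
        have heq : (Fin.cons (l0 * t0 + l1 * t1) (fun _ => l0 * x + l1 * y) : Fin 2 → ℝ)
            = l0 • (Fin.cons t0 (fun _ => x) : Fin 2 → ℝ)
              + l1 • (Fin.cons t1 (fun _ => y) : Fin 2 → ℝ) := by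
          funext i
          refine Fin.cases ?_ ?_ i
          · simp
          · intro j
            simp
        rw [heq]
        exact h
    · rw [hempty t ht, vol_empty]

end Vale.Agent.Lib.P254
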