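import Vale.Agent.Lib.P254.Sym.AdmSec
import Vale.Agent.Lib.P254.Sym.MomSym
import Vale.Agent.Lib.P254.Sym.OneDa
import Vale.Agent.Lib.P254.Sym.OneDc
import Vale.Agent.Lib.P254.Sym.Base2a
import Vale.Agent.Lib.P254.Sym.AdmBasic

open MeasureTheory Set

namespace Vale.Agent.Lib.P254

/-- Base case of the moment bound: planar 1-symmetric sets. -/
theorem oneSym_base {K : Set (Fin 2 → ℝ)} (hK : OneSym K) (i : Fin 2) :
    (12 * m2 K i) ^ 2 ≤ 81 / 64 * (vol K) ^ 4 := by
  have hKc : IsCompact K := hK.1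
  have hadm : Adm (fun t => vol (sec K t)) := hK.adm_vol_sec
  set v : ℝ → ℝ := fun t => vol (sec K t) with hv
  obtain ⟨a, ha, hconc, hsupp⟩ := hK.concave_vol_sec
  have hV : ∫ t, v t = vol K := (vol_slice hKc).symm
  have hX : ∫ t, t ^ 2 * v t = m2 K i := by
    rw [hK.m2_eq i 0]
    unfold m2
    rw [integral_slice hKc (fun x => (x 0) ^ 2) (by fun_prop)]
    congr 1
    ext t
    simp only [Fin.cons_zero]
    rw [setIntegral_const]
    simp [hv, vol, Measure.real, mul_comm]
  have hF0 : ∫ t, |t| * v t = ∫ x in K, |x 0| := by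
    rw [integral_slice hKc (fun x => |x 0|) (by fun_prop)]
    congr 1
    ext t
    simp only [Fin.cons_zero]
    rw [setIntegral_const]
    simp [hv, vol, Measure.real, mul_comm]
  have hF1 : ∫ x in K, |x 1| = ∫ t, (v t) ^ 2 / 4 := by
    rw [integral_slice hKc (fun x => |x 1|) (by fun_prop)]
    congr 1
    ext t
    have h1 : ∀ y : Fin 1 → ℝ, (Fin.cons t y : Fin 2 → ℝ) 1 = y 0 := fun y => rfl
    simp only [h1]
    exact (hK.sec_oneSym t).abs_moment_one
  have hJ : ∫ t, v t ^ 2 = 4 * ∫ t, |t| * v t := by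
    rw [hF0, hK.abs_moment_eq 0 1, hF1, ← integral_const_mul]
    congr 1
    ext t
    ring
  have h7 := concave_second_moment v a ha hadm.meas hadm.nonneg hadm.even hconc hsupp
  have h5 := adm_first_moment hadm
  rw [hX, hV] at h7
  rw [hJ, hV] at h5
  set F := ∫ t, |t| * v t with hF
  set V := vol K with hVdef
  set X := m2 K i with hXdef
  have hVn : 0 ≤ V := ENNReal.toReal_nonneg
  have hXn : 0 ≤ X := integral_nonneg fun x => sq_nonneg (x i)
  have hXV : X * V ≤ 3 / 32 * V ^ 3 := by nlinarith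
  rcases hVn.eq_or_lt with h0 | h0
  · have hvol : volume K = 0 := by
      have h1 : (volume K).toReal = 0 := h0.symm
      rcases (ENNReal.toReal_eq_zero_iff _).1 h1 with h2 | h2
      · exact h2
      · exact absurd h2 hKc.measure_lt_top.ne
    have hX0 : X = 0 := setIntegral_measure_zero _ hvol
    rw [hX0, ← h0]
    norm_num
  · have hX' : X ≤ 3 / 32 * V ^ 2 := by
      have h1 : X * V ≤ (3 / 32 * V ^ 2) * V := by nlinarith
      exact le_of_mul_le_mul_right h1 h0
    have h2 : 12 * X ≤ 9 / 8 * V ^ 2 := by linarith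
    calc (12 * X) ^ 2 ≤ (9 / 8 * V ^ 2) ^ 2 := pow_le_pow_left₀ (by positivity) h2 2
      _ = 81 / 64 * V ^ 4 := by ring

end Vale.Agent.Lib.P254
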