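import Vale.Agent.Lib.P254.Sym.MomSym

open MeasureTheory Set

namespace Vale.Agent.Lib.P254

variable {n : ℕ}

/-- Sign change of the coordinate `k`. -/
private def covFlip (k : Fin n) (x : Fin n → ℝ) : Fin n → ℝ :=
  Function.update x k (-(x k))

private lemma covFlip_eq (k : Fin n) (x : Fin n → ℝ) :
    covFlip k x = fun j => (if j = k then (fun t : ℝ => -t) else (fun t : ℝ => t)) (x j) := by
  funext j
  unfold covFlip
  by_cases h : j = k
  · subst h
    simp
  · simp [h]

private lemma covFlip_self (k : Fin n) (x : Fin n → ℝ) : covFlip k x k = -(x k) := by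
  simp [covFlip]

private lemma covFlip_ne (k : Fin n) (x : Fin n → ℝ) {j : Fin n} (h : j ≠ k) :
    covFlip k x j = x j := by
  simp [covFlip, h]

private lemma covFlip_invol (k : Fin n) : Function.Involutive (covFlip (n := n) k) := by
  intro x
  funext j
  by_cases h : j = k
  · subst h
    rw [covFlip_self, covFlip_self, neg_neg]
  · rw [covFlip_ne k _ h, covFlip_ne k _ h]

private lemma covFlip_mp (k : Fin n) :
    MeasurePreserving (covFlip (n := n) k) volume volume := by
  have h := volume_preserving_pi (α' := fun _ : Fin n => ℝ) (β' := fun _ : Fin n => ℝ)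
    (f := fun j : Fin n => (if j = k then (fun t : ℝ => -t) else (fun t : ℝ => t)))
    (fun j => by
      by_cases hj : j = k
      · simp only [hj, if_true]
        exact Measure.measurePreserving_neg (volume : Measure ℝ)
      · simp only [hj, if_false]
        exact MeasurePreserving.id _)
  have heq : covFlip (n := n) k = fun (x : Fin n → ℝ) (j : Fin n) =>
      (if j = k then (fun t : ℝ => -t) else (fun t : ℝ => t)) (x j) := by
    funext x
    exact covFlip_eq k x
  rw [heq]
  exact h

private lemma covFlip_preimage {K : Set (Fin n → ℝ)} (hK : OneSym K) (k : Fin n) :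
    covFlip k ⁻¹' K = K := by
  ext x
  constructor
  · intro hx
    have h1 : covFlip k (covFlip k x) ∈ K := hK.2.2.2 k _ hx
    rw [covFlip_invol k x] at h1
    exact h1
  · intro hx
    exact hK.2.2.2 k x hx

/-- Integrals over a 1-symmetric set are invariant under a sign change of one coordinate. -/
private lemma covFlip_integral {K : Set (Fin n → ℝ)} (hK : OneSym K) (k : Fin n)
    (F : (Fin n → ℝ) → ℝ) : ∫ x in K, F (covFlip k x) = ∫ x in K, F x := by
  have hmp := covFlip_mp (n := n) k
  have hemb : MeasurableEmbedding (covFlip (n := n) k) :=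
    (MeasurableEquiv.ofInvolutive (covFlip k) (covFlip_invol k) hmp.measurable).measurableEmbedding
  have h := hmp.setIntegral_preimage_emb hemb F K
  rw [covFlip_preimage hK k] at h
  exact h

private lemma cov_first_moment {K : Set (Fin n → ℝ)} (hK : OneSym K) (k : Fin n) :
    ∫ x in K, x k = 0 := by
  have h := covFlip_integral hK k (fun x => x k)
  simp only [covFlip_self] at h
  rw [integral_neg] at h
  linarith

private lemma cov_mixed_moment {K : Set (Fin n → ℝ)} (hK : OneSym K) {k j : Fin n}
    (hkj : k ≠ j) : ∫ x in K, x k * x j = 0 := by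
  have h := covFlip_integral hK k (fun x => x k * x j)
  simp only [covFlip_self, covFlip_ne k _ (Ne.symm hkj)] at h
  have h2 : ∫ x in K, -(x k) * x j = -∫ x in K, x k * x j := by
    rw [← integral_neg]
    congr 1
    funext x
    ring
  rw [h2] at h
  linarith

/-- The covariance matrix of a 1-symmetric set is a multiple of the identity, so its
determinant is a power of the normalised second moment of any one coordinate. -/
theorem OneSym.det_covMatrix {K : Set (Fin n → ℝ)} (hK : OneSym K) (i : Fin n) :
    (covMatrix K).det = ((vol K)⁻¹ * m2 K i) ^ n := by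
  have hcent : ∀ k : Fin n, centroid K k = 0 := by
    intro k
    unfold centroid
    rw [cov_first_moment hK k, mul_zero]
  have hdiag : covMatrix K = Matrix.diagonal (fun _ : Fin n => (vol K)⁻¹ * m2 K i) := by
    ext a b
    unfold covMatrix
    rw [Matrix.of_apply]
    simp only [hcent, sub_zero]
    by_cases hab : a = b
    · subst hab
      rw [Matrix.diagonal_apply_eq, hK.m2_eq i a]
      unfold m2
      congr 2
      funext x
      ring
    · rw [Matrix.diagonal_apply_ne _ hab, cov_mixed_moment hK hab, mul_zero]
  rw [hdiag, Matrix.det_diagonal, Finset.prod_const, Finset.card_univ, Fintype.card_fin]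

end Vale.Agent.Lib.P254
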