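import Vale.Agent.Lib.P254.Sym.Induct
import Vale.Agent.Lib.P254.Sym.Cov
import Vale.Agent.Lib.P254.Sym.Numeric
import Vale.Agent.Lib.P254.Transfer

open MeasureTheory Set

namespace Vale.Agent.Lib.P254

variable {n : ℕ}

/-- Positive volume of a compact set with nonempty interior. -/
lemma vol_pos_of_interior {K : Set (Fin n → ℝ)} (hK : IsCompact K)
    (hi : (interior K).Nonempty) : 0 < vol K := by
  unfold vol
  apply ENNReal.toReal_pos
  · exact (lt_of_lt_of_le (isOpen_interior.measure_pos volume hi)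
      (measure_mono interior_subset)).ne'
  · exact hK.measure_lt_top.ne

/-- The explicit constant in closed form. -/
lemma oneSym_const_eq (hn : 2 ≤ n) :
    (81 / 64 : ℝ) * (3 / 2) ^ (n - 2) / 12 ^ n = 9 / 16 / 8 ^ n := by
  obtain ⟨m, rfl⟩ : ∃ m, n = m + 2 := ⟨n - 2, by omega⟩
  have e : m + 2 - 2 = m := by omega
  rw [e, pow_add, pow_add]
  have h12 : (12:ℝ) ^ m = (3 / 2) ^ m * 8 ^ m := by
    rw [← mul_pow]; norm_num
  rw [h12]
  have h1 : (0:ℝ) < (3 / 2) ^ m := by positivity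
  have h2 : (0:ℝ) < 8 ^ m := by positivity
  field_simp
  ring

/-- The ratio `det Σ_K / |K|²` of a 1-symmetric convex body is at most `(9/16) / 8^n`. -/
theorem oneSym_ratio_le (hn : 2 ≤ n) {K : Set (Fin n → ℝ)} (hK : OneSym K)
    (hi : (interior K).Nonempty) :
    (covMatrix K).det / (vol K) ^ 2 ≤ 9 / 16 / 8 ^ n ∧ 0 ≤ (covMatrix K).det / (vol K) ^ 2 := by
  have hV : 0 < vol K := vol_pos_of_interior hK.1 hi
  let i0 : Fin n := ⟨0, by omega⟩
  have hdet := hK.det_covMatrix i0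
  have hb := oneSym_moment_bound n hn K hK i0
  have hm2 : 0 ≤ m2 K i0 := integral_nonneg fun x => sq_nonneg (x i0)
  have hratio : (covMatrix K).det / (vol K) ^ 2 = (12 * m2 K i0) ^ n / (12 ^ n * (vol K) ^ (n + 2)) := by
    rw [hdet, mul_pow, mul_pow, inv_pow, pow_add]
    field_simp
  have hle : (12 * m2 K i0) ^ n / (12 ^ n * (vol K) ^ (n + 2)) ≤
      81 / 64 * (3 / 2) ^ (n - 2) / 12 ^ n := by
    rw [div_le_div_iff₀ (by positivity) (by positivity)]
    calc (12 * m2 K i0) ^ n * 12 ^ n ≤ 81 / 64 * (3 / 2) ^ (n - 2) * vol K ^ (n + 2) * 12 ^ n :=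
          mul_le_mul_of_nonneg_right hb (by positivity)
      _ = 81 / 64 * (3 / 2) ^ (n - 2) * (12 ^ n * vol K ^ (n + 2)) := by ring
  refine ⟨by rw [hratio, ← oneSym_const_eq hn]; exact hle, ?_⟩
  rw [hratio]; positivity

/-- The ratio `det Σ_K / |K|²` of a 1-symmetric convex body is below the simplex value. -/
theorem oneSym_ratio_lt (hn : 2 ≤ n) {K : Set (Fin n → ℝ)} (hK : OneSym K)
    (hi : (interior K).Nonempty) :
    (covMatrix K).det / (vol K) ^ 2 < simplexRatio n ∧ 0 ≤ (covMatrix K).det / (vol K) ^ 2 := by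
  obtain ⟨h1, h0⟩ := oneSym_ratio_le hn hK hi
  refine ⟨lt_of_le_of_lt h1 ?_, h0⟩
  rw [← oneSym_const_eq hn]
  exact numeric_bound n hn

/-- **Strong isotropic constant inequality for 1-symmetric convex bodies**, with the explicit
bound `L_K^(2n) = det Σ_K / |K|² ≤ (9/16) / 8^n`. -/
theorem oneSym_isotropic_lt (hn : 2 ≤ n) (K : Set (Fin n → ℝ)) (hK : IsCompact K)
    (hc : Convex ℝ K) (hi : (interior K).Nonempty)
    (hperm : ∀ σ : Equiv.Perm (Fin n), ∀ x ∈ K, x ∘ σ ∈ K)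
    (hsign : ∀ i : Fin n, ∀ x ∈ K, Function.update x i (-(x i)) ∈ K)
    (T : Fin (n+1) → Fin n → ℝ) (hT : AffineIndependent ℝ T) :
    isotropicConstant K < isotropicConstant (convexHull ℝ (Set.range T)) ∧
      (covMatrix K).det / (vol K) ^ 2 ≤ 9 / 16 / 8 ^ n := by
  have hS : OneSym K := ⟨hK, hc, hperm, hsign⟩
  obtain ⟨h1, h0⟩ := oneSym_ratio_lt hn hS hi
  refine ⟨?_, (oneSym_ratio_le hn hS hi).1⟩
  unfold isotropicConstant
  rw [ratio_general_simplex T hT]
  have hpos : (0:ℝ) < 1 / (2 * (n:ℝ)) := by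
    have : (0:ℝ) < n := by exact_mod_cast (by omega : 0 < n)
    positivity
  exact Real.rpow_lt_rpow h0 h1 hpos

end Vale.Agent.Lib.P254
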