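import Vale.Agent.Lib.P254.Sym.BM1

open MeasureTheory Set

namespace Vale.Agent.Lib.P254

/-- The superlevel measure `t ↦ |{x | t ≤ f x}|` is antitone, hence measurable. -/
private theorem pl1n_level_measurable (f : ℝ → ℝ) :
    Measurable (fun t : ℝ => volume {x : ℝ | t ≤ f x}) := by
  apply Antitone.measurable
  intro s t hst
  apply measure_mono
  intro x hx
  exact le_trans hst hx

/-- Layer cake upper bound for a function with values in `[0, 1]`. -/
private theorem pl1n_layer_le (f : ℝ → ℝ) (hf0 : ∀ x, 0 ≤ f x) (hfm : Measurable f)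
    (hf1 : ∀ x, f x ≤ 1) :
    (∫⁻ x, ENNReal.ofReal (f x)) ≤ ∫⁻ t in Ioo (0 : ℝ) 1, volume {x : ℝ | t ≤ f x} := by
  rw [lintegral_eq_lintegral_meas_le volume (Filter.Eventually.of_forall hf0) hfm.aemeasurable]
  have hsplit : Ioi (0 : ℝ) ⊆ Ioo (0 : ℝ) 1 ∪ Ici 1 := by
    intro t ht
    by_cases h1 : t < 1
    · exact Or.inl ⟨ht, h1⟩
    · exact Or.inr (not_lt.1 h1)
  have hzero : (∫⁻ t in Ici (1 : ℝ), volume {x : ℝ | t ≤ f x}) = 0 := by
    rw [← setLIntegral_congr (Ioi_ae_eq_Ici (μ := (volume : Measure ℝ)) (a := (1 : ℝ)))]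
    have h0 : EqOn (fun t : ℝ => volume {x : ℝ | t ≤ f x}) (fun _ => 0) (Ioi (1 : ℝ)) := by
      intro t ht
      have hempty : {x : ℝ | t ≤ f x} = ∅ := by
        apply Set.eq_empty_iff_forall_notMem.2
        intro x hx
        have hx' : t ≤ f x := hx
        have ht' : (1 : ℝ) < t := ht
        linarith [hf1 x]
      simp [hempty]
    rw [setLIntegral_congr_fun measurableSet_Ioi h0]
    simp
  have h2 := lintegral_union_le (μ := (volume : Measure ℝ))
    (fun t : ℝ => volume {x : ℝ | t ≤ f x}) (Ioo (0 : ℝ) 1) (Ici 1)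
  rw [hzero, add_zero] at h2
  exact le_trans (lintegral_mono_set hsplit) h2

/-- Normalised one-dimensional Prékopa–Leindler inequality (both suprema equal to one),
in its additive form. -/
theorem pl_normalized (f g h : ℝ → ℝ) (a b : ℝ) (ha : 0 < a) (hb : 0 < b) (hab : a + b = 1)
    (hf0 : ∀ x, 0 ≤ f x) (hg0 : ∀ x, 0 ≤ g x) (hh0 : ∀ x, 0 ≤ h x)
    (hfm : Measurable f) (hgm : Measurable g) (hhm : Measurable h)
    (hfi : Integrable f) (hgi : Integrable g) (hhi : Integrable h)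
    (hf1 : ∀ x, f x ≤ 1) (hg1 : ∀ x, g x ≤ 1)
    (hfs : ∀ c : ℝ, c < 1 → ∃ x, c ≤ f x) (hgs : ∀ c : ℝ, c < 1 → ∃ x, c ≤ g x)
    (hfq : ∀ c : ℝ, 0 < c → Convex ℝ {x | c ≤ f x})
    (hgq : ∀ c : ℝ, 0 < c → Convex ℝ {x | c ≤ g x})
    (hfgh : ∀ x y, f x ^ a * g y ^ b ≤ h (a * x + b * y)) :
    a * (∫ x, f x) + b * (∫ x, g x) ≤ ∫ x, h x := by
  -- pointwise Brunn-Minkowski for the superlevel sets
  have hpt : ∀ t ∈ Ioo (0 : ℝ) 1,
      ENNReal.ofReal a * volume {x : ℝ | t ≤ f x} + ENNReal.ofReal b * volume {x : ℝ | t ≤ g x}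
        ≤ volume {x : ℝ | t ≤ h x} := by
    intro t ht
    apply bm_one _ _ _ a b ha hb (hfq t ht.1) (hgq t ht.1) (hfs t ht.2) (hgs t ht.2)
    intro x hx y hy
    have hx' : t ≤ f x := hx
    have hy' : t ≤ g y := hy
    have h1 : t ^ a ≤ f x ^ a := Real.rpow_le_rpow ht.1.le hx' ha.le
    have h2 : t ^ b ≤ g y ^ b := Real.rpow_le_rpow ht.1.le hy' hb.le
    have h3 : t ^ a * t ^ b = t := by
      rw [← Real.rpow_add ht.1, hab, Real.rpow_one]
    have h4 : t ^ a * t ^ b ≤ f x ^ a * g y ^ b :=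
      mul_le_mul h1 h2 (Real.rpow_nonneg ht.1.le b) (Real.rpow_nonneg (hf0 x) a)
    show t ≤ h (a * x + b * y)
    calc t = t ^ a * t ^ b := h3.symm
      _ ≤ f x ^ a * g y ^ b := h4
      _ ≤ h (a * x + b * y) := hfgh x y
  -- integrate over the levels
  have hF := pl1n_layer_le f hf0 hfm hf1
  have hG := pl1n_layer_le g hg0 hgm hg1
  have hH : (∫⁻ t in Ioo (0 : ℝ) 1, volume {x : ℝ | t ≤ h x}) ≤ ∫⁻ x, ENNReal.ofReal (h x) := by
    rw [lintegral_eq_lintegral_meas_le volume (Filter.Eventually.of_forall hh0)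
      hhm.aemeasurable]
    exact lintegral_mono_set Ioo_subset_Ioi_self
  have e1 : (∫⁻ t in Ioo (0 : ℝ) 1, (ENNReal.ofReal a * volume {x : ℝ | t ≤ f x}
        + ENNReal.ofReal b * volume {x : ℝ | t ≤ g x}))
      = ENNReal.ofReal a * (∫⁻ t in Ioo (0 : ℝ) 1, volume {x : ℝ | t ≤ f x})
        + ENNReal.ofReal b * (∫⁻ t in Ioo (0 : ℝ) 1, volume {x : ℝ | t ≤ g x}) := by
    rw [lintegral_add_left ((pl1n_level_measurable f).const_mul _),
      lintegral_const_mul _ (pl1n_level_measurable f),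
      lintegral_const_mul _ (pl1n_level_measurable g)]
  have hmid : ENNReal.ofReal a * (∫⁻ t in Ioo (0 : ℝ) 1, volume {x : ℝ | t ≤ f x})
      + ENNReal.ofReal b * (∫⁻ t in Ioo (0 : ℝ) 1, volume {x : ℝ | t ≤ g x})
      ≤ ∫⁻ t in Ioo (0 : ℝ) 1, volume {x : ℝ | t ≤ h x} := by
    rw [← e1]
    exact setLIntegral_mono' measurableSet_Ioo hpt
  have hmain : ENNReal.ofReal a * (∫⁻ x, ENNReal.ofReal (f x))
      + ENNReal.ofReal b * (∫⁻ x, ENNReal.ofReal (g x)) ≤ ∫⁻ x, ENNReal.ofReal (h x) :=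
    le_trans (add_le_add (mul_le_mul_right hF _) (mul_le_mul_right hG _)) (le_trans hmid hH)
  -- back to Bochner integrals
  rw [← ofReal_integral_eq_lintegral_ofReal hfi (Filter.Eventually.of_forall hf0),
    ← ofReal_integral_eq_lintegral_ofReal hgi (Filter.Eventually.of_forall hg0),
    ← ofReal_integral_eq_lintegral_ofReal hhi (Filter.Eventually.of_forall hh0)] at hmain
  have hfint : 0 ≤ ∫ x, f x := integral_nonneg hf0
  have hgint : 0 ≤ ∫ x, g x := integral_nonneg hg0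
  have hhint : 0 ≤ ∫ x, h x := integral_nonneg hh0
  rw [← ENNReal.ofReal_mul ha.le, ← ENNReal.ofReal_mul hb.le,
    ← ENNReal.ofReal_add (mul_nonneg ha.le hfint) (mul_nonneg hb.le hgint)] at hmain
  exact (ENNReal.ofReal_le_ofReal_iff hhint).1 hmain

end Vale.Agent.Lib.P254
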